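import Mathlib
import Crest.Prelude.Def_AsymptoticConvexity

set_option autoImplicit false

namespace Crest.Agent.H4AUC

open Finset Filter Topology

variable {X : Type} [NormedAddCommGroup X] [NormedSpace ℝ X]

/-- closed finite-codimensional subspace -/
def IsCofS (S : Submodule ℝ X) : Prop := IsClosed (S : Set X) ∧ FiniteDimensional ℝ (X ⧸ S)

lemma isCofS_ker {Y : Type*} [NormedAddCommGroup Y] [NormedSpace ℝ Y] [FiniteDimensional ℝ Y]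
    (Φ : X →L[ℝ] Y) : IsCofS (LinearMap.ker (Φ : X →ₗ[ℝ] Y)) :=
  ⟨Φ.isClosed_ker, (LinearMap.quotKerEquivRange (Φ : X →ₗ[ℝ] Y)).symm.finiteDimensional⟩

lemma IsCofS.exists_map {S : Submodule ℝ X} (hS : IsCofS S) :
    ∃ (k : ℕ) (Φ : X →L[ℝ] (Fin k → ℝ)) (C : ℝ), 0 < C ∧
      ∀ v, ∃ y ∈ S, ‖v - y‖ ≤ C * ‖Φ v‖ := by
  haveI : IsClosed (S : Set X) := hS.1
  haveI := hS.2
  let b := Module.finBasis ℝ (X ⧸ S)
  let q : X →L[ℝ] (X ⧸ S) := S.mkQ.mkContinuous 1 (fun m => by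
    rw [one_mul]; exact Submodule.Quotient.norm_mk_le S m)
  let Φ : X →L[ℝ] (Fin (Module.finrank ℝ (X ⧸ S)) → ℝ) :=
    (b.equivFunL : (X ⧸ S) →L[ℝ] _).comp q
  choose e he using fun i => Submodule.Quotient.mk_surjective S (b i)
  refine ⟨_, Φ, ∑ i, ‖e i‖ + 1, by positivity, fun v => ⟨v - ∑ i, Φ v i • e i, ?_, ?_⟩⟩
  · rw [← Submodule.Quotient.mk_eq_zero, ← Submodule.mkQ_apply, map_sub, map_sum, sub_eq_zero]
    simp only [map_smul, Submodule.mkQ_apply, he]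
    exact (b.sum_repr (Submodule.Quotient.mk v)).symm
  · rw [sub_sub_cancel]
    calc ‖∑ i, Φ v i • e i‖ ≤ ∑ i, ‖e i‖ * ‖Φ v‖ := by
          refine (norm_sum_le _ _).trans (sum_le_sum fun i _ => ?_)
          rw [norm_smul, mul_comm]
          exact mul_le_mul_of_nonneg_left (norm_le_pi_norm _ i) (norm_nonneg _)
      _ ≤ _ := by rw [← sum_mul]; gcongr; linarith

lemma IsCofS.inf {S T : Submodule ℝ X} (hS : IsCofS S) (hT : IsCofS T) : IsCofS (S ⊓ T) := by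
  refine ⟨hS.1.inter hT.1, ?_⟩
  haveI := hS.2
  haveI := hT.2
  have h : LinearMap.ker (S.mkQ.prod T.mkQ) = S ⊓ T := by
    rw [LinearMap.ker_prod, Submodule.ker_mkQ, Submodule.ker_mkQ]
  rw [← h]
  exact (LinearMap.quotKerEquivRange _).symm.finiteDimensional

lemma tendsto_of_l2 (d : ℕ → X) (C : ℝ)
    (h : ∀ (A : Finset ℕ) (a : ℕ → ℝ), ‖∑ n ∈ A, a n • d n‖ ≤ C * √(∑ n ∈ A, a n ^ 2))
    (φ : X →L[ℝ] ℝ) : Tendsto (fun n => φ (d n)) atTop (𝓝 0) := by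
  have hb : ∀ A : Finset ℕ, ∑ n ∈ A, φ (d n) ^ 2 ≤ (‖φ‖ * C) ^ 2 := by
    intro A
    set s := ∑ n ∈ A, φ (d n) ^ 2 with hs
    have hs0 : 0 ≤ s := sum_nonneg fun _ _ => sq_nonneg _
    have h1 : s = φ (∑ n ∈ A, φ (d n) • d n) := by
      rw [map_sum]; exact sum_congr rfl fun n _ => by simp [sq]
    have h2 : s ≤ ‖φ‖ * (C * √s) := by
      calc s = φ (∑ n ∈ A, φ (d n) • d n) := h1
        _ ≤ ‖φ (∑ n ∈ A, φ (d n) • d n)‖ := le_abs_self _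
        _ ≤ ‖φ‖ * ‖∑ n ∈ A, φ (d n) • d n‖ := φ.le_opNorm _
        _ ≤ _ := mul_le_mul_of_nonneg_left (h A _) (norm_nonneg _)
    have h3 : √s * √s = s := Real.mul_self_sqrt hs0
    have h4 := Real.sqrt_nonneg s
    nlinarith [sq_nonneg (√s - ‖φ‖ * C)]
  have hsum : Summable fun n => φ (d n) ^ 2 :=
    summable_of_sum_le (fun n => sq_nonneg _) hb
  have h0 := hsum.tendsto_atTop_zero
  have h1 := (Real.continuous_sqrt.tendsto 0).comp h0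
  rw [Real.sqrt_zero] at h1
  rw [tendsto_zero_iff_abs_tendsto_zero]
  refine h1.congr fun n => ?_
  simp [Real.sqrt_sq_eq_abs]

lemma exists_near_of_l2 (d : ℕ → X) (C : ℝ)
    (h : ∀ (A : Finset ℕ) (a : ℕ → ℝ), ‖∑ n ∈ A, a n • d n‖ ≤ C * √(∑ n ∈ A, a n ^ 2))
    {S : Submodule ℝ X} (hS : IsCofS S) (η : ℝ) (hη : 0 < η) :
    ∃ n, ∃ y ∈ S, ‖d n - y‖ ≤ η := by
  obtain ⟨k, Φ, C', hC', hΦ⟩ := hS.exists_map
  have h1 : Tendsto (fun n => Φ (d n)) atTop (𝓝 0) :=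
    tendsto_pi_nhds.mpr fun i =>
      tendsto_of_l2 d C h ((ContinuousLinearMap.proj i : (Fin k → ℝ) →L[ℝ] ℝ).comp Φ)
  have h2 := (tendsto_zero_iff_norm_tendsto_zero.mp h1).eventually
    (gt_mem_nhds (show (0 : ℝ) < η / C' by positivity))
  obtain ⟨n, hn⟩ := h2.exists
  obtain ⟨y, hy, hy'⟩ := hΦ (d n)
  refine ⟨n, y, hy, hy'.trans ?_⟩
  rw [lt_div_iff₀ hC'] at hn
  linarith

/-- bundle -/
def mk (X : Type) [NormedAddCommGroup X] [NormedSpace ℝ X] [CompleteSpace X] :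
    Crest.AnalysisR.RealBanach := ⟨X, inferInstance, inferInstance, inferInstance⟩

/-- no equivalent asymptotically uniformly convex norm -/
def NoAUC (X : Type) [NormedAddCommGroup X] [NormedSpace ℝ X] [CompleteSpace X] : Prop :=
  ∀ N : X → ℝ, (mk X).IsEquivNorm N → ¬ (mk X).IsAUC N

lemma noAUC_of_sets [CompleteSpace X] (K : ℕ → Set X) (M m δ : ℝ) (hm : 0 < m) (hδ : 0 < δ)
    (hM : ∀ n, ∀ x ∈ K n, ‖x‖ ≤ M) (hstart : ∀ n, ∃ x ∈ K n, m ≤ ‖x‖)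
    (hstep : ∀ n, ∀ x ∈ K (n + 1), ∀ S : Submodule ℝ X, IsCofS S → ∀ η : ℝ, 0 < η →
      ∃ z ∈ K n, ∃ y ∈ S, ‖z - x - y‖ ≤ η ∧ δ ≤ ‖z - x‖) : NoAUC X := by
  rintro N ⟨hadd, hsmul, a, b, ha, hab⟩ hAUC
  change ∀ x y : X, N (x + y) ≤ N x + N y at hadd
  change ∀ (c : ℝ) (x : X), N (c • x) = |c| * N x at hsmul
  change ∀ x : X, a * ‖x‖ ≤ N x ∧ N x ≤ b * ‖x‖ at hab
  obtain ⟨x0, hx0, hx0m⟩ := hstart 0
  have hMpos : 0 < M := lt_of_lt_of_le hm (hx0m.trans (hM 0 x0 hx0))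
  have hb : 0 < b := by
    have h1 := (hab x0).1.trans (hab x0).2
    have h2 : 0 < ‖x0‖ := lt_of_lt_of_le hm hx0m
    nlinarith
  obtain ⟨c, hc, hAUC⟩ := hAUC (a * δ / (2 * b * M)) (by positivity)
  change ∀ x : X, N x = 1 → ∃ F : Set X,
    (∃ S : Submodule ℝ X, (S : Set X) = F ∧ IsClosed F ∧ FiniteDimensional ℝ (X ⧸ S)) ∧
    ∀ y ∈ F, N y = 1 → c ≤ N (x + (a * δ / (2 * b * M)) • y) - 1 at hAUC
  set t := a * δ / (2 * b * M) with ht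
  have ht0 : 0 < t := by positivity
  have key : ∀ n, ∀ x ∈ K n, a * m ≤ N x → (1 + c / 2) ^ n * N x ≤ b * M := by
    intro n
    induction n with
    | zero =>
      intro x hx _
      rw [pow_zero, one_mul]
      exact (hab x).2.trans (mul_le_mul_of_nonneg_left (hM 0 x hx) hb.le)
    | succ n ih =>
      intro x hx hxm
      set r := N x with hr
      have hr0 : 0 < r := lt_of_lt_of_le (by positivity) hxm
      have hrM : r ≤ b * M := (hab x).2.trans (mul_le_mul_of_nonneg_left (hM _ x hx) hb.le)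
      obtain ⟨F, ⟨S, rfl, hS1, hS2⟩, hF⟩ := hAUC (r⁻¹ • x) (by
        rw [hsmul, abs_of_pos (inv_pos.mpr hr0), ← hr, inv_mul_cancel₀ hr0.ne'])
      obtain ⟨z, hz, y, hy, hzy, hzx⟩ := hstep n x hx S ⟨hS1, hS2⟩
        (min (δ / 2) (c * (a * m) / (2 * b))) (by positivity)
      have hη1 := hzy.trans (min_le_left _ _)
      have hη2 := hzy.trans (min_le_right _ _)
      have hy1 : δ / 2 ≤ ‖y‖ := by
        have := norm_sub_norm_le (z - x) y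
        linarith
      set s := N y with hs
      have hs1 : a * (δ / 2) ≤ s := (mul_le_mul_of_nonneg_left hy1 ha.le).trans (hab y).1
      have hs0 : 0 < s := lt_of_lt_of_le (by positivity) hs1
      have h1 := hF (s⁻¹ • y) (S.smul_mem _ hy) (by
        rw [hsmul, abs_of_pos (inv_pos.mpr hs0), ← hs, inv_mul_cancel₀ hs0.ne'])
      set θ := t * r / s with hθ
      have hθ0 : 0 < θ := by positivity
      have hθ1 : θ ≤ 1 := by
        rw [hθ, div_le_one hs0]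
        calc t * r ≤ t * (b * M) := mul_le_mul_of_nonneg_left hrM ht0.le
          _ = a * (δ / 2) := by rw [ht]; field_simp
          _ ≤ s := hs1
      have h2 : r⁻¹ • x + t • s⁻¹ • y = ((1 - θ) * r⁻¹) • x + (θ * r⁻¹) • (x + y) := by
        have : θ * r⁻¹ = t * s⁻¹ := by rw [hθ]; field_simp
        rw [smul_add, smul_smul, ← this]
        module
      rw [h2] at h1
      have h3 := hadd (((1 - θ) * r⁻¹) • x) ((θ * r⁻¹) • (x + y))
      rw [hsmul, hsmul, abs_of_nonneg (mul_nonneg (by linarith) (inv_pos.mpr hr0).le),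
        abs_of_nonneg (mul_nonneg hθ0.le (inv_pos.mpr hr0).le), ← hr, mul_assoc,
        inv_mul_cancel₀ hr0.ne'] at h3
      have h4 : r * (1 + c) ≤ N (x + y) := by
        have h5 : c + θ ≤ θ * (r⁻¹ * N (x + y)) := by linarith
        have h6 : θ * (1 + c) ≤ θ * (r⁻¹ * N (x + y)) := by nlinarith
        have h7 := le_of_mul_le_mul_left h6 hθ0
        have h8 := mul_le_mul_of_nonneg_left h7 hr0.le
        rwa [← mul_assoc, mul_inv_cancel₀ hr0.ne', one_mul] at h8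
      have h5 : N (x + y) ≤ N z + b * ‖z - x - y‖ := by
        have e : x + y = z + (-1 : ℝ) • (z - x - y) := by module
        rw [e]
        refine (hadd _ _).trans ?_
        rw [hsmul]
        have := (hab (z - x - y)).2
        simp only [abs_neg, abs_one, one_mul]
        linarith
      have h6 : b * ‖z - x - y‖ ≤ c * r / 2 := by
        calc b * ‖z - x - y‖ ≤ b * (c * (a * m) / (2 * b)) := mul_le_mul_of_nonneg_left hη2 hb.le
          _ = c * (a * m) / 2 := by field_simp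
          _ ≤ c * r / 2 := by gcongr
      have h7 : (1 + c / 2) * r ≤ N z := by linarith
      have h8 := ih z hz (by nlinarith)
      calc (1 + c / 2) ^ (n + 1) * r = (1 + c / 2) ^ n * ((1 + c / 2) * r) := by ring
        _ ≤ (1 + c / 2) ^ n * N z := mul_le_mul_of_nonneg_left h7 (by positivity)
        _ ≤ _ := h8
  obtain ⟨n, hn⟩ := pow_unbounded_of_one_lt (b * M / (a * m)) (show 1 < 1 + c / 2 by linarith)
  obtain ⟨x, hx, hxm⟩ := hstart n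
  have h1 : a * m ≤ N x := (mul_le_mul_of_nonneg_left hxm ha.le).trans (hab x).1
  have h2 := key n x hx h1
  rw [div_lt_iff₀ (by positivity)] at hn
  have h3 : (1 + c / 2) ^ n * (a * m) ≤ (1 + c / 2) ^ n * N x :=
    mul_le_mul_of_nonneg_left h1 (by positivity)
  linarith

lemma noAUC_of_tree [CompleteSpace X] (M m δ : ℝ) (hm : 0 < m) (hδ : 0 < δ)
    (h : ∀ D : ℕ, ∃ p : List ℕ → X, m ≤ ‖p []‖ ∧ (∀ s, s.length ≤ D → ‖p s‖ ≤ M) ∧
      (∀ s n, δ ≤ ‖p (n :: s) - p s‖) ∧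
      ∀ s, ∃ C : ℝ, ∀ (A : Finset ℕ) (a : ℕ → ℝ),
        ‖∑ n ∈ A, a n • (p (n :: s) - p s)‖ ≤ C * √(∑ n ∈ A, a n ^ 2)) : NoAUC X := by
  choose p hp0 hpM hpδ hp2 using h
  refine noAUC_of_sets (fun n => {x | ∃ D s, s.length + n ≤ D ∧ x = p D s}) M m δ hm hδ ?_ ?_ ?_
  · rintro n x ⟨D, s, hs, rfl⟩
    exact hpM D s (by omega)
  · intro n
    exact ⟨p n [], ⟨n, [], by simp, rfl⟩, hp0 n⟩
  · rintro n x ⟨D, s, hs, rfl⟩ S hS η hη
    obtain ⟨C, hC⟩ := hp2 D s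
    obtain ⟨k, y, hy, hky⟩ := exists_near_of_l2 _ C hC hS η hη
    exact ⟨p D (k :: s), ⟨D, k :: s, by simp; omega, rfl⟩, y, hy, hky, hpδ D s k⟩

lemma NoAUC.not_finiteDimensional [CompleteSpace X] (h : NoAUC X) : ¬ FiniteDimensional ℝ X := by
  intro hfin
  refine h (fun x => ‖x‖) ⟨fun x y => norm_add_le (E := X) x y, fun a x => norm_smul (β := X) a x,
    1, 1, one_pos, fun x => ⟨by simp; rfl, by simp; rfl⟩⟩ ?_
  intro t ht
  refine ⟨1, one_pos, fun x hx => ⟨((⊥ : Submodule ℝ X) : Set X), ⟨⊥, rfl, ?_, ?_⟩, ?_⟩⟩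
  · change IsClosed (((⊥ : Submodule ℝ X) : Set X))
    simp
  · change FiniteDimensional ℝ (X ⧸ (⊥ : Submodule ℝ X))
    infer_instance
  · intro y hy hy1
    change y ∈ ((⊥ : Submodule ℝ X) : Set X) at hy
    have : y = (0 : X) := (Submodule.mem_bot ℝ).mp hy
    subst this
    change ‖(0 : X)‖ = 1 at hy1
    simp at hy1

/-- the strong midpoint property -/
def MidProp (X : Type) [NormedAddCommGroup X] [NormedSpace ℝ X] : Prop :=
  ∀ (x : X) (η : ℝ), 0 < η → ∃ S : Submodule ℝ X, IsCofS S ∧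
    ∀ y ∈ S, √(4 * ‖x‖ ^ 2 + ‖y‖ ^ 2) - η ≤ ‖x + y‖ + ‖x - y‖

lemma midGE_of [CompleteSpace X] (t c : ℝ)
    (h : ∀ x : X, ‖x‖ = 1 → ∀ η : ℝ, 0 < η → ∃ S : Submodule ℝ X, IsCofS S ∧
      ∀ y ∈ S, ‖y‖ = 1 → c - η ≤ (‖x + t • y‖ + ‖x - t • y‖) / 2 - 1) :
    (mk X).MidpointModulusGE (mk X).norm t c := by
  intro x hx η hη
  obtain ⟨S, hS, h'⟩ := h x hx η hη
  exact ⟨(S : Set X), ⟨S, rfl, hS.1, hS.2⟩, h'⟩

lemma maxGE_of [CompleteSpace X] (t c : ℝ)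
    (h : ∀ x : X, ‖x‖ = 1 → ∀ η : ℝ, 0 < η → ∃ S : Submodule ℝ X, IsCofS S ∧
      ∀ y ∈ S, ‖y‖ = 1 → c - η ≤ max ‖x + t • y‖ ‖x - t • y‖ - 1) :
    (mk X).MaxMidpointModulusGE (mk X).norm t c := by
  intro x hx η hη
  obtain ⟨S, hS, h'⟩ := h x hx η hη
  exact ⟨(S : Set X), ⟨S, rfl, hS.1, hS.2⟩, h'⟩

lemma oneGE_of [CompleteSpace X] (t c : ℝ)
    (h : ∀ x : X, ‖x‖ = 1 → ∀ η : ℝ, 0 < η → ∃ S : Submodule ℝ X, IsCofS S ∧
      ∀ y ∈ S, ‖y‖ = 1 → c - η ≤ ‖x + t • y‖ - 1) :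
    (mk X).OneSidedModulusGE (mk X).norm t c := by
  intro x hx η hη
  obtain ⟨S, hS, h'⟩ := h x hx η hη
  exact ⟨(S : Set X), ⟨S, rfl, hS.1, hS.2⟩, h'⟩

lemma midLE_of [CompleteSpace X] (t c : ℝ)
    (h : ∀ x : X, ‖x‖ = 1 → ∀ S : Submodule ℝ X, IsCofS S → ∀ η : ℝ, 0 < η →
      ∃ y ∈ S, ‖y‖ = 1 ∧ (‖x + t • y‖ + ‖x - t • y‖) / 2 - 1 ≤ c + η) :
    (mk X).MidpointModulusLE (mk X).norm t c := by
  rintro x hx F ⟨S, rfl, h1, h2⟩ η hη
  exact h x hx S ⟨h1, h2⟩ η hη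

lemma oneLE_of [CompleteSpace X] (t c : ℝ)
    (h : ∀ x : X, ‖x‖ = 1 → ∀ S : Submodule ℝ X, IsCofS S → ∀ η : ℝ, 0 < η →
      ∃ y ∈ S, ‖y‖ = 1 ∧ ‖x + t • y‖ - 1 ≤ c + η) :
    (mk X).OneSidedModulusLE (mk X).norm t c := by
  rintro x hx F ⟨S, rfl, h1, h2⟩ η hη
  exact h x hx S ⟨h1, h2⟩ η hη

lemma MidProp.aux (h : MidProp X) (t : ℝ) (ht : 0 < t) (x : X) (hx : ‖x‖ = 1) (η : ℝ)
    (hη : 0 < η) : ∃ S : Submodule ℝ X, IsCofS S ∧
      ∀ y ∈ S, ‖y‖ = 1 → √(1 + t ^ 2 / 4) - 1 - η ≤ (‖x + t • y‖ + ‖x - t • y‖) / 2 - 1 := by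
  obtain ⟨S, hS, hmid⟩ := h x η hη
  refine ⟨S, hS, fun y hy hy1 => ?_⟩
  have h1 := hmid (t • y) (S.smul_mem t hy)
  rw [norm_smul, hx, hy1, Real.norm_eq_abs, abs_of_pos ht] at h1
  have h2 : √(4 * 1 ^ 2 + (t * 1) ^ 2) = 2 * √(1 + t ^ 2 / 4) := by
    rw [show (4 * 1 ^ 2 + (t * 1) ^ 2 : ℝ) = 2 ^ 2 * (1 + t ^ 2 / 4) by ring,
      Real.sqrt_mul (by norm_num), Real.sqrt_sq (by norm_num)]
  rw [h2] at h1
  linarith

lemma MidProp.mid [CompleteSpace X] (h : MidProp X) (t : ℝ) (ht : 0 < t) (c : ℝ)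
    (hc : c ≤ √(1 + t ^ 2 / 4) - 1) : (mk X).MidpointModulusGE (mk X).norm t c := by
  refine midGE_of t c fun x hx η hη => ?_
  obtain ⟨S, hS, h'⟩ := h.aux t ht x hx η hη
  exact ⟨S, hS, fun y hy hy1 => le_trans (by linarith) (h' y hy hy1)⟩

lemma MidProp.maxmid [CompleteSpace X] (h : MidProp X) (t : ℝ) (ht : 0 < t) :
    (mk X).MaxMidpointModulusGE (mk X).norm t (√(1 + t ^ 2 / 4) - 1) := by
  refine maxGE_of t _ fun x hx η hη => ?_
  obtain ⟨S, hS, h'⟩ := h.aux t ht x hx η hη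
  refine ⟨S, hS, fun y hy hy1 => (h' y hy hy1).trans ?_⟩
  have h1 := le_max_left ‖x + t • y‖ ‖x - t • y‖
  have h2 := le_max_right ‖x + t • y‖ ‖x - t • y‖
  linarith

end Crest.Agent.H4AUC
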