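import Mathlib
import Crest.Prelude.Def_DaugavetL1
import Crest.Agent.H4.AUC

set_option autoImplicit false

namespace Crest.Agent.H4AUC

open Finset Filter Topology MeasureTheory
open Crest.AnalysisR.L1Subspace

section slices

variable {V : Type*} [NormedAddCommGroup V] [NormedSpace ℝ V]

lemma exists_slice_pt (φ : V →L[ℝ] ℝ) (hφ : ‖φ‖ = 1) (ε : ℝ) (hε : 0 < ε) :
    ∃ z : V, ‖z‖ ≤ 1 ∧ 1 - ε < φ z := by
  obtain ⟨z, hz, hz'⟩ := φ.exists_lt_apply_of_lt_opNorm (r := 1 - ε) (by linarith)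
  rcases le_total 0 (φ z) with h | h
  · exact ⟨z, hz.le, by rwa [Real.norm_eq_abs, abs_of_nonneg h] at hz'⟩
  · exact ⟨-z, by simpa using hz.le, by rwa [Real.norm_eq_abs, abs_of_nonpos h, ← map_neg] at hz'⟩

lemma norm_inv_norm_smul {y : V} (hy : 0 < ‖y‖) : ‖‖y‖⁻¹ • y‖ = 1 := by
  rw [norm_smul, norm_inv, norm_norm, inv_mul_cancel₀ hy.ne']

lemma daug_slice (hD : HasDaugavetProperty V) (φ : V →L[ℝ] ℝ) (hφ : ‖φ‖ = 1) (ε : ℝ)
    (hε : 0 < ε) (y : V) :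
    ∃ (ψ : V →L[ℝ] ℝ) (ε' : ℝ), ‖ψ‖ = 1 ∧ 0 < ε' ∧
      ∀ z : V, ‖z‖ ≤ 1 → 1 - ε' < ψ z → 1 - ε < φ z ∧ ‖y‖ + 1 - ε ≤ ‖y + z‖ := by
  by_cases hy : y = 0
  · refine ⟨φ, ε, hφ, hε, fun z hz h => ⟨h, ?_⟩⟩
    have := (le_abs_self _).trans (φ.le_opNorm z)
    subst hy
    simp only [norm_zero, zero_add]
    rw [hφ] at this
    linarith
  set r := ‖y‖ with hr
  have hr0 : 0 < r := norm_pos_iff.mpr hy
  set e := min ε 1 with he
  have he0 : 0 < e := lt_min hε one_pos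
  have he1 : e ≤ 1 := min_le_right _ _
  have heε : e ≤ ε := min_le_left _ _
  set δ := min (e / 16) (r * e / 4) with hδ
  have hδ0 : 0 < δ := lt_min (by positivity) (by positivity)
  have hδ1 : δ ≤ e / 16 := min_le_left _ _
  have hδ2 : δ ≤ r * e / 4 := min_le_right _ _
  have h1 := hD φ y
  rw [ContinuousLinearMap.norm_smulRight_apply, hφ, one_mul, ← hr] at h1
  obtain ⟨z0, hz0, hz0', hpos⟩ : ∃ z0 : V, ‖z0‖ ≤ 1 ∧ 1 + r - δ < ‖z0 + φ z0 • y‖ ∧ 0 ≤ φ z0 := by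
    obtain ⟨z, hz, hz'⟩ := (ContinuousLinearMap.id ℝ V + φ.smulRight y).exists_lt_apply_of_lt_opNorm
      (r := 1 + r - δ) (by linarith)
    simp only [ContinuousLinearMap.add_apply, ContinuousLinearMap.id_apply,
      ContinuousLinearMap.smulRight_apply] at hz'
    rcases le_total 0 (φ z) with h | h
    · exact ⟨z, hz.le, hz', h⟩
    · refine ⟨-z, by simpa using hz.le, ?_, by rw [map_neg]; linarith⟩
      rw [map_neg, neg_smul, ← neg_add, norm_neg]; exact hz'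
  have hφle : ∀ z : V, ‖z‖ ≤ 1 → φ z ≤ 1 := fun z hz =>
    (le_abs_self _).trans ((φ.unit_le_opNorm z hz).trans hφ.le)
  have h2 : (1 - φ z0) * r < δ := by
    have := norm_add_le z0 (φ z0 • y)
    rw [norm_smul, Real.norm_eq_abs, abs_of_nonneg hpos, ← hr] at this
    nlinarith
  have h3 : 1 + r - 2 * δ < ‖z0 + y‖ := by
    have e1 : z0 + φ z0 • y = (z0 + y) - (1 - φ z0) • y := by module
    have := norm_sub_le (z0 + y) ((1 - φ z0) • y)
    rw [← e1, norm_smul, Real.norm_eq_abs, abs_of_nonneg (by linarith [hφle z0 hz0]), ← hr] at this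
    linarith
  obtain ⟨χ, hχ, hχ'⟩ := exists_dual_vector'' ℝ (z0 + y)
  have hχle : ∀ z : V, χ z ≤ ‖z‖ := fun z =>
    (le_abs_self _).trans ((χ.le_opNorm z).trans (by nlinarith [norm_nonneg z]))
  simp only [map_add, RCLike.ofReal_real_eq_id, id_eq] at hχ'
  have h4 : 1 - 2 * δ < χ z0 := by linarith [hχle y]
  have h5 : r - 2 * δ < χ y := by linarith [hχle z0]
  have h6 : 1 - e / 4 < φ z0 := by
    have : (1 - φ z0) * r < e / 4 * r := by linarith
    have := lt_of_mul_lt_mul_right this hr0.le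
    linarith
  set n := ‖φ + χ‖ with hn
  have h7 : 2 - 3 * e / 8 < n := by
    have := (le_abs_self _).trans ((φ + χ).unit_le_opNorm z0 hz0)
    simp only [ContinuousLinearMap.add_apply] at this
    linarith
  have hn0 : 0 < n := by linarith
  refine ⟨n⁻¹ • (φ + χ), e / 8, ?_, by positivity, fun z hz h => ?_⟩
  · rw [norm_smul, ← hn, norm_inv, Real.norm_eq_abs, abs_of_pos hn0, inv_mul_cancel₀ hn0.ne']
  · simp only [ContinuousLinearMap.smul_apply, ContinuousLinearMap.add_apply, smul_eq_mul] at h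
    rw [← div_eq_inv_mul, lt_div_iff₀ hn0] at h
    have h8 : 2 - 5 * e / 8 < φ z + χ z := by nlinarith
    have h9 := hφle z hz
    have h10 := (hχle z).trans hz
    have h11 := hχle (y + z)
    rw [map_add] at h11
    constructor <;> linarith

lemma daug_finset (hD : HasDaugavetProperty V) (φ : V →L[ℝ] ℝ) (hφ : ‖φ‖ = 1) (ε : ℝ)
    (hε : 0 < ε) {ι : Type*} (s : Finset ι) (y : ι → V) :
    ∃ z : V, ‖z‖ ≤ 1 ∧ 1 - ε < φ z ∧ ∀ i ∈ s, ‖y i‖ + 1 - ε ≤ ‖y i + z‖ := by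
  classical
  have key : ∃ (ψ : V →L[ℝ] ℝ) (ε' : ℝ), ‖ψ‖ = 1 ∧ 0 < ε' ∧ ε' ≤ ε ∧
      ∀ z : V, ‖z‖ ≤ 1 → 1 - ε' < ψ z → 1 - ε < φ z ∧ ∀ i ∈ s, ‖y i‖ + 1 - ε ≤ ‖y i + z‖ := by
    induction s using Finset.induction_on with
    | empty => exact ⟨φ, ε, hφ, hε, le_rfl, fun z _ h => ⟨h, by simp⟩⟩
    | insert j s _ ih =>
      obtain ⟨ψ, ε', hψ, hε', hle, h⟩ := ih
      obtain ⟨ψ', ε'', hψ', hε'', h'⟩ := daug_slice hD ψ hψ ε' hε' (y j)
      refine ⟨ψ', min ε'' ε, hψ', lt_min hε'' hε, min_le_right _ _, fun z hz hz' => ?_⟩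
      obtain ⟨a1, a2⟩ := h' z hz (by linarith [min_le_left ε'' ε])
      obtain ⟨b1, b2⟩ := h z hz a1
      refine ⟨b1, fun i hi => ?_⟩
      rcases mem_insert.mp hi with rfl | hi
      · linarith
      · exact b2 i hi
  obtain ⟨ψ, ε', hψ, hε', -, h⟩ := key
  obtain ⟨z, hz, hz'⟩ := exists_slice_pt ψ hψ ε' hε'
  exact ⟨z, hz, h z hz hz'⟩

end slices

section L1

variable {Ω : Type} [MeasurableSpace Ω] {P : Measure Ω}

/-- partial `L¹` norm -/
noncomputable def qn (A : Set Ω) (f : Lp ℝ 1 P) : ℝ := ∫ ω in A, |f ω| ∂P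

lemma qn_nonneg (A : Set Ω) (f : Lp ℝ 1 P) : 0 ≤ qn A f := integral_nonneg fun _ => abs_nonneg _

lemma qn_add_le (A : Set Ω) (f g : Lp ℝ 1 P) : qn A (f + g) ≤ qn A f + qn A g := by
  unfold qn
  rw [← integral_add (L1.integrable_coeFn f).abs.integrableOn (L1.integrable_coeFn g).abs.integrableOn]
  refine integral_mono_ae (L1.integrable_coeFn _).abs.integrableOn
    ((L1.integrable_coeFn f).abs.add (L1.integrable_coeFn g).abs).integrableOn ?_
  filter_upwards [ae_restrict_of_ae (Lp.coeFn_add f g)] with ω hω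
  rw [hω]; exact abs_add_le _ _

lemma qn_smul (A : Set Ω) (c : ℝ) (f : Lp ℝ 1 P) : qn A (c • f) = |c| * qn A f := by
  unfold qn
  rw [← integral_const_mul]
  refine integral_congr_ae ?_
  filter_upwards [ae_restrict_of_ae (Lp.coeFn_smul c f)] with ω hω
  rw [hω, Pi.smul_apply, smul_eq_mul, abs_mul]

lemma qn_sub_le (A : Set Ω) (f g : Lp ℝ 1 P) : qn A (f - g) ≤ qn A f + qn A g := by
  have := qn_add_le A f ((-1 : ℝ) • g)
  rw [qn_smul, neg_one_smul, ← sub_eq_add_neg] at this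
  simpa using this

lemma qn_compl {A : Set Ω} (hA : MeasurableSet A) (f : Lp ℝ 1 P) : qn A f + qn Aᶜ f = ‖f‖ := by
  unfold qn
  rw [integral_add_compl hA (L1.integrable_coeFn f).abs, L1.norm_eq_integral_norm]
  rfl

lemma qn_mono {A B : Set Ω} (h : A ⊆ B) (f : Lp ℝ 1 P) : qn A f ≤ qn B f :=
  setIntegral_mono_set (L1.integrable_coeFn f).abs.integrableOn
    (Eventually.of_forall fun _ => abs_nonneg _) h.eventuallyLE

lemma qn_sum_le {ι : Type*} (A : Set Ω) (s : Finset ι) (f : ι → Lp ℝ 1 P) :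
    qn A (∑ i ∈ s, f i) ≤ ∑ i ∈ s, qn A (f i) := by
  classical
  induction s using Finset.induction_on with
  | empty =>
    have := qn_smul A 0 (0 : Lp ℝ 1 P)
    simp only [smul_zero, abs_zero, zero_mul] at this
    simp [this]
  | insert j s hj ih =>
    rw [sum_insert hj, sum_insert hj]
    exact (qn_add_le _ _ _).trans (by linarith)

lemma qn_small (f : Lp ℝ 1 P) (η : ℝ) (hη : 0 < η) :
    ∃ δ : ℝ, 0 < δ ∧ ∀ A : Set Ω, P A ≤ ENNReal.ofReal δ → qn A f ≤ η := by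
  by_contra hcon
  push Not at hcon
  choose A hA hA' using fun n : ℕ => hcon (1 / ((n : ℝ) + 1)) (by positivity)
  have h1 : Tendsto (P ∘ A) atTop (𝓝 0) := by
    have h0 := ENNReal.tendsto_ofReal (tendsto_one_div_add_atTop_nhds_zero_nat (𝕜 := ℝ))
    rw [ENNReal.ofReal_zero] at h0
    exact tendsto_of_tendsto_of_tendsto_of_le_of_le tendsto_const_nhds h0 (fun _ => zero_le) hA
  have h2 := (L1.integrable_coeFn f).abs.tendsto_setIntegral_nhds_zero h1
  obtain ⟨n, hn⟩ := (h2.eventually (gt_mem_nhds hη)).exists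
  exact absurd (hA' n) (not_lt.mpr hn.le)

variable [IsProbabilityMeasure P]

lemma exists_set_of_measureDist {f g : Lp ℝ 1 P} {ε : ℝ} (h : measureDist P f g < ε) :
    ∃ A : Set Ω, MeasurableSet A ∧ P A ≤ ENNReal.ofReal ε ∧ ∀ ω ∉ A, |f ω - g ω| ≤ ε := by
  obtain ⟨a, ⟨ha0, ha⟩, haε⟩ := exists_lt_of_csInf_lt (s := {a : ℝ | 0 < a ∧
      P {z | a < abs ((f : Ω → ℝ) z - (g : Ω → ℝ) z)} < ENNReal.ofReal a})
    ⟨2, by norm_num, lt_of_le_of_lt prob_le_one (by simp)⟩ h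
  refine ⟨{z | a < abs ((f : Ω → ℝ) z - (g : Ω → ℝ) z)}, ?_,
    ha.le.trans (ENNReal.ofReal_le_ofReal haε.le), fun ω hω => ?_⟩
  · exact measurableSet_lt measurable_const
      ((Lp.stronglyMeasurable f).measurable.sub (Lp.stronglyMeasurable g).measurable).abs
  · simp only [Set.mem_setOf_eq, not_lt] at hω
    linarith

lemma qn_sub_le_of_bound {A : Set Ω} (hA : MeasurableSet A) (f g : Lp ℝ 1 P) (ε : ℝ) (hε : 0 ≤ ε)
    (h : ∀ ω ∈ A, |f ω - g ω| ≤ ε) : qn A (f - g) ≤ ε := by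
  unfold qn
  calc ∫ ω in A, |(f - g) ω| ∂P ≤ ∫ ω in A, ε ∂P := by
        refine integral_mono_ae (L1.integrable_coeFn _).abs.integrableOn (integrable_const _) ?_
        filter_upwards [ae_restrict_of_ae (Lp.coeFn_sub f g), ae_restrict_mem hA] with ω h1 h2
        rw [h1]; exact h ω h2
    _ ≤ ε := by
        rw [setIntegral_const, smul_eq_mul]
        have : P.real A ≤ 1 := measureReal_le_one
        nlinarith

/-- concentrated elements -/
def Conc (ε : ℝ) (z : Lp ℝ 1 P) : Prop :=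
  ∃ A : Set Ω, MeasurableSet A ∧ P A ≤ ENNReal.ofReal ε ∧ qn Aᶜ z ≤ ε

variable {E : Submodule ℝ (Lp ℝ 1 P)}

lemma exists_conc_slice (htb : UnitBallTotallyBoundedInMeasure P E) (hD : HasDaugavetProperty E)
    (φ : E →L[ℝ] ℝ) (hφ : ‖φ‖ = 1) (ε : ℝ) (hε : 0 < ε) :
    ∃ z : E, ‖z‖ ≤ 1 ∧ 1 - ε < φ z ∧ Conc ε (z : Lp ℝ 1 P) := by
  obtain ⟨s, hs, hnet⟩ := htb (ε / 2) (by positivity)
  obtain ⟨z, hz, hφz, h⟩ := daug_finset hD φ hφ (ε / 2) (by positivity) s.attach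
    (fun g => -(⟨g.1, (hs g.1 g.2).1⟩ : E))
  obtain ⟨g, hg, hd⟩ := hnet z z.2 hz
  obtain ⟨A, hA, hPA, hb⟩ := exists_set_of_measureDist hd
  refine ⟨z, hz, by linarith, A, hA, hPA.trans (ENNReal.ofReal_le_ofReal (by linarith)), ?_⟩
  have h1 := h ⟨g, hg⟩ (mem_attach _ _)
  rw [norm_neg, neg_add_eq_sub] at h1
  change ‖g‖ + 1 - ε / 2 ≤ ‖(z : Lp ℝ 1 P) - g‖ at h1
  have h2 := qn_compl hA ((z : Lp ℝ 1 P) - g)
  have h3 := qn_sub_le_of_bound hA.compl (z : Lp ℝ 1 P) g (ε / 2) (by positivity) hb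
  have h4 := qn_sub_le A (z : Lp ℝ 1 P) g
  have h5 := qn_compl hA g
  have h6 := qn_nonneg Aᶜ g
  have h7 := qn_compl hA (z : Lp ℝ 1 P)
  have h8 : ‖(z : Lp ℝ 1 P)‖ ≤ 1 := hz
  linarith

lemma exists_conc_weak (htb : UnitBallTotallyBoundedInMeasure P E) (hD : HasDaugavetProperty E)
    {Y : Type} [NormedAddCommGroup Y] [NormedSpace ℝ Y] [FiniteDimensional ℝ Y]
    (Φ : E →L[ℝ] Y) (x : E) (hx : ‖x‖ ≤ 1) (ε : ℝ) (hε : 0 < ε) :
    ∃ z : E, ‖z‖ ≤ 1 ∧ ‖Φ x - Φ z‖ < ε ∧ Conc ε (z : Lp ℝ 1 P) := by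
  set k : ℝ := Module.finrank ℝ Y + 1 with hk
  have hk1 : 1 ≤ k := by rw [hk]; linarith [Nat.cast_nonneg (α := ℝ) (Module.finrank ℝ Y)]
  have hk0 : 0 < k := by linarith
  let C : Set E := {z | ‖z‖ ≤ 1 ∧ Conc (ε / k) (z : Lp ℝ 1 P)}
  have hmem : Φ x ∈ closure (convexHull ℝ (Φ '' C)) := by
    by_contra hcon
    obtain ⟨f, u, h1, h2⟩ := geometric_hahn_banach_closed_point
      (convex_convexHull ℝ _).closure isClosed_closure hcon
    have h3 : ∀ z ∈ C, f (Φ z) < u := fun z hz =>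
      h1 _ (subset_closure (subset_convexHull ℝ _ ⟨z, hz, rfl⟩))
    have h0 : (0 : E) ∈ C := by
      refine ⟨by simp, ∅, MeasurableSet.empty, by simp, ?_⟩
      have := qn_smul (P := P) ∅ᶜ 0 0
      simp only [smul_zero, abs_zero, zero_mul] at this
      rw [ZeroMemClass.coe_zero, this]; positivity
    have hu0 : 0 < u := by simpa using h3 0 h0
    set φ : E →L[ℝ] ℝ := f.comp Φ with hφ
    have h4 : u < ‖φ‖ := h2.trans_le ((le_abs_self _).trans (φ.unit_le_opNorm x hx))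
    have hn : 0 < ‖φ‖ := by linarith
    obtain ⟨z, hz, hz', A, hA, hPA, hq⟩ := exists_conc_slice htb hD (‖φ‖⁻¹ • φ)
      (norm_inv_norm_smul (V := E →L[ℝ] ℝ) hn)
      (min (ε / k) (1 - u / ‖φ‖)) (lt_min (by positivity) (by rw [sub_pos, div_lt_one hn]; exact h4))
    have h5 := h3 z ⟨hz, A, hA, hPA.trans (ENNReal.ofReal_le_ofReal (min_le_left _ _)),
      hq.trans (min_le_left _ _)⟩
    have h6 : u / ‖φ‖ < ‖φ‖⁻¹ * f (Φ z) := by
      have := min_le_right (ε / k) (1 - u / ‖φ‖)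
      change _ < ‖φ‖⁻¹ * f (Φ z) at hz'
      linarith
    rw [← div_eq_inv_mul, div_lt_div_iff_of_pos_right hn] at h6
    linarith
  obtain ⟨w, hw, hd⟩ := Metric.mem_closure_iff.mp hmem ε hε
  obtain ⟨ι, _, y, c, hy, hind, hc0, hc1, rfl⟩ := eq_pos_convex_span_of_mem_convexHull hw
  choose z hzC hzy using fun i => hy ⟨i, rfl⟩
  have hcard : (Fintype.card ι : ℝ) ≤ k := by
    have h1 := hind.card_le_finrank_succ
    have h2 := Submodule.finrank_le (vectorSpan ℝ (Set.range y))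
    rw [hk]; exact_mod_cast h1.trans (by omega)
  choose A hA hPA hq using fun i => (hzC i).2
  refine ⟨∑ i, c i • z i, ?_, ?_, ⋃ i, A i, MeasurableSet.iUnion hA, ?_, ?_⟩
  · calc ‖∑ i, c i • z i‖ ≤ ∑ i, c i := by
          refine (norm_sum_le _ _).trans (sum_le_sum fun i _ => ?_)
          rw [norm_smul, Real.norm_eq_abs, abs_of_pos (hc0 i)]
          nlinarith [(hzC i).1, hc0 i]
      _ = 1 := hc1
  · rw [map_sum, ← dist_eq_norm]
    simpa [hzy] using hd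
  · calc P (⋃ i, A i) ≤ ∑ i, P (A i) := measure_iUnion_fintype_le P A
      _ ≤ ∑ _i : ι, ENNReal.ofReal (ε / k) := sum_le_sum fun i _ => hPA i
      _ = ENNReal.ofReal (Fintype.card ι * (ε / k)) := by
          rw [sum_const, card_univ, nsmul_eq_mul, ENNReal.ofReal_mul (Nat.cast_nonneg _),
            ENNReal.ofReal_natCast]
      _ ≤ ENNReal.ofReal ε := by
          refine ENNReal.ofReal_le_ofReal ?_
          calc (Fintype.card ι : ℝ) * (ε / k) ≤ k * (ε / k) := by gcongr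
            _ = ε := by field_simp
  · rw [Submodule.coe_sum]
    refine (qn_sum_le _ _ _).trans ?_
    calc ∑ i, qn (⋃ i, A i)ᶜ ((c i • z i : E) : Lp ℝ 1 P) ≤ ∑ i, c i * (ε / k) := by
          refine sum_le_sum fun i _ => ?_
          rw [Submodule.coe_smul, qn_smul, abs_of_pos (hc0 i)]
          refine mul_le_mul_of_nonneg_left ((qn_mono ?_ _).trans (hq i)) (hc0 i).le
          exact Set.compl_subset_compl.mpr (Set.subset_iUnion A i)
      _ = ε / k := by rw [← sum_mul, hc1, one_mul]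
      _ ≤ ε := div_le_self hε.le hk1

lemma exists_dir (htb : UnitBallTotallyBoundedInMeasure P E) (hD : HasDaugavetProperty E)
    (x : E) (hx : ‖x‖ = 1) (S : Submodule ℝ E) (hS : IsCofS S) (η : ℝ) (hη : 0 < η) :
    ∃ y ∈ S, ‖y‖ = 1 ∧ ∃ z : E, ‖z‖ ≤ 1 ∧ ‖y - (1 / 2 : ℝ) • (z - x)‖ ≤ η := by
  obtain ⟨k, Φ, C, hC, hΦ⟩ := hS.exists_map
  obtain ⟨χ, hχ, hχx⟩ := exists_dual_vector'' ℝ x
  set e := min (η / (5 + C)) (1 / (5 + C)) with he
  have he0 : 0 < e := lt_min (by positivity) (by positivity)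
  have he1 : (5 + C) * e ≤ η := by
    have := min_le_left (η / (5 + C)) (1 / (5 + C))
    rw [← he, le_div_iff₀ (by positivity)] at this
    linarith
  have he2 : (5 + C) * e ≤ 1 := by
    have := min_le_right (η / (5 + C)) (1 / (5 + C))
    rw [← he, le_div_iff₀ (by positivity)] at this
    linarith
  obtain ⟨δ, hδ, hsmall⟩ := qn_small (x : Lp ℝ 1 P) e he0
  obtain ⟨z, hz, hΦz, A, hA, hPA, hq⟩ := exists_conc_weak htb hD (Φ.prod χ) x hx.le (min e δ)
    (lt_min he0 hδ)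
  have hq' := hq.trans (min_le_left _ _)
  have hqx := hsmall A (hPA.trans (ENNReal.ofReal_le_ofReal (min_le_right _ _)))
  have hΦz' := hΦz.le.trans (min_le_left _ _)
  rw [← map_sub] at hΦz'
  have h1 : ‖Φ (z - x)‖ ≤ e := by
    rw [← norm_neg, ← map_neg, neg_sub]
    exact (norm_fst_le _).trans hΦz'
  have h2 : 1 - e ≤ ‖z‖ := by
    have h3 : ‖χ (x - z)‖ ≤ e := (norm_snd_le _).trans hΦz'
    have h4 := (le_abs_self _).trans h3
    rw [map_sub, hχx, hx] at h4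
    have h5 : χ z ≤ ‖z‖ := (le_abs_self _).trans ((χ.le_opNorm z).trans (by
      nlinarith [norm_nonneg z]))
    simp only [RCLike.ofReal_real_eq_id, id_eq] at h4
    linarith
  have h3 : 2 - 5 * e ≤ ‖z - x‖ := by
    have a1 := qn_compl hA ((z : Lp ℝ 1 P) - (x : Lp ℝ 1 P))
    have a2 := qn_compl hA (z : Lp ℝ 1 P)
    have a3 := qn_compl hA (x : Lp ℝ 1 P)
    have a4 := qn_add_le A ((z : Lp ℝ 1 P) - (x : Lp ℝ 1 P)) (x : Lp ℝ 1 P)
    have a5 := qn_sub_le Aᶜ (z : Lp ℝ 1 P) ((z : Lp ℝ 1 P) - (x : Lp ℝ 1 P))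
    rw [sub_add_cancel] at a4
    rw [sub_sub_cancel] at a5
    change 1 - e ≤ ‖(z : Lp ℝ 1 P)‖ at h2
    change ‖(x : Lp ℝ 1 P)‖ = 1 at hx
    change _ ≤ ‖(z : Lp ℝ 1 P) - (x : Lp ℝ 1 P)‖
    linarith
  obtain ⟨y0, hy0, hy0'⟩ := hΦ (z - x)
  have h4 : ‖z - x - y0‖ ≤ C * e := hy0'.trans (mul_le_mul_of_nonneg_left h1 hC.le)
  have h5 : ‖z - x‖ ≤ 2 := (norm_sub_le _ _).trans (by linarith)
  have h6 := abs_le.mp ((abs_norm_sub_norm_le (z - x) y0).trans h4)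
  have hn : 0 < ‖y0‖ := by nlinarith [h6.2]
  refine ⟨‖y0‖⁻¹ • y0, S.smul_mem _ hy0, by
    rw [norm_smul, norm_inv, norm_norm, inv_mul_cancel₀ hn.ne'], z, hz, ?_⟩
  have e1 : ‖y0‖⁻¹ • y0 - (1 / 2 : ℝ) • (z - x) =
      (‖y0‖⁻¹ - 1 / 2) • y0 - (1 / 2 : ℝ) • (z - x - y0) := by module
  rw [e1]
  refine (norm_sub_le _ _).trans ?_
  rw [norm_smul, norm_smul, Real.norm_eq_abs, Real.norm_eq_abs, abs_of_pos (by norm_num : (0:ℝ) < 1 / 2)]
  have e2 : |‖y0‖⁻¹ - 1 / 2| * ‖y0‖ = |1 - ‖y0‖ / 2| := by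
    rw [← abs_of_pos hn, ← abs_mul, abs_of_pos hn, sub_mul, inv_mul_cancel₀ hn.ne']
    congr 1; ring
  rw [e2]
  have e3 : |1 - ‖y0‖ / 2| ≤ (5 + C) * e / 2 := by
    rw [abs_le]; constructor <;> nlinarith [h6.1, h6.2]
  nlinarith

/-- pairing with a bounded measurable function -/
noncomputable def pairL (σ : Ω → ℝ) (hσ : Measurable σ) (hb : ∀ ω, |σ ω| ≤ 1) :
    Lp ℝ 1 P →L[ℝ] ℝ :=
  LinearMap.mkContinuous
    { toFun := fun f => ∫ ω, σ ω * f ω ∂P
      map_add' := fun f g => by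
        rw [← integral_add
          ((L1.integrable_coeFn f).bdd_mul hσ.aestronglyMeasurable (Eventually.of_forall hb))
          ((L1.integrable_coeFn g).bdd_mul hσ.aestronglyMeasurable (Eventually.of_forall hb))]
        refine integral_congr_ae ?_
        filter_upwards [Lp.coeFn_add f g] with ω hω
        rw [hω, Pi.add_apply]; ring
      map_smul' := fun c f => by
        simp only [RingHom.id_apply, smul_eq_mul]
        rw [← integral_const_mul]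
        refine integral_congr_ae ?_
        filter_upwards [Lp.coeFn_smul c f] with ω hω
        rw [hω, Pi.smul_apply, smul_eq_mul]; ring } 1 (fun f => by
      rw [one_mul, L1.norm_eq_integral_norm]
      refine norm_integral_le_of_norm_le (L1.integrable_coeFn f).norm
        (Eventually.of_forall fun ω => ?_)
      rw [norm_mul]
      exact mul_le_of_le_one_left (norm_nonneg _) (hb ω))

lemma exists_cof_half (htb : UnitBallTotallyBoundedInMeasure P E) (ε : ℝ) (hε : 0 < ε) :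
    ∃ S : Submodule ℝ E, IsCofS S ∧ ∀ y ∈ S, ‖y‖ = 1 → ∃ A : Set Ω, MeasurableSet A ∧
      P A ≤ ENNReal.ofReal ε ∧ 1 / 2 - ε ≤ qn A (y : Lp ℝ 1 P) := by
  obtain ⟨s, hs, hnet⟩ := htb ε hε
  let σ : Lp ℝ 1 P → Ω → ℝ := fun g ω => if 0 ≤ g ω then 1 else -1
  have hσ : ∀ g, Measurable (σ g) := fun g =>
    Measurable.ite (measurableSet_le measurable_const (Lp.stronglyMeasurable g).measurable)
      measurable_const measurable_const
  have hb : ∀ g ω, |σ g ω| ≤ 1 := fun g ω => by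
    simp only [σ]; split_ifs <;> simp
  let Φ : E →L[ℝ] (s → ℝ) :=
    ContinuousLinearMap.pi fun g => (pairL (σ g.1) (hσ _) (hb _)).comp E.subtypeL
  refine ⟨_, isCofS_ker Φ, fun y hy hy1 => ?_⟩
  obtain ⟨g, hg, hd⟩ := hnet y y.2 hy1.le
  obtain ⟨A, hA, hPA, hbd⟩ := exists_set_of_measureDist hd
  refine ⟨A, hA, hPA, ?_⟩
  have h0 : ∫ ω, σ g ω * (y : Lp ℝ 1 P) ω ∂P = 0 := congrFun hy ⟨g, hg⟩
  have hi : Integrable (fun ω => σ g ω * (y : Lp ℝ 1 P) ω) P :=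
    (L1.integrable_coeFn _).bdd_mul (hσ g).aestronglyMeasurable (Eventually.of_forall (hb g))
  rw [← integral_add_compl hA hi] at h0
  have h1 : - qn A (y : Lp ℝ 1 P) ≤ ∫ ω in A, σ g ω * (y : Lp ℝ 1 P) ω ∂P := by
    unfold qn
    rw [← integral_neg]
    refine integral_mono (L1.integrable_coeFn _).abs.neg.integrableOn hi.integrableOn fun ω => ?_
    have := hb g ω
    have h2 := neg_abs_le (σ g ω * (y : Lp ℝ 1 P) ω)
    rw [abs_mul] at h2
    have h3 := abs_nonneg ((y : Lp ℝ 1 P) ω)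
    simp only
    nlinarith
  have h2 : qn Aᶜ (y : Lp ℝ 1 P) - 2 * ε ≤ ∫ ω in Aᶜ, σ g ω * (y : Lp ℝ 1 P) ω ∂P := by
    have h3 : ∫ ω in Aᶜ, (|(y : Lp ℝ 1 P) ω| - 2 * ε) ∂P ≤
        ∫ ω in Aᶜ, σ g ω * (y : Lp ℝ 1 P) ω ∂P := by
      refine setIntegral_mono_on ((L1.integrable_coeFn _).abs.sub (integrable_const _)).integrableOn
        hi.integrableOn hA.compl fun ω hω => ?_
      have h4 := abs_le.mp (hbd ω hω)
      simp only [σ]
      split_ifs with h5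
      · rcases abs_cases ((y : Lp ℝ 1 P) ω) with h6 | h6 <;> linarith [h4.1, h4.2, h6.1, h6.2]
      · push Not at h5
        rcases abs_cases ((y : Lp ℝ 1 P) ω) with h6 | h6 <;> linarith [h4.1, h4.2, h6.1, h6.2]
    rw [integral_sub (L1.integrable_coeFn _).abs.integrableOn (integrable_const _),
      setIntegral_const, smul_eq_mul] at h3
    have : P.real Aᶜ ≤ 1 := measureReal_le_one
    unfold qn
    nlinarith
  have h3 := qn_compl hA (y : Lp ℝ 1 P)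
  change ‖(y : Lp ℝ 1 P)‖ = 1 at hy1
  linarith

end L1

end Crest.Agent.H4AUC
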