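import Mathlib
import Crest.Prelude.Def_Diamond
import Crest.Agent.H4.AUC

set_option autoImplicit false

namespace Crest.Agent.H4AUC

open Finset Filter Topology
open Crest.AnalysisR

lemma MidProp.mid_bound {X : Type} [NormedAddCommGroup X] [NormedSpace ℝ X] (h : MidProp X)
    (x : X) (w : ℕ → X) (R s : ℝ) (hs : 0 ≤ s) (h1 : ∀ i, ‖x + w i‖ ≤ R) (h2 : ∀ i, ‖x - w i‖ ≤ R)
    (h3 : ∀ i j, i ≠ j → 2 * s ≤ ‖w i - w j‖) : 4 * ‖x‖ ^ 2 + s ^ 2 ≤ 4 * R ^ 2 := by
  have hR : 0 ≤ R := (norm_nonneg _).trans (h1 0)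
  suffices H : √(4 * ‖x‖ ^ 2 + s ^ 2) ≤ 2 * R by
    have := (Real.sqrt_le_iff.mp H).2
    linarith
  refine le_of_forall_pos_le_add fun η hη => ?_
  obtain ⟨S, hS, hmid⟩ := h x (η / 4) (by positivity)
  obtain ⟨k, Φ, C, hC, hΦ⟩ := hS.exists_map
  obtain ⟨i, j, hij, hd⟩ : ∃ i j, i ≠ j ∧ ‖Φ (w i) - Φ (w j)‖ < η / (2 * C) := by
    have hb : ∀ i, Φ (w i) ∈ Metric.closedBall (0 : Fin k → ℝ) (‖Φ‖ * (R + ‖x‖)) := by
      intro i
      rw [mem_closedBall_zero_iff]
      refine (Φ.le_opNorm _).trans (mul_le_mul_of_nonneg_left ?_ (norm_nonneg _))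
      have := norm_sub_le (x + w i) x
      rw [add_sub_cancel_left] at this
      linarith [h1 i]
    obtain ⟨a, -, φ, hφ, hlim⟩ := (isCompact_closedBall _ _).tendsto_subseq hb
    obtain ⟨N, hN⟩ := Metric.cauchySeq_iff'.mp hlim.cauchySeq (η / (2 * C)) (by positivity)
    exact ⟨φ (N + 1), φ N, (hφ (Nat.lt_succ_self N)).ne', by
      simpa [dist_eq_norm] using hN (N + 1) (Nat.le_succ N)⟩
  set v := (1 / 2 : ℝ) • (w i - w j) with hv
  obtain ⟨y, hy, hvy⟩ := hΦ v
  have h4 : ‖v - y‖ ≤ η / 4 := by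
    refine hvy.trans ?_
    rw [hv, map_smul, map_sub, norm_smul]
    rw [lt_div_iff₀ (by positivity)] at hd
    simp only [one_div, norm_inv, Real.norm_ofNat]
    linarith
  have h5 : ‖x + v‖ ≤ R := by
    have e : x + v = (1 / 2 : ℝ) • ((x + w i) + (x - w j)) := by rw [hv]; module
    rw [e, norm_smul]
    simp only [one_div, norm_inv, Real.norm_ofNat]
    linarith [norm_add_le (x + w i) (x - w j), h1 i, h2 j]
  have h6 : ‖x - v‖ ≤ R := by
    have e : x - v = (1 / 2 : ℝ) • ((x - w i) + (x + w j)) := by rw [hv]; module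
    rw [e, norm_smul]
    simp only [one_div, norm_inv, Real.norm_ofNat]
    linarith [norm_add_le (x - w i) (x + w j), h1 j, h2 i]
  have h7 : s ≤ ‖v‖ := by
    rw [hv, norm_smul]
    simp only [one_div, norm_inv, Real.norm_ofNat]
    linarith [h3 i j hij]
  have h8 : ‖x + y‖ ≤ R + η / 4 := by
    have := norm_sub_le (x + v) (v - y)
    rw [show x + v - (v - y) = x + y by abel] at this
    linarith
  have h9 : ‖x - y‖ ≤ R + η / 4 := by
    have := norm_add_le (x - v) (v - y)
    rw [show x - v + (v - y) = x - y by abel] at this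
    linarith
  have h10 : s ≤ ‖y‖ + η / 4 := by
    have := norm_add_le (v - y) y
    rw [sub_add_cancel] at this
    linarith
  have h11 := hmid y hy
  set D := √(4 * ‖x‖ ^ 2 + ‖y‖ ^ 2) with hD
  have hD2 : D ^ 2 = 4 * ‖x‖ ^ 2 + ‖y‖ ^ 2 := Real.sq_sqrt (by positivity)
  have hDy : ‖y‖ ≤ D := Real.le_sqrt_of_sq_le (by nlinarith [sq_nonneg ‖x‖])
  have h12 : √(4 * ‖x‖ ^ 2 + s ^ 2) ≤ D + η / 4 := Real.sqrt_le_iff.mpr ⟨by positivity, by
    have : s ^ 2 ≤ (‖y‖ + η / 4) ^ 2 := by gcongr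
    nlinarith⟩
  linarith

lemma dia_adj {k : ℕ} {u v : DiamondVertex k} : (diamondGraph k).Adj u v ↔ u ≠ v ∧
    ((∃ e, diamondSrc k e = u ∧ diamondTgt k e = v) ∨
      ∃ e, diamondSrc k e = v ∧ diamondTgt k e = u) := SimpleGraph.fromRel_adj _ _ _

lemma adj_src (k : ℕ) (e : DiamondEdge k) (i : ℕ) :
    (diamondGraph (k + 1)).Adj (Sum.inl (diamondSrc k e)) (Sum.inr (e, i)) :=
  dia_adj.mpr ⟨Sum.inl_ne_inr, Or.inl ⟨(e, i, false), rfl, rfl⟩⟩

lemma adj_tgt (k : ℕ) (e : DiamondEdge k) (i : ℕ) :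
    (diamondGraph (k + 1)).Adj (Sum.inr (e, i)) (Sum.inl (diamondTgt k e)) :=
  dia_adj.mpr ⟨Sum.inr_ne_inl, Or.inl ⟨(e, i, true), rfl, rfl⟩⟩

lemma dia_conn (k : ℕ) : (diamondGraph k).Preconnected := by
  induction k with
  | zero =>
    have h : (diamondGraph 0).Adj false true :=
      dia_adj.mpr ⟨Bool.false_ne_true, Or.inl ⟨(), rfl, rfl⟩⟩
    intro u v
    cases u <;> cases v
    · rfl
    · exact h.reachable
    · exact h.symm.reachable
    · rfl
  | succ k ih =>
    have h1 : ∀ u v : DiamondVertex k,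
        (diamondGraph (k + 1)).Reachable (Sum.inl u) (Sum.inl v) := by
      intro u v
      obtain ⟨p⟩ := ih u v
      induction p with
      | nil => rfl
      | cons hadj p ihp =>
        refine SimpleGraph.Reachable.trans ?_ ihp
        rcases (dia_adj.mp hadj).2 with ⟨e, rfl, rfl⟩ | ⟨e, rfl, rfl⟩
        · exact (adj_src k e 0).reachable.trans (adj_tgt k e 0).reachable
        · exact ((adj_src k e 0).reachable.trans (adj_tgt k e 0).reachable).symm
    have h2 : ∀ u : DiamondVertex (k + 1), ∃ u' : DiamondVertex k,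
        (diamondGraph (k + 1)).Reachable (Sum.inl u') u := by
      rintro (u | ⟨e, i⟩)
      · exact ⟨u, SimpleGraph.Reachable.refl _⟩
      · exact ⟨_, (adj_src k e i).reachable⟩
    intro u v
    obtain ⟨u', hu⟩ := h2 u
    obtain ⟨v', hv⟩ := h2 v
    exact hu.symm.trans ((h1 u' v').trans hv)

lemma le_dist_of_lip {V : Type*} {G : SimpleGraph V} (h : V → ℕ)
    (hh : ∀ u v, G.Adj u v → h v ≤ h u + 1) {u v : V} (hr : G.Reachable u v) :
    h v ≤ h u + G.dist u v := by
  obtain ⟨p, hp⟩ := hr.exists_walk_length_eq_dist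
  rw [← hp]
  clear hp hr
  induction p with
  | nil => simp
  | cons hadj p ih =>
    have := hh _ _ hadj
    simp only [SimpleGraph.Walk.length_cons]
    omega

lemma dist_edge (k : ℕ) (e : DiamondEdge k) (u : DiamondVertex k) :
    diamondDist k u (diamondTgt k e) ≤ diamondDist k u (diamondSrc k e) + 1 ∧
    diamondDist k u (diamondSrc k e) ≤ diamondDist k u (diamondTgt k e) + 1 := by
  by_cases h : diamondSrc k e = diamondTgt k e
  · rw [h]; omega
  · have hadj : (diamondGraph k).Adj (diamondSrc k e) (diamondTgt k e) :=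
      dia_adj.mpr ⟨h, Or.inl ⟨e, rfl, rfl⟩⟩
    have h1 := hadj.diff_dist_adj (u := u)
    have h2 := hadj.symm.diff_dist_adj (u := u)
    unfold diamondDist
    omega

lemma two_dist_le (k : ℕ) (u v : DiamondVertex k) :
    2 * diamondDist k u v ≤ diamondDist (k + 1) (Sum.inl u) (Sum.inl v) := by
  let h : DiamondVertex (k + 1) → ℕ := fun w => match w with
    | Sum.inl w => 2 * diamondDist k u w
    | Sum.inr (e, _) => 2 * min (diamondDist k u (diamondSrc k e)) (diamondDist k u (diamondTgt k e)) + 1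
  have := le_dist_of_lip (G := diamondGraph (k + 1)) h (by
    intro a b hab
    rcases (dia_adj.mp hab).2 with ⟨⟨e, i, c⟩, rfl, rfl⟩ | ⟨⟨e, i, c⟩, rfl, rfl⟩ <;> cases c <;>
    · have := dist_edge k e u
      simp only [diamondSrc, diamondTgt, cond_true, cond_false, h]
      omega) (dia_conn (k + 1) (Sum.inl u) (Sum.inl v))
  simpa [h, diamondDist] using this

lemma two_le_mid (k : ℕ) (e : DiamondEdge k) (i j : ℕ) (hij : i ≠ j) :
    2 ≤ diamondDist (k + 1) (Sum.inr (e, i)) (Sum.inr (e, j)) := by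
  have h0 : diamondDist (k + 1) (Sum.inr (e, i)) (Sum.inr (e, j)) ≠ 0 := by
    intro h
    have := (dia_conn (k + 1) _ _).dist_eq_zero_iff.mp h
    exact hij (congrArg Prod.snd (Sum.inr_injective this))
  have h1 : diamondDist (k + 1) (Sum.inr (e, i)) (Sum.inr (e, j)) ≠ 1 := by
    intro h
    have := SimpleGraph.dist_eq_one_iff_adj.mp h
    rcases (dia_adj.mp this).2 with ⟨⟨e', i', c⟩, h1, h2⟩ | ⟨⟨e', i', c⟩, h1, h2⟩ <;> cases c
    · exact Sum.inl_ne_inr h1
    · exact Sum.inl_ne_inr h2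
    · exact Sum.inl_ne_inr h1
    · exact Sum.inl_ne_inr h2
  omega

lemma MidProp.diamond_aux {X : Type} [NormedAddCommGroup X] [NormedSpace ℝ X] (h : MidProp X)
    (k : ℕ) : ∀ (f : DiamondVertex k → X) (s R : ℝ), 0 ≤ s →
      (∀ u v, s * (diamondDist k u v : ℝ) ≤ ‖f u - f v‖) →
      (∀ e, ‖f (diamondSrc k e) - f (diamondTgt k e)‖ ≤ R) → s ^ 2 * (1 + (k : ℝ) / 4) ≤ R ^ 2 := by
  induction k with
  | zero =>
    intro f s R hs h1 h2
    have hadj : (diamondGraph 0).Adj false true :=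
      dia_adj.mpr ⟨Bool.false_ne_true, Or.inl ⟨(), rfl, rfl⟩⟩
    have h3 := h1 false true
    rw [diamondDist, SimpleGraph.dist_eq_one_iff_adj.mpr hadj] at h3
    have h4 : ‖f false - f true‖ ≤ R := h2 ()
    have : s ≤ R := by simpa using h3.trans h4
    simp only [Nat.cast_zero, zero_div, add_zero, mul_one]
    gcongr
  | succ k ih =>
    intro f s R hs h1 h2
    have key : ∀ e : DiamondEdge k,
        ‖f (Sum.inl (diamondSrc k e)) - f (Sum.inl (diamondTgt k e))‖ ^ 2 + s ^ 2 ≤ 4 * R ^ 2 := by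
      intro e
      set u := f (Sum.inl (diamondSrc k e))
      set v := f (Sum.inl (diamondTgt k e))
      have := h.mid_bound ((1 / 2 : ℝ) • (u - v))
        (fun i => f (Sum.inr (e, i)) - (1 / 2 : ℝ) • (u + v)) R s hs (fun i => ?_) (fun i => ?_)
        (fun i j hij => ?_)
      · rw [norm_smul] at this
        simp only [one_div, norm_inv, Real.norm_ofNat] at this
        linarith
      · rw [show (1 / 2 : ℝ) • (u - v) + (f (Sum.inr (e, i)) - (1 / 2 : ℝ) • (u + v)) =
          f (Sum.inr (e, i)) - v by module]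
        exact h2 (e, i, true)
      · rw [show (1 / 2 : ℝ) • (u - v) - (f (Sum.inr (e, i)) - (1 / 2 : ℝ) • (u + v)) =
          u - f (Sum.inr (e, i)) by module]
        exact h2 (e, i, false)
      · rw [sub_sub_sub_cancel_right]
        refine le_trans ?_ (h1 _ _)
        have : (2 : ℝ) ≤ diamondDist (k + 1) (Sum.inr (e, i)) (Sum.inr (e, j)) := by
          exact_mod_cast two_le_mid k e i j hij
        nlinarith
    obtain ⟨e0⟩ : Nonempty (DiamondEdge k) := by
      clear ih key h1 h2 f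
      induction k with
      | zero => exact ⟨()⟩
      | succ k ih => obtain ⟨e⟩ := ih; exact ⟨(e, 0, true)⟩
    have hpos : 0 ≤ 4 * R ^ 2 - s ^ 2 := by
      nlinarith [key e0, sq_nonneg ‖f (Sum.inl (diamondSrc k e0)) - f (Sum.inl (diamondTgt k e0))‖]
    have := ih (fun u => f (Sum.inl u)) (2 * s) √(4 * R ^ 2 - s ^ 2) (by positivity)
      (fun u v => ?_) (fun e => Real.le_sqrt_of_sq_le (by linarith [key e]))
    · rw [Real.sq_sqrt hpos] at this
      push_cast
      linarith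
    · refine le_trans ?_ (h1 _ _)
      have : (2 : ℝ) * diamondDist k u v ≤ diamondDist (k + 1) (Sum.inl u) (Sum.inl v) := by
        exact_mod_cast two_dist_le k u v
      nlinarith

lemma MidProp.diamond {X : Type} [NormedAddCommGroup X] [NormedSpace ℝ X] [CompleteSpace X]
    (h : MidProp X) (k : ℕ) (f : DiamondVertex k → X) (D : ℝ)
    (hf : (mk X).HasDistortionLE k f D) : 1 + (k : ℝ) / 4 ≤ D ^ 2 := by
  obtain ⟨s, hs, hf⟩ := hf
  change ∀ u v, s * (diamondDist k u v : ℝ) ≤ ‖f u - f v‖ ∧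
    ‖f u - f v‖ ≤ D * s * (diamondDist k u v : ℝ) at hf
  have := h.diamond_aux k f s (|D| * s) hs.le (fun u v => (hf u v).1) fun e => by
    refine (hf _ _).2.trans ?_
    have h1 := (dist_edge k e (diamondSrc k e)).1
    have h2 : diamondDist k (diamondSrc k e) (diamondSrc k e) = 0 := SimpleGraph.dist_self
    rw [h2] at h1
    have h3 : (diamondDist k (diamondSrc k e) (diamondTgt k e) : ℝ) ≤ 1 := by exact_mod_cast h1
    calc D * s * _ ≤ |D| * s * (diamondDist k (diamondSrc k e) (diamondTgt k e) : ℝ) := by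
          gcongr; exact le_abs_self _
      _ ≤ |D| * s * 1 := by gcongr
      _ = _ := mul_one _
  rw [mul_pow, sq_abs, mul_comm] at this
  exact le_of_mul_le_mul_right this (by positivity)

end Crest.Agent.H4AUC
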