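import Mathlib
import Crest.Agent.H4.AUC

set_option autoImplicit false

namespace Crest.Agent.H4AUC

open Finset Filter Topology

/-- reflexivity -/
def Refl (X : Type) [NormedAddCommGroup X] [NormedSpace ℝ X] : Prop :=
  ∀ Ψ : (X →L[ℝ] ℝ) →L[ℝ] ℝ, ∃ x : X, ∀ φ : X →L[ℝ] ℝ, φ x = Ψ φ

lemma Refl.isReflexive {X : Type} [NormedAddCommGroup X] [NormedSpace ℝ X] [CompleteSpace X]
    (h : Refl X) : (mk X).IsReflexive := by
  intro Ψ
  obtain ⟨x, hx⟩ := h Ψ
  exact ⟨x, ContinuousLinearMap.ext fun φ => hx φ⟩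

/-- precomposition -/
noncomputable def pre {X Y : Type} [NormedAddCommGroup X] [NormedSpace ℝ X]
    [NormedAddCommGroup Y] [NormedSpace ℝ Y] (T : X →L[ℝ] Y) : (Y →L[ℝ] ℝ) →L[ℝ] (X →L[ℝ] ℝ) :=
  (ContinuousLinearMap.compL ℝ X Y ℝ).flip T

lemma pre_apply {X Y : Type} [NormedAddCommGroup X] [NormedSpace ℝ X]
    [NormedAddCommGroup Y] [NormedSpace ℝ Y] (T : X →L[ℝ] Y) (φ : Y →L[ℝ] ℝ) :
    pre T φ = φ.comp T := rfl

lemma refl_real : Refl ℝ := by
  intro Ψ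
  refine ⟨Ψ (ContinuousLinearMap.id ℝ ℝ), fun φ => ?_⟩
  have : φ = φ 1 • ContinuousLinearMap.id ℝ ℝ := by ext; simp
  rw [this, map_smul]
  simp [mul_comm]

lemma Refl.of_equiv {X Y : Type} [NormedAddCommGroup X] [NormedSpace ℝ X]
    [NormedAddCommGroup Y] [NormedSpace ℝ Y] (h : Refl X) (T : X ≃L[ℝ] Y) : Refl Y := by
  intro Ψ
  obtain ⟨x, hx⟩ := h (Ψ.comp (pre (T.symm : Y →L[ℝ] X)))
  refine ⟨T x, fun φ => ?_⟩
  have h1 := hx (φ.comp (T : X →L[ℝ] Y))
  have h2 : (φ.comp (T : X →L[ℝ] Y)).comp (T.symm : Y →L[ℝ] X) = φ := by ext; simp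
  rw [ContinuousLinearMap.comp_apply Ψ, pre_apply, h2] at h1
  exact h1

lemma IsCofS.comap {X Y : Type} [NormedAddCommGroup X] [NormedSpace ℝ X]
    [NormedAddCommGroup Y] [NormedSpace ℝ Y] {S : Submodule ℝ Y} (hS : IsCofS S)
    (T : X →L[ℝ] Y) : IsCofS (S.comap (T : X →ₗ[ℝ] Y)) := by
  refine ⟨hS.1.preimage T.continuous, ?_⟩
  haveI := hS.2
  have h : LinearMap.ker (S.mkQ.comp (T : X →ₗ[ℝ] Y)) = S.comap (T : X →ₗ[ℝ] Y) := by
    rw [LinearMap.ker_comp, Submodule.ker_mkQ]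
  rw [← h]
  exact (LinearMap.quotKerEquivRange _).symm.finiteDimensional

lemma isCofS_finset {X : Type} [NormedAddCommGroup X] [NormedSpace ℝ X] {ι : Type*}
    (A : Finset ι) (S : ι → Submodule ℝ X) (hS : ∀ i, IsCofS (S i)) :
    ∃ T : Submodule ℝ X, IsCofS T ∧ ∀ y ∈ T, ∀ i ∈ A, y ∈ S i := by
  classical
  induction A using Finset.induction_on with
  | empty => exact ⟨_, isCofS_ker (0 : X →L[ℝ] ℝ), by simp⟩
  | insert j A _ ih =>
    obtain ⟨T, hT, h⟩ := ih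
    refine ⟨S j ⊓ T, (hS j).inf hT, fun y hy i hi => ?_⟩
    rcases mem_insert.mp hi with rfl | hi
    · exact hy.1
    · exact h y hy.2 i hi

section sum

variable {ι : Type} {X : ι → Type} [∀ i, NormedAddCommGroup (X i)] [∀ i, NormedSpace ℝ (X i)]

lemma hasSum_sq (f : lp X 2) : HasSum (fun i => ‖f i‖ ^ 2) (‖f‖ ^ 2) := by
  have := lp.hasSum_norm (p := 2) (by simp) f
  simpa using this

lemma sum_sq_le (f : lp X 2) (A : Finset ι) : ∑ i ∈ A, ‖f i‖ ^ 2 ≤ ‖f‖ ^ 2 :=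
  sum_le_hasSum A (fun _ _ => sq_nonneg _) (hasSum_sq f)

lemma mem_l2 (f : ∀ i, X i) (C : ℝ) (h : ∀ A : Finset ι, ∑ i ∈ A, ‖f i‖ ^ 2 ≤ C) : Memℓp f 2 :=
  memℓp_gen' (C := C) fun A => by simpa using h A

lemma sqrt_sum_le (f : lp X 2) (A : Finset ι) : √(∑ i ∈ A, ‖f i‖ ^ 2) ≤ ‖f‖ :=
  Real.sqrt_le_iff.mpr ⟨norm_nonneg _, sum_sq_le f A⟩

variable [DecidableEq ι]

/-- finite truncation -/
noncomputable def trunc (A : Finset ι) : lp X 2 →L[ℝ] lp X 2 :=
  ∑ i ∈ A, (lp.singleContinuousLinearMap ℝ X 2 i).comp (lp.evalCLM ℝ X 2 i)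

lemma trunc_eq (A : Finset ι) (f : lp X 2) : trunc A f = ∑ i ∈ A, lp.single 2 i (f i) := by
  simp only [trunc, ContinuousLinearMap.sum_apply]; rfl

lemma trunc_apply (A : Finset ι) (f : lp X 2) (i : ι) :
    trunc A f i = if i ∈ A then f i else 0 := by
  rw [trunc_eq]
  simp only [lp.coeFn_sum, lp.coeFn_single, Finset.sum_apply, Finset.sum_pi_single]

lemma tendsto_trunc (f : lp X 2) : Tendsto (fun A => trunc A f) atTop (𝓝 f) := by
  simp only [trunc_eq]
  exact lp.hasSum_single (by simp) f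

lemma exists_trunc_dual (φ : lp X 2 →L[ℝ] ℝ) (ε : ℝ) (hε : 0 < ε) :
    ∃ A : Finset ι, ‖φ - φ.comp (trunc A)‖ ≤ ε := by
  set M := ‖φ‖ with hM
  have hM0 : 0 ≤ M := norm_nonneg _
  rcases le_or_gt M ε with hMε | hMε
  · exact ⟨∅, by simpa [trunc] using hMε⟩
  set r := √(M ^ 2 - ε ^ 2) with hr
  have hr2 : r ^ 2 = M ^ 2 - ε ^ 2 := Real.sq_sqrt (by nlinarith)
  have hr0 : 0 ≤ r := Real.sqrt_nonneg _
  have hrM : r < M := by nlinarith
  obtain ⟨x, hx, hx'⟩ := φ.exists_lt_apply_of_lt_opNorm hrM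
  obtain ⟨A, hA⟩ := (((φ.continuous.tendsto x).comp (tendsto_trunc x)).norm.eventually
    (lt_mem_nhds hx')).exists
  simp only [Function.comp] at hA
  refine ⟨A, ContinuousLinearMap.opNorm_le_of_unit_norm hε.le fun v hv => ?_⟩
  set a := φ (trunc A x) with ha
  set b := φ (v - trunc A v) with hb
  have h1 : ‖a • trunc A x + b • (v - trunc A v)‖ ^ 2 ≤ a ^ 2 * ‖x‖ ^ 2 + b ^ 2 * ‖v‖ ^ 2 := by
    refine hasSum_le (fun i => ?_) (hasSum_sq _)
      (((hasSum_sq x).mul_left _).add ((hasSum_sq v).mul_left _))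
    simp only [lp.coeFn_add, lp.coeFn_smul, lp.coeFn_sub, Pi.add_apply, Pi.smul_apply,
      Pi.sub_apply, trunc_apply]
    split_ifs
    · simp only [sub_self, smul_zero, add_zero, norm_smul, mul_pow, Real.norm_eq_abs, sq_abs]
      nlinarith [mul_nonneg (sq_nonneg b) (sq_nonneg ‖v i‖)]
    · simp only [sub_zero, smul_zero, zero_add, norm_smul, mul_pow, Real.norm_eq_abs, sq_abs]
      nlinarith [mul_nonneg (sq_nonneg a) (sq_nonneg ‖x i‖)]
  have h2 : a ^ 2 + b ^ 2 ≤ M * ‖a • trunc A x + b • (v - trunc A v)‖ := by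
    have := (le_abs_self _).trans (φ.le_opNorm (a • trunc A x + b • (v - trunc A v)))
    rw [map_add, map_smul, map_smul, ← ha, ← hb, smul_eq_mul, smul_eq_mul] at this
    nlinarith
  have h3 : ‖a • trunc A x + b • (v - trunc A v)‖ ^ 2 ≤ a ^ 2 + b ^ 2 := by
    rw [hv] at h1
    have : ‖x‖ ^ 2 ≤ 1 := by nlinarith [norm_nonneg x]
    nlinarith [sq_nonneg a]
  have h4 : r ^ 2 < a ^ 2 := by
    rw [Real.norm_eq_abs] at hA
    nlinarith [sq_abs a]
  have h5 : a ^ 2 + b ^ 2 ≤ M ^ 2 := by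
    set n := ‖a • trunc A x + b • (v - trunc A v)‖
    have hpos : 0 < a ^ 2 + b ^ 2 := by nlinarith [sq_nonneg b, sq_nonneg r]
    have : (a ^ 2 + b ^ 2) ^ 2 ≤ M ^ 2 * (a ^ 2 + b ^ 2) := by
      calc (a ^ 2 + b ^ 2) ^ 2 ≤ (M * n) ^ 2 := by gcongr
        _ = M ^ 2 * n ^ 2 := by ring
        _ ≤ _ := by gcongr
    nlinarith
  have h6 : (φ - φ.comp (trunc A)) v = b := by simp [hb]
  rw [h6, Real.norm_eq_abs]
  exact abs_le_of_sq_le_sq' (by nlinarith) hε.le |> abs_le.mpr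

lemma refl_lp (h : ∀ i, Refl (X i)) : Refl (lp X 2) := by
  intro Ψ
  choose ξ hξ using fun i => h i (Ψ.comp (pre (lp.evalCLM ℝ X 2 i)))
  have hb : ∀ A : Finset ι, ∑ i ∈ A, ‖ξ i‖ ^ 2 ≤ ‖Ψ‖ ^ 2 := by
    intro A
    choose χ hχ hχ' using fun i => exists_dual_vector'' ℝ (ξ i)
    set s := ∑ i ∈ A, ‖ξ i‖ ^ 2 with hs
    have hs0 : 0 ≤ s := sum_nonneg fun _ _ => sq_nonneg _
    let Φ : lp X 2 →L[ℝ] ℝ := ∑ i ∈ A, ‖ξ i‖ • (χ i).comp (lp.evalCLM ℝ X 2 i)
    have h1 : Ψ Φ = s := by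
      simp only [Φ, map_sum, map_smul, smul_eq_mul]
      refine sum_congr rfl fun i _ => ?_
      have := hξ i (χ i)
      rw [hχ' i] at this
      simp only [RCLike.ofReal_real_eq_id, id_eq, ContinuousLinearMap.comp_apply, pre_apply] at this
      rw [← this, sq]
    have h2 : ‖Φ‖ ≤ √s := by
      refine ContinuousLinearMap.opNorm_le_bound _ (Real.sqrt_nonneg _) fun v => ?_
      simp only [Φ, ContinuousLinearMap.sum_apply]
      calc _ ≤ ∑ i ∈ A, ‖ξ i‖ * ‖v i‖ := by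
            refine (norm_sum_le _ _).trans (sum_le_sum fun i _ => ?_)
            rw [ContinuousLinearMap.smul_apply, norm_smul, norm_norm]
            refine mul_le_mul_of_nonneg_left ?_ (norm_nonneg _)
            exact ((χ i).le_opNorm (v i)).trans (by nlinarith [hχ i, norm_nonneg (v i)])
        _ ≤ √s * √(∑ i ∈ A, ‖v i‖ ^ 2) := Real.sum_mul_le_sqrt_mul_sqrt _ _ _
        _ ≤ _ := mul_le_mul_of_nonneg_left (sqrt_sum_le v A) (Real.sqrt_nonneg _)
    have h3 : s ≤ ‖Ψ‖ * √s := by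
      rw [← h1]
      refine (le_abs_self _).trans ((Ψ.le_opNorm Φ).trans ?_)
      rw [h1]
      exact mul_le_mul_of_nonneg_left h2 (norm_nonneg _)
    have h4 := Real.sq_sqrt hs0
    nlinarith [sq_nonneg (‖Ψ‖ - √s)]
  let x : lp X 2 := ⟨ξ, mem_l2 ξ _ hb⟩
  refine ⟨x, fun φ => ?_⟩
  have key : ∀ A : Finset ι, φ.comp (trunc A) x = Ψ (φ.comp (trunc A)) := by
    intro A
    simp only [trunc, ContinuousLinearMap.comp_finset_sum, map_sum, ContinuousLinearMap.sum_apply]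
    refine sum_congr rfl fun i _ => ?_
    exact hξ i (φ.comp (lp.singleContinuousLinearMap ℝ X 2 i))
  refine eq_of_forall_dist_le fun ε hε => ?_
  obtain ⟨A, hA⟩ := exists_trunc_dual φ (ε / (‖x‖ + ‖Ψ‖ + 1)) (by positivity)
  have e : φ x - Ψ φ = (φ - φ.comp (trunc A)) x - Ψ (φ - φ.comp (trunc A)) := by
    rw [map_sub, ContinuousLinearMap.sub_apply, key]; ring
  rw [dist_eq_norm, e]
  have h1 := (φ - φ.comp (trunc A)).le_opNorm x
  have h2 := Ψ.le_opNorm (φ - φ.comp (trunc A))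
  rw [le_div_iff₀ (by positivity)] at hA
  nlinarith [norm_sub_le ((φ - φ.comp (trunc A)) x) (Ψ (φ - φ.comp (trunc A))),
    norm_nonneg (φ - φ.comp (trunc A))]

lemma separable_lp [Countable ι] (h : ∀ i, TopologicalSpace.SeparableSpace (X i)) :
    TopologicalSpace.SeparableSpace (lp X 2) := by
  have h1 : TopologicalSpace.IsSeparable (⋃ i, Set.range (lp.single (E := X) 2 i)) :=
    .iUnion fun i => TopologicalSpace.isSeparable_range (lp.isometry_single i).continuous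
  rw [← TopologicalSpace.isSeparable_univ_iff]
  refine ((h1.span (R := ℝ)).closure).mono fun f _ => ?_
  refine mem_closure_of_tendsto (tendsto_trunc f) (Eventually.of_forall fun A => ?_)
  rw [trunc_eq]
  exact Submodule.sum_mem _ fun i _ => Submodule.subset_span (Set.mem_iUnion.mpr ⟨i, _, rfl⟩)

lemma midProp_lp (h : ∀ i, MidProp (X i)) : MidProp (lp X 2) := by
  intro x η hη
  obtain ⟨A, hA⟩ := ((tendsto_iff_norm_sub_tendsto_zero.mp (tendsto_trunc x)).eventually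
    (gt_mem_nhds (show (0 : ℝ) < η / 4 by positivity))).exists
  set η' := η / (2 * (A.card + 1)) with hη'
  have hη'0 : 0 < η' := by positivity
  choose S hS hmid using fun i => h i (x i) η' hη'0
  obtain ⟨T, hT, hTS⟩ := isCofS_finset A (fun i => (S i).comap
    (lp.evalCLM ℝ X 2 i : lp X 2 →ₗ[ℝ] X i)) fun i => (hS i).comap _
  refine ⟨T, hT, fun y hy => ?_⟩
  set w := trunc A x - x with hw
  let D : ι → ℝ := fun i => √(4 * ‖x i‖ ^ 2 + ‖y i‖ ^ 2)
  let e : ι → ℝ := fun i => if i ∈ A then η' else 0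
  have hD0 : ∀ i, 0 ≤ D i := fun i => Real.sqrt_nonneg _
  have hD : ∀ i, D i ≤ ‖(x + y) i‖ + ‖(x - y) i‖ + 2 * ‖w i‖ + e i := by
    intro i
    simp only [lp.coeFn_add, lp.coeFn_sub, Pi.add_apply, Pi.sub_apply, hw, trunc_apply, e]
    split_ifs with hi
    · have := hmid i (y i) (hTS y hy i hi)
      simp only [sub_self, norm_zero, D]
      linarith
    · have h1 : D i ≤ 2 * ‖x i‖ + ‖y i‖ := Real.sqrt_le_iff.mpr ⟨by positivity, by
        nlinarith [mul_nonneg (norm_nonneg (x i)) (norm_nonneg (y i))]⟩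
      have h2 := norm_sub_le (x i + y i) (x i - y i)
      rw [show x i + y i - (x i - y i) = (2 : ℝ) • y i by module, norm_smul] at h2
      simp only [Real.norm_ofNat] at h2
      rw [zero_sub, norm_neg]
      linarith [norm_nonneg (y i)]
  set R := ‖x + y‖ + ‖x - y‖ + η with hR
  have hR0 : 0 ≤ R := by positivity
  have hsum : HasSum (fun i => D i ^ 2) (4 * ‖x‖ ^ 2 + ‖y‖ ^ 2) := by
    have : (fun i => D i ^ 2) = fun i => 4 * ‖x i‖ ^ 2 + ‖y i‖ ^ 2 :=
      funext fun i => Real.sq_sqrt (by positivity)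
    rw [this]
    exact ((hasSum_sq x).mul_left 4).add (hasSum_sq y)
  have hfin : ∀ B : Finset ι, ∑ i ∈ B, D i ^ 2 ≤ R ^ 2 := by
    intro B
    set s := ∑ i ∈ B, D i ^ 2 with hs
    have hs0 : 0 ≤ s := sum_nonneg fun _ _ => sq_nonneg _
    have hq := Real.sqrt_nonneg s
    have a1 := (Real.sum_mul_le_sqrt_mul_sqrt B D fun i => ‖(x + y) i‖).trans
      (mul_le_mul_of_nonneg_left (sqrt_sum_le (x + y) B) hq)
    have a2 := (Real.sum_mul_le_sqrt_mul_sqrt B D fun i => ‖(x - y) i‖).trans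
      (mul_le_mul_of_nonneg_left (sqrt_sum_le (x - y) B) hq)
    have a3 := (Real.sum_mul_le_sqrt_mul_sqrt B D fun i => ‖w i‖).trans
      (mul_le_mul_of_nonneg_left ((sqrt_sum_le w B).trans hA.le) hq)
    have a4 : ∑ i ∈ B, D i * e i ≤ √s * (η / 2) := by
      calc ∑ i ∈ B, D i * e i ≤ ∑ i ∈ B, √s * e i := by
            refine sum_le_sum fun i hi => mul_le_mul_of_nonneg_right ?_ (by
              simp only [e]; split_ifs <;> positivity)
            exact Real.le_sqrt_of_sq_le (single_le_sum (f := fun i => D i ^ 2)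
              (fun _ _ => sq_nonneg _) hi)
        _ ≤ _ := by
            rw [← mul_sum]
            refine mul_le_mul_of_nonneg_left ?_ hq
            simp only [e]
            rw [sum_ite_mem, sum_const, nsmul_eq_mul]
            have : ((B ∩ A).card : ℝ) ≤ A.card + 1 := by
              have := card_le_card (inter_subset_right (s₁ := B) (s₂ := A))
              exact_mod_cast this.trans (Nat.le_succ _)
            calc _ ≤ ((A.card : ℝ) + 1) * η' := by gcongr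
              _ = η / 2 := by rw [hη']; field_simp
    have a5 : s ≤ ∑ i ∈ B, D i * ‖(x + y) i‖ + ∑ i ∈ B, D i * ‖(x - y) i‖ +
        2 * ∑ i ∈ B, D i * ‖w i‖ + ∑ i ∈ B, D i * e i := by
      rw [mul_sum, ← sum_add_distrib, ← sum_add_distrib, ← sum_add_distrib]
      exact sum_le_sum fun i _ => by nlinarith [hD i, hD0 i]
    have a6 : s ≤ √s * R := by rw [hR]; nlinarith
    have h4 := Real.sq_sqrt hs0
    nlinarith [sq_nonneg (R - √s)]
  have := Real.sqrt_le_iff.mpr ⟨hR0, hasSum_le_of_sum_le hsum hfin⟩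
  linarith

end sum

end Crest.Agent.H4AUC
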