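import Mathlib

set_option autoImplicit false

namespace Crest.Agent.H4OT

open MeasureTheory ProbabilityTheory Set Filter Topology unitInterval
open scoped ENNReal

lemma continuous_cdf' (ν : Measure ℝ) [IsProbabilityMeasure ν] [NullSingletonClass ν] :
    Continuous (cdf ν) := by
  refine continuous_iff_continuousAt.mpr fun x => ?_
  rw [(monotone_cdf ν).continuousAt_iff_leftLim_eq_rightLim, (cdf ν).rightLim_eq]
  have h := (cdf ν).measure_singleton x
  rw [measure_cdf, measure_singleton, eq_comm, ENNReal.ofReal_eq_zero] at h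
  exact le_antisymm ((monotone_cdf ν).leftLim_le le_rfl) (by linarith)

lemma measure_cdf_le (ν : Measure ℝ) [IsProbabilityMeasure ν] [NullSingletonClass ν] (t : ℝ)
    (h0 : 0 ≤ t) (h1 : t ≤ 1) : ν {x | cdf ν x ≤ t} = ENNReal.ofReal t := by
  have hc := continuous_cdf' ν
  rcases h1.eq_or_lt with rfl | h1
  · simp [cdf_le_one]
  by_cases hne : {x | cdf ν x ≤ t}.Nonempty
  · have hbdd : BddAbove {x | cdf ν x ≤ t} := by
      obtain ⟨b, hb⟩ := eventually_atTop.mp ((tendsto_cdf_atTop ν).eventually (lt_mem_nhds h1))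
      exact ⟨b, fun x hx => by
        by_contra hcon
        exact absurd (hb x (not_le.mp hcon).le) (not_lt.mpr hx)⟩
    have hmem := (isClosed_le hc continuous_const).csSup_mem hne hbdd
    set x0 := sSup {x | cdf ν x ≤ t} with hx0
    have hS : {x | cdf ν x ≤ t} = Iic x0 := by
      ext x
      exact ⟨fun hx => le_csSup hbdd hx, fun hx => (monotone_cdf ν hx).trans hmem⟩
    have hge : t ≤ cdf ν x0 := by
      refine ge_of_tendsto (hc.continuousAt.tendsto.mono_left
        (nhdsWithin_le_nhds (s := Ioi x0))) ?_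
      filter_upwards [self_mem_nhdsWithin] with x hx
      by_contra hcon
      exact absurd (le_csSup hbdd (not_le.mp hcon).le) (not_le.mpr hx)
    rw [hS, ← ofReal_cdf, le_antisymm hmem hge]
  · have ht : t ≤ 0 := ge_of_tendsto' (tendsto_cdf_atBot ν) fun x => by
      by_contra hcon
      exact hne ⟨x, (not_le.mp hcon).le⟩
    rw [not_nonempty_iff_eq_empty.mp hne, le_antisymm ht h0]
    simp

lemma exists_unif {X : Type*} [MeasurableSpace X] [StandardBorelSpace X] (ν : Measure X)
    [IsProbabilityMeasure ν] [NullSingletonClass ν] :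
    ∃ U : X → I, Measurable U ∧ ν.map U = volume := by
  have he := measurableEmbedding_embeddingReal X
  set ν' := ν.map (embeddingReal X) with hν'
  haveI : IsProbabilityMeasure ν' := Measure.isProbabilityMeasure_map he.measurable.aemeasurable
  haveI : NullSingletonClass ν' := ⟨fun x => by
    rw [hν', he.map_apply]
    exact (subsingleton_singleton.preimage he.injective).measure_zero ν⟩
  let Φ : ℝ → I := fun x => ⟨cdf ν' x, cdf_nonneg _ _, cdf_le_one _ _⟩
  have hΦ : Measurable Φ := (continuous_cdf' ν').measurable.subtype_mk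
  refine ⟨Φ ∘ embeddingReal X, hΦ.comp he.measurable, ?_⟩
  rw [← Measure.map_map hΦ he.measurable, ← hν']
  haveI : IsProbabilityMeasure (ν'.map Φ) := Measure.isProbabilityMeasure_map hΦ.aemeasurable
  refine Measure.ext_of_Iic _ _ fun t => ?_
  rw [Measure.map_apply hΦ measurableSet_Iic, unitInterval.volume_Iic]
  exact measure_cdf_le ν' t t.2.1 t.2.2

lemma exists_transport {X Y : Type*} [MeasurableSpace X] [StandardBorelSpace X]
    [MeasurableSpace Y] [StandardBorelSpace Y] [Nonempty Y] (ν : Measure X) (ν' : Measure Y)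
    [IsFiniteMeasure ν] [NullSingletonClass ν] (h : ν univ = ν' univ) :
    ∃ T : X → Y, Measurable T ∧ ν.map T = ν' := by
  by_cases h0 : ν univ = 0
  · refine ⟨fun _ => Classical.arbitrary Y, measurable_const, ?_⟩
    rw [Measure.measure_univ_eq_zero.mp h0, Measure.measure_univ_eq_zero.mp (h.symm.trans h0)]
    simp
  have ht : ν univ ≠ ∞ := measure_ne_top _ _
  haveI : IsProbabilityMeasure ((ν univ)⁻¹ • ν) := ⟨by
    simp [ENNReal.inv_mul_cancel h0 ht]⟩
  haveI : IsProbabilityMeasure ((ν univ)⁻¹ • ν') := ⟨by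
    simp [← h, ENNReal.inv_mul_cancel h0 ht]⟩
  haveI : NullSingletonClass ((ν univ)⁻¹ • ν) := ⟨fun x => by simp⟩
  obtain ⟨U, hU, hUν⟩ := exists_unif ((ν univ)⁻¹ • ν)
  obtain ⟨Q, hQ, hQν⟩ := Measure.exists_measurable_map_eq ((ν univ)⁻¹ • ν')
  refine ⟨Q ∘ U, hQ.comp hU, ?_⟩
  have h1 : (ν univ)⁻¹ • ν.map (Q ∘ U) = (ν univ)⁻¹ • ν' := by
    rw [← Measure.map_smul, ← Measure.map_map hQ hU, hUν, hQν]
  have h2 := congrArg (fun m : Measure Y => ν univ • m) h1
  simpa [smul_smul, ENNReal.mul_inv_cancel h0 ht] using h2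

lemma exists_split {E : Type*} [MetricSpace E] [MeasurableSpace E] [BorelSpace E] [PolishSpace E]
    [Nonempty E] (a : Measure E) [IsFiniteMeasure a] [NullSingletonClass a] (δ : ℝ) (hδ : 0 < δ) :
    ∃ T : E → E × Bool, Measurable T ∧
      (a + a).map T = a.map (fun x => (x, true)) + a.map (fun x => (x, false)) ∧
      ∀ᵐ x ∂a, dist (T x).1 x ≤ δ := by
  classical
  obtain ⟨A, hAm, hAb, hAd, hAu, hdisj⟩ :=
    SeparableSpace.exists_measurable_partition_diam_le E hδ
  haveI : NullSingletonClass (a + a) := ⟨fun x => by simp⟩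
  have m1 : Measurable fun x : E => (x, true) := measurable_prodMk_right
  have m2 : Measurable fun x : E => (x, false) := measurable_prodMk_right
  choose T hT hTa using fun n => exists_transport ((a + a).restrict (A n))
    ((a.restrict (A n)).map (fun x => (x, true)) + (a.restrict (A n)).map (fun x => (x, false)))
    (by simp [Measure.map_apply m1, Measure.map_apply m2])
  have hex : ∀ x, ∃ n, x ∈ A n := fun x => mem_iUnion.mp (hAu ▸ mem_univ x)
  let T' : E → E × Bool := fun x => T (Nat.find (hex x)) x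
  have hT' : Measurable T' := Measurable.find hT hAm hex
  have hTT : ∀ n, ∀ x ∈ A n, T' x = T n x := by
    intro n x hx
    have : Nat.find (hex x) = n := by
      by_contra hne
      exact Set.disjoint_left.mp (hdisj hne) (Nat.find_spec (hex x)) hx
    simp only [T', this]
  have hsum : ∀ b : Measure E, b = Measure.sum fun n => b.restrict (A n) := fun b => by
    rw [← Measure.restrict_iUnion hdisj hAm, hAu, Measure.restrict_univ]
  refine ⟨T', hT', ?_, ?_⟩
  · have e1 : (a + a).map T' = Measure.sum fun n => ((a + a).restrict (A n)).map (T n) := by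
      conv_lhs => rw [hsum (a + a)]
      rw [Measure.map_sum hT'.aemeasurable]
      congr 1
      funext n
      refine Measure.map_congr ?_
      filter_upwards [ae_restrict_mem (hAm n)] with x hx using hTT n x hx
    rw [e1]
    simp only [hTa]
    rw [← Measure.sum_add_sum, ← Measure.map_sum m1.aemeasurable, ← Measure.map_sum m2.aemeasurable,
      ← hsum a]
  · rw [hsum a, Measure.ae_sum_iff]
    intro n
    have h1 : ∀ᵐ x ∂(a + a).restrict (A n), (T n x).1 ∈ A n := by
      refine ae_of_ae_map (p := fun q : E × Bool => q.1 ∈ A n) (hT n).aemeasurable ?_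
      rw [hTa, ae_add_measure_iff]
      have hm : MeasurableSet {q : E × Bool | q.1 ∈ A n} := measurable_fst (hAm n)
      exact ⟨(ae_map_iff m1.aemeasurable hm).mpr (ae_restrict_mem (hAm n)),
        (ae_map_iff m2.aemeasurable hm).mpr (ae_restrict_mem (hAm n))⟩
    rw [Measure.restrict_add, ae_add_measure_iff] at h1
    filter_upwards [h1.1, ae_restrict_mem (hAm n)] with x h2 hx
    rw [hTT n x hx]
    exact (Metric.dist_le_diam_of_mem (hAb n) h2 hx).trans (hAd n)

end Crest.Agent.H4OT
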