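import Mathlib
import Crest.Prelude.Def_MultiMarginal
import Crest.Agent.H4.OTSplit

set_option autoImplicit false

namespace Crest.Agent.H4OT

open MeasureTheory Set Filter Topology
open scoped ENNReal
open Crest.AnalysisR.OT

/-- good label triples -/
def Good (i j k : Fin 5) : Prop :=
  ({i, j, k} : Finset (Fin 5)) = {0, 1, 2} ∨ ({i, j, k} : Finset (Fin 5)) = {0, 3, 4}

instance (i j k : Fin 5) : Decidable (Good i j k) := by unfold Good; infer_instance

section

variable {E : Type} [MeasurableSpace E]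

/-- labelled copy -/
noncomputable def ee (a : Measure E) (i : Fin 5) : Measure (Fin 5 × E) := a.map (Prod.mk i)

/-- parameter measure -/
noncomputable def mm (a : Measure E) : Measure (Fin 5 × E) :=
  ee a 0 + ee a 0 + ee a 1 + ee a 2 + ee a 3 + ee a 4

lemma ee_apply (a : Measure E) (i : Fin 5) {s : Set (Fin 5 × E)} (hs : MeasurableSet s) :
    ee a i s = a (Prod.mk i ⁻¹' s) := Measure.map_apply measurable_prodMk_left hs

lemma ee_lintegral (a : Measure E) (i : Fin 5) {f : Fin 5 × E → ℝ≥0∞} (hf : Measurable f) :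
    ∫⁻ w, f w ∂ee a i = ∫⁻ x, f (i, x) ∂a := lintegral_map hf measurable_prodMk_left

lemma map_ee {Y : Type*} [MeasurableSpace Y] (a : Measure E) (i : Fin 5) {f : Fin 5 × E → Y}
    (hf : Measurable f) : (ee a i).map f = a.map fun x => f (i, x) :=
  Measure.map_map hf measurable_prodMk_left

lemma ae_mm (a : Measure E) {p : Fin 5 × E → Prop} (hp : MeasurableSet {w | p w})
    (h : ∀ i, ∀ᵐ x ∂a, p (i, x)) : ∀ᵐ w ∂mm a, p w := by
  simp only [mm, ae_add_measure_iff, ee]
  refine ⟨⟨⟨⟨⟨?_, ?_⟩, ?_⟩, ?_⟩, ?_⟩, ?_⟩ <;>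
  exact (ae_map_iff measurable_prodMk_left.aemeasurable hp).mpr (h _)

lemma count_aux : ∀ i j k : Fin 5, Good i j k →
    (if j = 1 then 1 else 0) + (if k = 1 then 1 else 0) =
      (if i = 0 ∧ (j = 1 ∨ j = 2) then 1 else 0) + (if i = 2 then 1 else 0 : ℕ) := by
  decide

lemma no_monge (a : Measure E) [IsFiniteMeasure a] (ha : a ≠ 0) (r2 r3 : Fin 5 × E → Fin 5 × E)
    (h2 : Measurable r2) (h3 : Measurable r3) (hm2 : (mm a).map r2 = mm a)
    (hm3 : (mm a).map r3 = mm a)
    (h : ∀ᵐ w ∂mm a, (r2 w).2 = w.2 ∧ (r3 w).2 = w.2 ∧ Good w.1 (r2 w).1 (r3 w).1) : False := by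
  classical
  let S : Set E := {x | (r2 (0, x)).1 = 1 ∨ (r2 (0, x)).1 = 2}
  have hf : Measurable fun w => (r2 w).1 := measurable_fst.comp h2
  have hS : MeasurableSet S :=
    ((hf.comp measurable_prodMk_left) (measurableSet_singleton 1)).union
      ((hf.comp measurable_prodMk_left) (measurableSet_singleton 2))
  have key : ∀ D : Set E, MeasurableSet D → a D + a D = a (S ∩ D) + a (S ∩ D) + a D := by
    intro D hD
    have hP : ∀ i : Fin 5, MeasurableSet ({i} ×ˢ D) := fun i => (measurableSet_singleton i).prod hD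
    let Z : Set (Fin 5 × E) := ({0} ×ˢ D) ∩ {w | (r2 w).1 = 1 ∨ (r2 w).1 = 2}
    have hZ : MeasurableSet Z := (hP 0).inter
      ((hf (measurableSet_singleton 1)).union (hf (measurableSet_singleton 2)))
    have e0 : ∀ i j : Fin 5, Prod.mk j ⁻¹' ({i} ×ˢ D) = if j = i then D else ∅ := by
      intro i j; ext x; by_cases hji : j = i <;> simp [hji]
    have e1 : mm a ({1} ×ˢ D) = a D := by simp [mm, ee_apply _ _ (hP _), e0]
    have e2 : mm a ({2} ×ˢ D) = a D := by simp [mm, ee_apply _ _ (hP _), e0]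
    have e3 : mm a Z = a (S ∩ D) + a (S ∩ D) := by
      have : Prod.mk 0 ⁻¹' Z = S ∩ D := by ext x; simp [Z, S, and_comm]
      simp only [mm, Measure.add_apply, ee_apply _ _ hZ, this]
      simp [Z, e0]
    have e4 : ∫⁻ w, ((r2 ⁻¹' ({1} ×ˢ D)).indicator 1 w + (r3 ⁻¹' ({1} ×ˢ D)).indicator 1 w) ∂mm a =
        ∫⁻ w, (Z.indicator 1 w + ({2} ×ˢ D : Set (Fin 5 × E)).indicator 1 w) ∂mm a := by
      refine lintegral_congr_ae ?_
      filter_upwards [h] with w ⟨a1, a2, a3⟩
      by_cases hw : w.2 ∈ D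
      · have := congrArg (Nat.cast : ℕ → ℝ≥0∞) (count_aux _ _ _ a3)
        simpa [indicator, Z, a1, a2, hw] using this
      · simp [indicator, Z, a1, a2, hw]
    rw [lintegral_add_left (measurable_one.indicator (h2 (hP 1))),
      lintegral_add_left (measurable_one.indicator hZ), lintegral_indicator_one (h2 (hP 1)),
      lintegral_indicator_one (h3 (hP 1)), lintegral_indicator_one hZ,
      lintegral_indicator_one (hP 2), ← Measure.map_apply h2 (hP 1), ← Measure.map_apply h3 (hP 1),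
      hm2, hm3, e1, e2, e3] at e4
    exact e4
  have k1 := key Sᶜ hS.compl
  have k2 := key S hS
  simp only [inter_compl_self, measure_empty, zero_add, inter_self] at k1 k2
  have t1 := measure_ne_top a S
  have t2 := measure_ne_top a Sᶜ
  have z1 : a Sᶜ = 0 := by
    have : a Sᶜ + a Sᶜ = 0 + a Sᶜ := by rw [k1, zero_add]
    exact (ENNReal.add_left_inj t2).mp this
  have z2 : a S = 0 := by
    have : a S + a S + 0 = a S + a S + a S := by rw [add_zero, ← k2]
    exact ((ENNReal.add_right_inj (ENNReal.add_ne_top.mpr ⟨t1, t1⟩)).mp this).symm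
  apply ha
  rw [← Measure.measure_univ_eq_zero, ← measure_add_measure_compl hS, z1, z2, add_zero]

end

variable {E : Type} [NormedAddCommGroup E] [MeasurableSpace E] [BorelSpace E] [PolishSpace E]

lemma exists_left_inv (K : Set E) (hK : MeasurableSet K) (M : Fin 5 × E → E) (hM : Measurable M)
    (hinj : ∀ w w' : Fin 5 × E, w.2 ∈ K → w'.2 ∈ K → M w = M w' → w = w') :
    ∃ L : E → Fin 5 × E, Measurable L ∧ ∀ w, w.2 ∈ K → L (M w) = w := by
  have hK' : MeasurableSet {w : Fin 5 × E | w.2 ∈ K} := measurable_snd hK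
  haveI : StandardBorelSpace {w : Fin 5 × E | w.2 ∈ K} := hK'.standardBorel
  have he : MeasurableEmbedding fun w : {w : Fin 5 × E | w.2 ∈ K} => M w :=
    (hM.comp measurable_subtype_coe).measurableEmbedding fun w w' h =>
      Subtype.ext (hinj _ _ w.2 w'.2 h)
  obtain ⟨L, hL, hL'⟩ := he.exists_measurable_extend (g := fun w => (w : Fin 5 × E))
    measurable_subtype_coe fun _ => inferInstance
  exact ⟨L, hL, fun w hw => congrFun hL' ⟨w, hw⟩⟩

theorem abstract_main (c : E × E × E → ℝ≥0∞) (hc : Measurable c)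
    (c12 : ∀ x y z, c (y, x, z) = c (x, y, z)) (c23 : ∀ x y z, c (x, z, y) = c (x, y, z))
    (a : Measure E) [IsFiniteMeasure a] [NullSingletonClass a] (ha : a ≠ 0)
    (K : Set E) (hK : MeasurableSet K) (haK : ∀ᵐ x ∂a, x ∈ K)
    (M : Fin 5 × E → E) (hM : Measurable M)
    (hinj : ∀ w w' : Fin 5 × E, w.2 ∈ K → w'.2 ∈ K → M w = M w' → w = w')
    (U : Fin 5 × E → ℝ≥0∞) (hU : Measurable U) (B : ℝ≥0∞) (hB : B ≠ ∞)
    (hUB : ∀ w, w.2 ∈ K → U w ≤ B)
    (hle : ∀ u v w : Fin 5 × E, u.2 ∈ K → v.2 ∈ K → w.2 ∈ K →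
      U u + U v + U w ≤ c (M u, M v, M w) ∧
      (U u + U v + U w = c (M u, M v, M w) → v.2 = u.2 ∧ w.2 = u.2 ∧ Good u.1 v.1 w.1))
    (C : ℝ) (hC : 0 < C)
    (hA : ∀ x ∈ K, ∀ x' ∈ K, c (M (0, x), M (1, x'), M (2, x')) ≤
      U (0, x) + U (1, x') + U (2, x') + ENNReal.ofReal (C * dist x' x ^ 2))
    (hA' : ∀ x ∈ K, ∀ x' ∈ K, c (M (0, x), M (3, x'), M (4, x')) ≤
      U (0, x) + U (3, x') + U (4, x') + ENNReal.ofReal (C * dist x' x ^ 2))
    (μ : Measure E) (hμ : μ = (mm a).map M) :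
    ∃ π₀ : Measure (E × E × E), IsCoupling₃ μ π₀ ∧ ∫⁻ p, c p ∂π₀ < ⊤ ∧
      (∀ π : Measure (E × E × E), IsCoupling₃ μ π → ∫⁻ p, c p ∂π₀ ≤ ∫⁻ p, c p ∂π) ∧
      (∀ T₂ T₃ : E → E, Measurable T₂ → Measurable T₃ → μ.map T₂ = μ → μ.map T₃ = μ →
        ∫⁻ p, c p ∂π₀ < ∫⁻ x, c (x, T₂ x, T₃ x) ∂μ) ∧
      (∀ ε : ℝ≥0∞, 0 < ε → ∃ T₂ T₃ : E → E, Measurable T₂ ∧ Measurable T₃ ∧
        μ.map T₂ = μ ∧ μ.map T₃ = μ ∧
        ∫⁻ x, c (x, T₂ x, T₃ x) ∂μ < ∫⁻ p, c p ∂π₀ + ε) := by
  obtain ⟨L, hL, hLM⟩ := exists_left_inv K hK M hM hinj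
  have hmK : ∀ᵐ w ∂mm a, w.2 ∈ K := ae_mm a (measurable_snd hK) fun _ => haK
  have hLμ : μ.map L = mm a := by
    rw [hμ, Measure.map_map hL hM]
    conv_rhs => rw [← Measure.map_id (μ := mm a)]
    refine Measure.map_congr ?_
    filter_upwards [hmK] with w hw using hLM w hw
  have hmes : MeasurableSet {y | (L y).2 ∈ K ∧ M (L y) = y} :=
    (hL.snd hK).inter (measurableSet_eq_fun (hM.comp hL) measurable_id)
  have hμae : ∀ᵐ y ∂μ, (L y).2 ∈ K ∧ M (L y) = y := by
    rw [hμ]
    refine (ae_map_iff hM.aemeasurable hmes).mpr ?_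
    filter_upwards [hmK] with w hw
    rw [hLM w hw]; exact ⟨hw, rfl⟩
  set V := ∫⁻ w, U w ∂mm a with hV
  haveI : IsFiniteMeasure (mm a) := by unfold mm ee; infer_instance
  have hVt : V ≠ ∞ := by
    refine ne_top_of_le_ne_top (ENNReal.mul_ne_top hB (measure_ne_top (mm a) univ)) ?_
    rw [← lintegral_const]
    refine lintegral_mono_ae ?_
    filter_upwards [hmK] with w hw using hUB w hw
  have hMi : ∀ i, Measurable fun x => M (i, x) := fun i => hM.comp measurable_prodMk_left
  have hUi : ∀ i, Measurable fun x => U (i, x) := fun i => hU.comp measurable_prodMk_left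
  let tr : Fin 5 → Fin 5 → Fin 5 → E → E × E × E := fun i j k x => (M (i, x), M (j, x), M (k, x))
  have htr : ∀ i j k, Measurable (tr i j k) := fun i j k => (hMi i).prodMk ((hMi j).prodMk (hMi k))
  have hμ' : μ = a.map (fun x => M (0, x)) + a.map (fun x => M (0, x)) + a.map (fun x => M (1, x)) +
      a.map (fun x => M (2, x)) + a.map (fun x => M (3, x)) + a.map (fun x => M (4, x)) := by
    rw [hμ]
    simp only [mm, Measure.map_add _ _ hM, map_ee a _ hM]
  have hV' : V = ∫⁻ x, U (0, x) ∂a + ∫⁻ x, U (0, x) ∂a + ∫⁻ x, U (1, x) ∂a + ∫⁻ x, U (2, x) ∂a +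
      ∫⁻ x, U (3, x) ∂a + ∫⁻ x, U (4, x) ∂a := by
    simp only [hV, mm, lintegral_add_measure, ee_lintegral a _ hU]
  have g1 : ∀ x ∈ K, c (M (0, x), M (1, x), M (2, x)) = U (0, x) + U (1, x) + U (2, x) :=
    fun x hx => le_antisymm (by simpa using hA x hx x hx) (hle _ _ _ hx hx hx).1
  have g2 : ∀ x ∈ K, c (M (0, x), M (3, x), M (4, x)) = U (0, x) + U (3, x) + U (4, x) :=
    fun x hx => le_antisymm (by simpa using hA' x hx x hx) (hle _ _ _ hx hx hx).1
  have i1 : ∫⁻ x, c (M (0, x), M (1, x), M (2, x)) ∂a =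
      ∫⁻ x, U (0, x) ∂a + ∫⁻ x, U (1, x) ∂a + ∫⁻ x, U (2, x) ∂a := by
    rw [← lintegral_add_left (hUi 0), ← lintegral_add_left ((hUi 0).fun_add (hUi 1))]
    refine lintegral_congr_ae ?_
    filter_upwards [haK] with x hx using g1 x hx
  have i2 : ∫⁻ x, c (M (0, x), M (3, x), M (4, x)) ∂a =
      ∫⁻ x, U (0, x) ∂a + ∫⁻ x, U (3, x) ∂a + ∫⁻ x, U (4, x) ∂a := by
    rw [← lintegral_add_left (hUi 0), ← lintegral_add_left ((hUi 0).fun_add (hUi 3))]
    refine lintegral_congr_ae ?_
    filter_upwards [haK] with x hx using g2 x hx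
  have cyc : ∀ x y z, c (y, z, x) = c (x, y, z) := fun x y z => by rw [c23, c12]
  have cyc' : ∀ x y z, c (z, x, y) = c (x, y, z) := fun x y z => by rw [c12, c23]
  let π₀ : Measure (E × E × E) := a.map (tr 0 1 2) + a.map (tr 1 2 0) + a.map (tr 2 0 1) +
    a.map (tr 0 3 4) + a.map (tr 3 4 0) + a.map (tr 4 0 3)
  have hπ₀ : ∫⁻ p, c p ∂π₀ = V + V + V := by
    simp only [π₀, lintegral_add_measure, lintegral_map hc (htr _ _ _), tr]
    simp only [cyc (M (0, _)), cyc' (M (0, _)), i1, i2, hV']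
    ring
  have p1 : Measurable fun p : E × E × E => p.1 := measurable_fst
  have p2 : Measurable fun p : E × E × E => p.2.1 := measurable_snd.fst
  have p3 : Measurable fun p : E × E × E => p.2.2 := measurable_snd.snd
  have hUL : Measurable fun y => U (L y) := hU.comp hL
  have hVμ : ∫⁻ y, U (L y) ∂μ = V := by rw [hV, ← hLμ, lintegral_map hU hL]
  have hsum : ∀ {X : Type} [MeasurableSpace X] (π : Measure X) (f1 f2 f3 : X → E),
      Measurable f1 → Measurable f2 → Measurable f3 → π.map f1 = μ → π.map f2 = μ → π.map f3 = μ →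
      (∫⁻ p, (U (L (f1 p)) + U (L (f2 p)) + U (L (f3 p))) ∂π = V + V + V) ∧
      ∀ᵐ p ∂π, (U (L (f1 p)) + U (L (f2 p)) + U (L (f3 p)) ≤ c (f1 p, f2 p, f3 p)) ∧
        (U (L (f1 p)) + U (L (f2 p)) + U (L (f3 p)) = c (f1 p, f2 p, f3 p) →
          (L (f2 p)).2 = (L (f1 p)).2 ∧ (L (f3 p)).2 = (L (f1 p)).2 ∧
            Good (L (f1 p)).1 (L (f2 p)).1 (L (f3 p)).1) := by
    intro X _ π f1 f2 f3 m1 m2 m3 e1 e2 e3
    constructor
    · rw [lintegral_add_left ((hUL.fun_comp m1).fun_add (hUL.fun_comp m2)),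
        lintegral_add_left (hUL.fun_comp m1),
        ← lintegral_map hUL m1, ← lintegral_map hUL m2, ← lintegral_map hUL m3, e1, e2, e3, hVμ]
    · filter_upwards [ae_of_ae_map m1.aemeasurable (e1 ▸ hμae),
        ae_of_ae_map m2.aemeasurable (e2 ▸ hμae), ae_of_ae_map m3.aemeasurable (e3 ▸ hμae)]
        with p a1 a2 a3
      have := hle _ _ _ a1.1 a2.1 a3.1
      rwa [a1.2, a2.2, a3.2] at this
  have h3V : V + V + V ≠ ∞ := by simp [hVt]
  refine ⟨π₀, ⟨?_, ?_, ?_⟩, by rw [hπ₀]; exact h3V.lt_top, fun π hπ => ?_,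
    fun T₂ T₃ m2 m3 e2 e3 => ?_, fun ε hε => ?_⟩
  · simp only [π₀, Measure.map_add _ _ p1, Measure.map_map p1 (htr _ _ _), hμ']
    simp only [tr, Function.comp_def]
    abel
  · simp only [π₀, Measure.map_add _ _ p2, Measure.map_map p2 (htr _ _ _), hμ']
    simp only [tr, Function.comp_def]
    abel
  · simp only [π₀, Measure.map_add _ _ p3, Measure.map_map p3 (htr _ _ _), hμ']
    simp only [tr, Function.comp_def]
    abel
  · obtain ⟨b1, b2⟩ := hsum π _ _ _ p1 p2 p3 hπ.1 hπ.2.1 hπ.2.2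
    rw [hπ₀, ← b1]
    exact lintegral_mono_ae (b2.mono fun p hp => hp.1)
  · obtain ⟨b1, b2⟩ := hsum μ id T₂ T₃ measurable_id m2 m3 Measure.map_id e2 e3
    by_contra hcon
    rw [hπ₀, ← b1, not_lt] at hcon
    have heq := ae_eq_of_ae_le_of_lintegral_le (b2.mono fun p hp => hp.1) (b1 ▸ h3V)
      (hc.comp (measurable_id.prodMk (m2.prodMk m3))).aemeasurable hcon
    have hgood := (b2.and heq).mono fun p hp => hp.1.2 hp.2
    refine no_monge a ha (L ∘ T₂ ∘ M) (L ∘ T₃ ∘ M) (hL.comp (m2.comp hM)) (hL.comp (m3.comp hM))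
      ?_ ?_ ?_
    · rw [← Measure.map_map hL (m2.comp hM), ← Measure.map_map m2 hM, ← hμ, e2, hLμ]
    · rw [← Measure.map_map hL (m3.comp hM), ← Measure.map_map m3 hM, ← hμ, e3, hLμ]
    · rw [hμ] at hgood
      filter_upwards [ae_of_ae_map hM.aemeasurable hgood, hmK] with w h1 h2
      simpa only [id, hLM w h2, Function.comp] using h1
  · obtain ⟨η, hη, hηε⟩ : ∃ η : ℝ, 0 < η ∧ ENNReal.ofReal η * mm a univ < ε := by
      have : Tendsto (fun η : ℝ => ENNReal.ofReal η * mm a univ) (𝓝[>] 0) (𝓝 0) := by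
        have := ENNReal.Tendsto.mul_const (b := mm a univ)
          (ENNReal.continuous_ofReal.tendsto 0) (Or.inr (measure_ne_top _ _))
        simpa using this.mono_left nhdsWithin_le_nhds
      obtain ⟨η, h1, h2⟩ := ((this.eventually (gt_mem_nhds hε)).and self_mem_nhdsWithin).exists
      exact ⟨η, h2, h1⟩
    obtain ⟨T, hT, hTa, hTd⟩ := exists_split a (√(η / C)) (Real.sqrt_pos.mpr (by positivity))
    let t2 : Fin 5 × E → Fin 5 × E := fun w =>
      ![(if (T w.2).2 then 1 else 3, (T w.2).1), (2, w.2), (0, w.2), (4, w.2), (0, w.2)] w.1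
    let t3 : Fin 5 × E → Fin 5 × E := fun w =>
      ![(if (T w.2).2 then 2 else 4, (T w.2).1), (0, w.2), (1, w.2), (0, w.2), (3, w.2)] w.1
    have hs : ∀ i j : Fin 5, Measurable fun q : E × Bool => ((if q.2 then i else j, q.1) : Fin 5 × E) :=
      fun i j => ((measurable_of_finite fun b : Bool => if b then i else j).comp
        measurable_snd).prodMk measurable_fst
    have ht2 : Measurable t2 := measurable_from_prod_countable_right fun i => by
      fin_cases i
      exacts [(hs 1 3).comp hT, measurable_prodMk_left, measurable_prodMk_left,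
        measurable_prodMk_left, measurable_prodMk_left]
    have ht3 : Measurable t3 := measurable_from_prod_countable_right fun i => by
      fin_cases i
      exacts [(hs 2 4).comp hT, measurable_prodMk_left, measurable_prodMk_left,
        measurable_prodMk_left, measurable_prodMk_left]
    have hsplit : ∀ i j : Fin 5,
        a.map (fun x => ((if (T x).2 then i else j, (T x).1) : Fin 5 × E)) +
        a.map (fun x => ((if (T x).2 then i else j, (T x).1) : Fin 5 × E)) = ee a i + ee a j := by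
      intro i j
      have := congrArg (Measure.map fun q : E × Bool => ((if q.2 then i else j, q.1) : Fin 5 × E)) hTa
      rw [Measure.map_map (hs i j) hT, Measure.map_add _ _ ((hs i j).comp hT),
        Measure.map_add _ _ (hs i j), Measure.map_map (hs i j) measurable_prodMk_right,
        Measure.map_map (hs i j) measurable_prodMk_right] at this
      exact this
    have hm2 : (mm a).map t2 = mm a := by
      simp only [mm, Measure.map_add _ _ ht2, map_ee a _ ht2]
      change a.map (fun x => ((if (T x).2 then 1 else 3, (T x).1) : Fin 5 × E)) +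
        a.map (fun x => ((if (T x).2 then 1 else 3, (T x).1) : Fin 5 × E)) +
        ee a 2 + ee a 0 + ee a 4 + ee a 0 = _
      rw [hsplit]; abel
    have hm3 : (mm a).map t3 = mm a := by
      simp only [mm, Measure.map_add _ _ ht3, map_ee a _ ht3]
      change a.map (fun x => ((if (T x).2 then 2 else 4, (T x).1) : Fin 5 × E)) +
        a.map (fun x => ((if (T x).2 then 2 else 4, (T x).1) : Fin 5 × E)) +
        ee a 0 + ee a 1 + ee a 0 + ee a 3 = _
      rw [hsplit]; abel
    have hTK : ∀ᵐ x ∂a, (T x).1 ∈ K := by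
      have : ∀ᵐ x ∂(a + a), (T x).1 ∈ K := by
        refine ae_of_ae_map (p := fun q : E × Bool => q.1 ∈ K) hT.aemeasurable ?_
        rw [hTa, ae_add_measure_iff]
        exact ⟨(ae_map_iff measurable_prodMk_right.aemeasurable (measurable_fst hK)).mpr haK,
          (ae_map_iff measurable_prodMk_right.aemeasurable (measurable_fst hK)).mpr haK⟩
      exact (ae_add_measure_iff.mp this).1
    have m2 : Measurable (M ∘ t2 ∘ L) := hM.comp (ht2.comp hL)
    have m3 : Measurable (M ∘ t3 ∘ L) := hM.comp (ht3.comp hL)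
    refine ⟨M ∘ t2 ∘ L, M ∘ t3 ∘ L, m2, m3, ?_, ?_, ?_⟩
    · rw [← Measure.map_map hM (ht2.comp hL), ← Measure.map_map ht2 hL, hLμ, hm2, hμ]
    · rw [← Measure.map_map hM (ht3.comp hL), ← Measure.map_map ht3 hL, hLμ, hm3, hμ]
    have hcm : Measurable fun w => c (M w, M (t2 w), M (t3 w)) :=
      hc.comp (hM.prodMk ((hM.comp ht2).prodMk (hM.comp ht3)))
    have hUm : Measurable fun w => U w + U (t2 w) + U (t3 w) :=
      (hU.add (hU.comp ht2)).add (hU.comp ht3)
    calc ∫⁻ x, c (x, (M ∘ t2 ∘ L) x, (M ∘ t3 ∘ L) x) ∂μ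
        = ∫⁻ w, c (M w, M (t2 w), M (t3 w)) ∂mm a := by
          rw [← hLμ, lintegral_map hcm hL]
          refine lintegral_congr_ae ?_
          filter_upwards [hμae] with y hy
          simp only [hy.2, Function.comp]
      _ ≤ ∫⁻ w, (U w + U (t2 w) + U (t3 w) + ENNReal.ofReal η) ∂mm a := by
          refine lintegral_mono_ae (ae_mm a (measurableSet_le hcm (hUm.add_const _)) fun i => ?_)
          filter_upwards [haK, hTK, hTd] with x hx hx' hd
          have hd' : ENNReal.ofReal (C * dist (T x).1 x ^ 2) ≤ ENNReal.ofReal η := by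
            refine ENNReal.ofReal_le_ofReal ?_
            have := pow_le_pow_left₀ dist_nonneg hd 2
            rw [Real.sq_sqrt (by positivity), le_div_iff₀ hC] at this
            linarith
          fin_cases i
          · cases hb : (T x).2
            · simpa [t2, t3, hb] using (hA' x hx _ hx').trans (add_le_add le_rfl hd')
            · simpa [t2, t3, hb] using (hA x hx _ hx').trans (add_le_add le_rfl hd')
          · change c (M (1, x), M (2, x), M (0, x)) ≤ U (1, x) + U (2, x) + U (0, x) + _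
            rw [cyc, g1 x hx]
            exact le_add_right (le_of_eq (by ring))
          · change c (M (2, x), M (0, x), M (1, x)) ≤ U (2, x) + U (0, x) + U (1, x) + _
            rw [cyc', g1 x hx]
            exact le_add_right (le_of_eq (by ring))
          · change c (M (3, x), M (4, x), M (0, x)) ≤ U (3, x) + U (4, x) + U (0, x) + _
            rw [cyc, g2 x hx]
            exact le_add_right (le_of_eq (by ring))
          · change c (M (4, x), M (0, x), M (3, x)) ≤ U (4, x) + U (0, x) + U (3, x) + _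
            rw [cyc', g2 x hx]
            exact le_add_right (le_of_eq (by ring))
      _ = V + V + V + ENNReal.ofReal η * mm a univ := by
          rw [lintegral_add_left hUm, lintegral_const, lintegral_add_left (hU.fun_add (hU.fun_comp ht2)),
            lintegral_add_left hU, ← lintegral_map hU ht2, ← lintegral_map hU ht3, hm2, hm3]
      _ < _ := by
          rw [hπ₀]
          exact ENNReal.add_lt_add_left h3V hηε

end Crest.Agent.H4OT
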