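import Mathlib

set_option autoImplicit false

namespace Crest.Agent.H4OT

open MeasureTheory Set Filter Topology Metric
open scoped ENNReal ContDiff

variable {E : Type} [NormedAddCommGroup E] [NormedSpace ℝ E] [FiniteDimensional ℝ E]

lemma contDiff_det : ContDiff ℝ ω fun A : E →L[ℝ] E => A.det := by
  classical
  let b := Module.finBasis ℝ E
  have : (fun A : E →L[ℝ] E => A.det) = fun A : E →L[ℝ] E =>
      ∑ σ : Equiv.Perm (Fin (Module.finrank ℝ E)),
        ((Equiv.Perm.sign σ : ℤ) : ℝ) * ∏ i, b.repr (A (b i)) (σ i) := by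
    funext A
    rw [ContinuousLinearMap.det, ← LinearMap.det_toMatrix b, Matrix.det_apply']
    simp [LinearMap.toMatrix_apply]
  rw [this]
  refine ContDiff.sum fun σ _ => contDiff_const.mul (contDiff_prod fun i _ => ?_)
  exact ((b.coord (σ i)).toContinuousLinearMap.comp
    (ContinuousLinearMap.apply ℝ E (b i))).contDiff

lemma setLIntegral_inter_of_zero {X : Type*} [MeasurableSpace X] (μ : Measure X) {T : Set X}
    (hT : MeasurableSet T) (A : Set X) (g : X → ℝ≥0∞) (hg : ∀ y ∉ T, g y = 0) :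
    ∫⁻ y in A, g y ∂μ = ∫⁻ y in T ∩ A, g y ∂μ := by
  rw [← Measure.restrict_restrict hT, ← lintegral_indicator hT]
  congr 1
  funext y
  by_cases hy : y ∈ T <;> simp [hy, hg]

lemma exists_density [MeasurableSpace E] [BorelSpace E] (μ : Measure E) [μ.IsAddHaarMeasure]
    (F : E → E) (hFm : Measurable F) (hF : ContDiffAt ℝ ω F 0)
    (hinj : Function.Injective (fderiv ℝ F 0)) :
    ∃ R : ℝ, 0 < R ∧ ∀ r < R, InjOn F (closedBall 0 r) ∧ ∀ α : E → ℝ, ContDiff ℝ ∞ α →
      (∀ x, 0 ≤ α x) → (∀ x ∉ closedBall (0 : E) r, α x = 0) →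
      ∃ β : E → ℝ, ContDiff ℝ ∞ β ∧ HasCompactSupport β ∧ (∀ y, 0 ≤ β y) ∧
        (∀ y ∉ F '' closedBall 0 r, β y = 0) ∧
        μ.withDensity (fun y => ENNReal.ofReal (β y ^ 2)) =
          (μ.withDensity fun x => ENNReal.ofReal (α x ^ 2)).map F := by
  classical
  let f' : E ≃L[ℝ] E :=
    (LinearEquiv.ofInjectiveEndo (fderiv ℝ F 0 : E →ₗ[ℝ] E) hinj).toContinuousLinearEquiv
  have hf' : HasFDerivAt F (f' : E →L[ℝ] E) 0 := (hF.differentiableAt (by simp)).hasFDerivAt
  let e := hF.toOpenPartialHomeomorph F hf' (by simp)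
  have he : ∀ x, e x = F x := fun x => rfl
  have hJ : ContDiffAt ℝ ω (fun x => (fderiv ℝ F x).det) 0 :=
    contDiff_det.contDiffAt.comp 0 (hF.fderiv_right (m := ω) le_rfl)
  have hJ0 : (fderiv ℝ F 0).det ≠ 0 :=
    (LinearEquiv.ofInjectiveEndo (fderiv ℝ F 0 : E →ₗ[ℝ] E) hinj).isUnit_det'.ne_zero
  have hφ : ContDiffAt ℝ ω e.symm (F 0) := hF.to_localInverse hf' (by simp)
  have hev : ∀ᶠ x in 𝓝 (0 : E), x ∈ e.source ∧ ContDiffAt ℝ ω F x ∧
      ContDiffAt ℝ ω (fun x => (fderiv ℝ F x).det) x ∧ (fderiv ℝ F x).det ≠ 0 ∧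
      ContDiffAt ℝ ω e.symm (F x) :=
    Eventually.and (e.open_source.mem_nhds (hF.mem_toOpenPartialHomeomorph_source hf' (by simp)))
      ((hF.eventually (by simp)).and ((hJ.eventually (by simp)).and
        ((hJ.continuousAt.eventually_ne hJ0).and
          (hF.continuousAt.eventually (hφ.eventually (by simp))))))
  obtain ⟨R, hR, hball⟩ := Metric.eventually_nhds_iff_ball.mp hev
  refine ⟨R, hR, fun r hr => ?_⟩
  have hK : ∀ x ∈ closedBall (0 : E) r, _ := fun x hx => hball x (closedBall_subset_ball hr hx)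
  have hinjOn : InjOn F (closedBall 0 r) := e.injOn.mono fun x hx => (hK x hx).1
  refine ⟨hinjOn, fun α hα hα0 hαs => ?_⟩
  have hcomp : IsCompact (F '' closedBall 0 r) := (isCompact_closedBall 0 r).image_of_continuousOn
    fun x hx => (hK x hx).2.1.continuousAt.continuousWithinAt
  let γ : E → ℝ := fun y => α (e.symm y) * (√|(fderiv ℝ F (e.symm y)).det|)⁻¹
  let β : E → ℝ := (F '' closedBall 0 r).indicator γ
  have hβ0 : ∀ y ∉ F '' closedBall 0 r, β y = 0 := fun y hy => indicator_of_notMem hy _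
  refine ⟨β, contDiff_iff_contDiffAt.mpr fun y => ?_, HasCompactSupport.intro hcomp hβ0,
    fun y => indicator_nonneg (fun y _ => mul_nonneg (hα0 _) (by positivity)) y, hβ0, ?_⟩
  · by_cases hy : y ∈ F '' closedBall 0 r
    · obtain ⟨x, hx, rfl⟩ := hy
      obtain ⟨k1, k2, k3, k4, k5⟩ := hK x hx
      have hl : e.symm (F x) = x := e.left_inv k1
      have k5' : ContDiffAt ℝ ∞ e.symm (F x) := k5.of_le le_top
      have h1 : ContDiffAt ℝ ∞ γ (F x) := by
        refine (hα.contDiffAt.comp _ k5').mul (ContDiffAt.inv (ContDiffAt.sqrt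
          (ContDiffAt.abs ?_ ?_) ?_) ?_)
        · exact ContDiffAt.comp (g := fun x => (fderiv ℝ F x).det) _
            (by rw [hl]; exact k3.of_le le_top) k5'
        · rwa [hl]
        · rw [hl]; exact abs_ne_zero.mpr k4
        · rw [hl]; exact (Real.sqrt_pos.mpr (abs_pos.mpr k4)).ne'
      refine h1.congr_of_eventuallyEq ?_
      filter_upwards [e.open_target.mem_nhds (e.map_source k1)] with y hy
      by_cases hy' : y ∈ F '' closedBall 0 r
      · exact indicator_of_mem hy' _
      · rw [hβ0 y hy']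
        have : α (e.symm y) = 0 := hαs _ fun h => hy' ⟨_, h, e.right_inv hy⟩
        simp [γ, this]
    · refine (contDiffAt_const (c := 0)).congr_of_eventuallyEq ?_
      filter_upwards [hcomp.isClosed.isOpen_compl.mem_nhds hy] with y hy using hβ0 y hy
  · ext A hA
    rw [Measure.map_apply hFm hA, withDensity_apply _ hA, withDensity_apply _ (hFm hA),
      setLIntegral_inter_of_zero μ hcomp.measurableSet A _ (fun y hy => by simp [hβ0 y hy]),
      setLIntegral_inter_of_zero μ measurableSet_closedBall (F ⁻¹' A) _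
        (fun x hx => by simp [hαs x hx]), ← image_inter_preimage,
      lintegral_image_eq_lintegral_abs_det_fderiv_mul μ (measurableSet_closedBall.inter (hFm hA))
        (fun x hx => ((hK x hx.1).2.1.differentiableAt (by simp)).hasFDerivAt.hasFDerivWithinAt)
        (hinjOn.mono inter_subset_left)]
    refine setLIntegral_congr_fun (measurableSet_closedBall.inter (hFm hA)) fun x hx => ?_
    obtain ⟨k1, k2, k3, k4, k5⟩ := hK x hx.1
    have hl : e.symm (F x) = x := e.left_inv k1
    simp only [β, indicator_of_mem (mem_image_of_mem F hx.1), γ, hl]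
    rw [← ENNReal.ofReal_mul (abs_nonneg _), mul_pow, inv_pow, Real.sq_sqrt (abs_nonneg _)]
    congr 1
    field_simp

end Crest.Agent.H4OT
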