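import Mathlib

set_option autoImplicit false

namespace Crest.Agent.H4OT

open MeasureTheory Set Filter Topology Metric
open scoped ENNReal ContDiff RealInnerProductSpace

lemma taylor_bound {V : Type*} [NormedAddCommGroup V] [NormedSpace ℝ V] (f : V → ℝ) (p : V)
    (hf : ContDiffAt ℝ ω f p) : ∃ K : ℝ, 0 ≤ K ∧ ∀ᶠ q in 𝓝 (p, p),
      |f q.2 - f q.1 - fderiv ℝ f q.1 (q.2 - q.1)| ≤ K * ‖q.2 - q.1‖ ^ 2 := by
  obtain ⟨K, t, ht, hK⟩ := (hf.fderiv_right (m := 1) le_top).exists_lipschitzOnWith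
  obtain ⟨R, hR, hball⟩ := Metric.eventually_nhds_iff_ball.mp
    (Eventually.and ht (hf.eventually (by simp)))
  refine ⟨K, K.2, ?_⟩
  filter_upwards [prod_mem_nhds (ball_mem_nhds p hR) (ball_mem_nhds p hR)] with q hq
  have := Convex.norm_image_sub_le_of_norm_hasFDerivWithin_le' (f := f) (f' := fderiv ℝ f)
    (φ := fderiv ℝ f q.1) (s := ball p R ∩ closedBall q.1 ‖q.2 - q.1‖) (C := K * ‖q.2 - q.1‖)
    (fun x hx => ((hball x hx.1).2.differentiableAt (by simp)).hasFDerivAt.hasFDerivWithinAt)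
    (fun x hx => by
      have := hK.dist_le_mul x (hball x hx.1).1 q.1 (hball _ hq.1).1
      rw [dist_eq_norm] at this
      exact this.trans (mul_le_mul_of_nonneg_left hx.2 K.2))
    ((convex_ball _ _).inter (convex_closedBall _ _)) (x := q.1) (y := q.2)
    ⟨hq.1, mem_closedBall_self (norm_nonneg _)⟩ ⟨hq.2, by simp [dist_eq_norm]⟩
  rw [Real.norm_eq_abs] at this
  calc _ ≤ _ := this
    _ = _ := by ring

variable {E : Type} [NormedAddCommGroup E] [InnerProductSpace ℝ E]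

/-- real pair potential -/
noncomputable def hh (s : ℝ) (v : E) : ℝ := (‖v‖ ^ 2) ^ (-s / 2)

/-- its gradient -/
noncomputable def gg (s : ℝ) (v : E) : E := (-s * (‖v‖ ^ 2) ^ (-s / 2 - 1)) • v

lemma contDiffAt_hh (s : ℝ) {v : E} (hv : v ≠ 0) : ContDiffAt ℝ ω (hh s) v :=
  (contDiff_norm_sq ℝ).contDiffAt.rpow_const_of_ne (by positivity)

lemma contDiffAt_gg (s : ℝ) {v : E} (hv : v ≠ 0) : ContDiffAt ℝ ω (gg s) v :=
  (contDiffAt_const.mul ((contDiff_norm_sq ℝ).contDiffAt.rpow_const_of_ne (by positivity))).smul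
    contDiffAt_id

lemma gg_neg (s : ℝ) (v : E) : gg s (-v) = - gg s v := by simp [gg]

lemma hasFDerivAt_hh (s : ℝ) {v : E} (hv : v ≠ 0) :
    HasFDerivAt (hh s) (innerSL ℝ (gg s v)) v := by
  have h := (hasStrictFDerivAt_norm_sq v).hasFDerivAt.rpow_const (p := -s / 2)
    (Or.inl (by positivity))
  refine HasFDerivAt.congr_fderiv (f := hh s) h ?_
  ext w
  simp [gg, inner_smul_left]
  ring

lemma inj_gg {s : ℝ} (hs : 0 < s) {v : E} (hv : v ≠ 0) :
    Function.Injective (fderiv ℝ (gg s) v) := by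
  have hn : (0 : ℝ) < ‖v‖ ^ 2 := by positivity
  have h := (((hasStrictFDerivAt_norm_sq v).hasFDerivAt.rpow_const (p := -s / 2 - 1)
    (Or.inl hn.ne')).const_mul (-s)).smul (hasFDerivAt_id v)
  have h' : HasFDerivAt (gg s) _ v := h
  rw [h'.fderiv, injective_iff_map_eq_zero]
  intro η hη
  simp only [ContinuousLinearMap.add_apply, ContinuousLinearMap.smul_apply,
    ContinuousLinearMap.id_apply, ContinuousLinearMap.smulRight_apply, id, innerSL_apply_apply,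
    smul_eq_mul, nsmul_eq_mul, Nat.cast_ofNat] at hη
  set r := (‖v‖ ^ 2) ^ (-s / 2 - 1 - 1) with hr
  have hr0 : 0 < r := Real.rpow_pos_of_pos hn _
  have e1 : (‖v‖ ^ 2) ^ (-s / 2 - 1) = r * ‖v‖ ^ 2 := by
    rw [hr, ← Real.rpow_add_one hn.ne']; congr 1; ring
  rw [e1] at hη
  have h1 := congrArg (fun w => ⟪v, w⟫) hη
  simp only [inner_add_right, inner_smul_right, real_inner_self_eq_norm_sq, inner_zero_right] at h1
  have h2 : ⟪v, η⟫ = 0 := by
    have : (s * (s + 1) * r * ‖v‖ ^ 2) * ⟪v, η⟫ = 0 := by linarith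
    exact (mul_eq_zero.mp this).resolve_left (by positivity)
  rw [h2] at hη
  simp only [mul_zero, zero_smul, add_zero] at hη
  exact (smul_eq_zero.mp hη).resolve_left (by
    have : 0 < s * (r * ‖v‖ ^ 2) := by positivity
    linarith)

lemma measurable_hh [MeasurableSpace E] [BorelSpace E] (s : ℝ) : Measurable (hh s : E → ℝ) :=
  (measurable_norm.pow_const 2).pow_const _

/-- real triple cost -/
noncomputable def cR (s : ℝ) (q : E × E × E) : ℝ :=
  hh s (q.1 - q.2.1) + hh s (q.1 - q.2.2) + hh s (q.2.1 - q.2.2)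

lemma fderiv_cR (s : ℝ) (q : E × E × E) (h1 : q.1 - q.2.1 ≠ 0) (h2 : q.1 - q.2.2 ≠ 0)
    (h3 : q.2.1 - q.2.2 ≠ 0) (ξ ζ : E) : fderiv ℝ (cR s) q (ξ, 0, ζ) =
      ⟪gg s (q.1 - q.2.1) + gg s (q.1 - q.2.2), ξ⟫ +
      ⟪-gg s (q.1 - q.2.2) - gg s (q.2.1 - q.2.2), ζ⟫ := by
  have a1 := (hasFDerivAt_hh s h1).comp q (hasFDerivAt_fst.sub hasFDerivAt_snd.fst)
  have a2 := (hasFDerivAt_hh s h2).comp q (hasFDerivAt_fst.sub hasFDerivAt_snd.snd)
  have a3 := (hasFDerivAt_hh s h3).comp q (hasFDerivAt_snd.fst.sub hasFDerivAt_snd.snd)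
  have h : HasFDerivAt (cR s) _ q := (a1.add a2).add a3
  rw [h.fderiv]
  simp [inner_add_left, inner_sub_left, inner_sub_right]
  ring

lemma lin_aux [FiniteDimensional ℝ E] (H1 H2 H3 : E →L[ℝ] E) (i1 : Function.Injective H1)
    (i3 : Function.Injective H3) : ∃ Λ : ℝ, ∀ l ≥ Λ, ∀ ξ η ζ : E,
      H1 (ξ - η) + H2 (ξ - ζ) + l • ξ = 0 → -H2 (ξ - ζ) - H3 (η - ζ) + l • ζ = 0 →
      (ξ = 0 ∨ η = 0 ∨ ζ = 0) → ξ = 0 ∧ η = 0 ∧ ζ = 0 := by
  obtain ⟨c1, -, hc1⟩ := (H1 : E →ₗ[ℝ] E).exists_antilipschitzWith (LinearMap.ker_eq_bot.mpr i1)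
  obtain ⟨c3, -, hc3⟩ := (H3 : E →ₗ[ℝ] E).exists_antilipschitzWith (LinearMap.ker_eq_bot.mpr i3)
  have b1 : ∀ η, ‖η‖ ≤ c1 * ‖H1 η‖ := fun η => by simpa using hc1.le_mul_dist η 0
  have b3 : ∀ η, ‖η‖ ≤ c3 * ‖H3 η‖ := fun η => by simpa using hc3.le_mul_dist η 0
  set N := ‖H1‖ + ‖H2‖ + ‖H3‖ with hN
  have n1 : ∀ v, ‖H1 v‖ ≤ N * ‖v‖ := fun v => H1.le_of_opNorm_le (by
    linarith [norm_nonneg H2, norm_nonneg H3]) v
  have n2 : ∀ v, ‖H2 v‖ ≤ N * ‖v‖ := fun v => H2.le_of_opNorm_le (by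
    linarith [norm_nonneg H1, norm_nonneg H3]) v
  have n3 : ∀ v, ‖H3 v‖ ≤ N * ‖v‖ := fun v => H3.le_of_opNorm_le (by
    linarith [norm_nonneg H2, norm_nonneg H1]) v
  have hN0 : 0 ≤ N := by positivity
  have hc1' : (0 : ℝ) ≤ c1 := c1.2
  have hc3' : (0 : ℝ) ≤ c3 := c3.2
  refine ⟨N * (3 + (c1 + c3) * N) + 1, fun l hl ξ η ζ e1 e2 h => ?_⟩
  have hl0 : 0 ≤ l := le_trans (by positivity) hl
  have f1 : l * ‖ξ‖ ≤ N * (2 * ‖ξ‖ + ‖η‖ + ‖ζ‖) := by
    have : l • ξ = -(H1 (ξ - η) + H2 (ξ - ζ)) := eq_neg_of_add_eq_zero_right e1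
    have h2 := congrArg norm this
    rw [norm_smul, norm_neg, Real.norm_eq_abs, abs_of_nonneg hl0] at h2
    have := norm_add_le (H1 (ξ - η)) (H2 (ξ - ζ))
    nlinarith [n1 (ξ - η), n2 (ξ - ζ), mul_le_mul_of_nonneg_left (norm_sub_le ξ η) hN0,
      mul_le_mul_of_nonneg_left (norm_sub_le ξ ζ) hN0]
  have f2 : l * ‖ζ‖ ≤ N * (‖ξ‖ + ‖η‖ + 2 * ‖ζ‖) := by
    have : l • ζ = -(-H2 (ξ - ζ) - H3 (η - ζ)) := eq_neg_of_add_eq_zero_right e2
    have h2 := congrArg norm this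
    rw [norm_smul, norm_neg, Real.norm_eq_abs, abs_of_nonneg hl0] at h2
    have := norm_sub_le (-H2 (ξ - ζ)) (H3 (η - ζ))
    rw [norm_neg] at this
    nlinarith [n3 (η - ζ), n2 (ξ - ζ), mul_le_mul_of_nonneg_left (norm_sub_le η ζ) hN0,
      mul_le_mul_of_nonneg_left (norm_sub_le ξ ζ) hN0]
  have hx := norm_nonneg ξ
  have hy := norm_nonneg η
  have hz := norm_nonneg ζ
  have hNN : 0 ≤ N * ((c1 + c3) * N) := by positivity
  rcases h with h | h | h
  · subst h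
    have g1 : ‖η‖ ≤ (c1 + c3) * N * ‖ζ‖ := by
      have : H1 η = -H2 ζ := by
        simp only [zero_sub, map_neg, smul_zero, add_zero] at e1
        rw [← neg_add, neg_eq_zero] at e1
        exact eq_neg_of_add_eq_zero_left e1
      have h2 := b1 η
      rw [this, norm_neg] at h2
      nlinarith [mul_le_mul_of_nonneg_left (n2 ζ) hc1', mul_nonneg hc3' (mul_nonneg hN0 hz)]
    have g2 : ‖ζ‖ = 0 := by
      rw [norm_zero] at f2
      nlinarith [mul_le_mul_of_nonneg_left g1 hN0, mul_le_mul_of_nonneg_right hl hz,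
        mul_nonneg hN0 hz]
    rw [g2, mul_zero] at g1
    exact ⟨rfl, norm_le_zero_iff.mp g1, norm_eq_zero.mp g2⟩
  · subst h
    rw [norm_zero] at f1 f2
    have g : ‖ξ‖ + ‖ζ‖ ≤ 0 := by
      nlinarith [mul_le_mul_of_nonneg_right hl (add_nonneg hx hz), mul_nonneg hNN (add_nonneg hx hz)]
    exact ⟨norm_le_zero_iff.mp (by linarith), rfl, norm_le_zero_iff.mp (by linarith)⟩
  · subst h
    have g1 : ‖η‖ ≤ (c1 + c3) * N * ‖ξ‖ := by
      have : H3 η = -H2 ξ := by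
        simp only [sub_zero, smul_zero, add_zero] at e2
        exact (sub_eq_zero.mp e2).symm
      have h2 := b3 η
      rw [this, norm_neg] at h2
      nlinarith [mul_le_mul_of_nonneg_left (n2 ξ) hc3', mul_nonneg hc1' (mul_nonneg hN0 hx)]
    have g2 : ‖ξ‖ = 0 := by
      rw [norm_zero] at f1
      nlinarith [mul_le_mul_of_nonneg_left g1 hN0, mul_le_mul_of_nonneg_right hl hx,
        mul_nonneg hN0 hx]
    rw [g2, mul_zero] at g1
    exact ⟨norm_eq_zero.mp g2, norm_le_zero_iff.mp g1, rfl⟩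

lemma local_main [FiniteDimensional ℝ E] [MeasurableSpace E] [BorelSpace E] {s : ℝ} (hs : 0 < s)
    (e : E) (he : ‖e‖ = 1) : ∃ Λ : ℝ, ∀ l ≥ Λ, ∃ (F G : E → E) (uF uG : E → ℝ) (C : ℝ), 0 < C ∧
      Measurable F ∧ Measurable G ∧ Measurable uF ∧ Measurable uG ∧
      ContDiffAt ℝ ω F 0 ∧ ContDiffAt ℝ ω G 0 ∧ F 0 = e ∧ G 0 = -e ∧
      Function.Injective (fderiv ℝ F 0) ∧ Function.Injective (fderiv ℝ G 0) ∧
      ContinuousAt uF 0 ∧ ContinuousAt uG 0 ∧ uF 0 = (4 : ℝ) ^ (-s / 2) / 2 ∧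
      uG 0 = (4 : ℝ) ^ (-s / 2) / 2 ∧ ∀ᶠ q : E × E × E in 𝓝 (0, 0, 0),
        (2 - l / 2 * ‖q.1‖ ^ 2) + uF q.2.1 + uG q.2.2 +
          (‖q.1 - q.2.1‖ ^ 2 + ‖G q.2.2 - G q.2.1‖ ^ 2) ≤ cR s (q.1, F q.2.1, G q.2.2) ∧
        cR s (q.1, F q.2.1, G q.2.2) ≤ (2 - l / 2 * ‖q.1‖ ^ 2) + uF q.2.1 + uG q.2.2 +
          C * (‖q.1 - q.2.1‖ ^ 2 + ‖G q.2.2 - G q.2.1‖ ^ 2) := by
  classical
  have he0 : e ≠ 0 := by rintro rfl; simp at he
  let p : E × E × E := (0, e, -e)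
  have n1 : p.1 - p.2.1 ≠ 0 := by simpa [p] using he0
  have n2 : p.1 - p.2.2 ≠ 0 := by simpa [p] using he0
  have hn3 : ‖p.2.1 - p.2.2‖ = 2 := by
    simp only [p, sub_neg_eq_add]
    rw [← two_smul ℝ e, norm_smul, he]; simp
  have n3 : p.2.1 - p.2.2 ≠ 0 := by intro h; rw [h] at hn3; simp at hn3
  have d1 : ContDiffAt ℝ ω (fun q : E × E × E => q.1 - q.2.1) p := by fun_prop
  have d2 : ContDiffAt ℝ ω (fun q : E × E × E => q.1 - q.2.2) p := by fun_prop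
  have d3 : ContDiffAt ℝ ω (fun q : E × E × E => q.2.1 - q.2.2) p := by fun_prop
  have hcR : ContDiffAt ℝ ω (cR s) p :=
    (((contDiffAt_hh s n1).comp p d1).add ((contDiffAt_hh s n2).comp p d2)).add
      ((contDiffAt_hh s n3).comp p d3)
  obtain ⟨K, hK0, hK⟩ := taylor_bound _ p hcR
  obtain ⟨Λ, hΛ⟩ := lin_aux (fderiv ℝ (gg s) (p.1 - p.2.1)) (fderiv ℝ (gg s) (p.1 - p.2.2))
    (fderiv ℝ (gg s) (p.2.1 - p.2.2)) (inj_gg hs n1) (inj_gg hs n3)
  refine ⟨max Λ (2 * K + 2), fun l hl => ?_⟩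
  have hl1 : l ≥ Λ := le_trans (le_max_left _ _) hl
  have hl2 : 2 * K + 2 ≤ l := le_trans (le_max_right _ _) hl
  let Θ : E × E × E → E × E := fun q =>
    (gg s (q.1 - q.2.1) + gg s (q.1 - q.2.2) + l • q.1,
      -gg s (q.1 - q.2.2) - gg s (q.2.1 - q.2.2) + l • q.2.2)
  have hΘ : ContDiffAt ℝ ω Θ p :=
    ((((contDiffAt_gg s n1).comp p d1).add ((contDiffAt_gg s n2).comp p d2)).add
      (by fun_prop)).prodMk ((((contDiffAt_gg s n2).comp p d2).neg.sub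
        ((contDiffAt_gg s n3).comp p d3)).add (by fun_prop))
  have hker : ∀ ξ η ζ : E, fderiv ℝ Θ p (ξ, η, ζ) = 0 → (ξ = 0 ∨ η = 0 ∨ ζ = 0) →
      ξ = 0 ∧ η = 0 ∧ ζ = 0 := by
    have a1 := ((contDiffAt_gg s n1).differentiableAt (by simp)).hasFDerivAt.comp p
      (hasFDerivAt_fst.sub hasFDerivAt_snd.fst)
    have a2 := ((contDiffAt_gg s n2).differentiableAt (by simp)).hasFDerivAt.comp p
      (hasFDerivAt_fst.sub hasFDerivAt_snd.snd)
    have a3 := ((contDiffAt_gg s n3).differentiableAt (by simp)).hasFDerivAt.comp p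
      (hasFDerivAt_snd.fst.sub hasFDerivAt_snd.snd)
    have h : HasFDerivAt Θ _ p := ((a1.add a2).add (hasFDerivAt_fst.const_smul l)).prodMk
      ((a2.neg.sub a3).add (hasFDerivAt_snd.snd.const_smul l))
    intro ξ η ζ h0
    rw [h.fderiv] at h0
    exact hΛ l hl1 ξ η ζ (congrArg Prod.fst h0) (congrArg Prod.snd h0)
  have hinv : (fderiv ℝ Θ p ∘L .inr ℝ E (E × E)).IsInvertible := by
    have : Function.Injective (fderiv ℝ Θ p ∘L .inr ℝ E (E × E)) := by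
      rw [injective_iff_map_eq_zero]
      rintro ⟨η, ζ⟩ h
      obtain ⟨-, h1, h2⟩ := hker 0 η ζ h (Or.inl rfl)
      rw [h1, h2]; rfl
    exact ⟨(LinearEquiv.ofInjectiveEndo (fderiv ℝ Θ p ∘L .inr ℝ E (E × E) : E × E →ₗ[ℝ] E × E)
      this).toContinuousLinearEquiv, rfl⟩
  let ψ0 := hΘ.implicitFunction (by simp) hinv
  have hψ0 : ContDiffAt ℝ ω ψ0 0 := hΘ.contDiffAt_implicitFunction (by simp) hinv
  obtain ⟨R, hR, hball⟩ := Metric.eventually_nhds_iff_ball.mp (hψ0.eventually (by simp))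
  let ψ : E → E × E := (ball (0 : E) R).piecewise ψ0 0
  have hψm : Measurable ψ := ContinuousOn.measurable_piecewise
    (fun x hx => (hball x hx).continuousAt.continuousWithinAt) continuousOn_const measurableSet_ball
  have hψe : ψ =ᶠ[𝓝 0] ψ0 := by
    filter_upwards [ball_mem_nhds 0 hR] with x hx using piecewise_eq_of_mem _ _ _ hx
  have hψ : ContDiffAt ℝ ω ψ 0 := hψ0.congr_of_eventuallyEq hψe
  have hψp : ψ 0 = (e, -e) := by
    rw [hψe.eq_of_nhds]; exact hΘ.implicitFunction_apply_self (by simp) hinv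
  have hψΘ : ∀ᶠ x in 𝓝 (0 : E), Θ (x, ψ x) = Θ p := by
    filter_upwards [hψe, hΘ.eventually_apply_implicitFunction (by simp) hinv] with x h1 h2
    rw [h1]; exact h2
  have hF : ContDiffAt ℝ ω (fun x => (ψ x).1) 0 := hψ.fst
  have hG : ContDiffAt ℝ ω (fun x => (ψ x).2) 0 := hψ.snd
  have hD : ∀ ξ, fderiv ℝ Θ p (ξ, fderiv ℝ (fun x => (ψ x).1) 0 ξ,
      fderiv ℝ (fun x => (ψ x).2) 0 ξ) = 0 := by
    intro ξ
    have a1 : HasFDerivAt Θ (fderiv ℝ Θ p) (0, (ψ 0).1, (ψ 0).2) := by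
      rw [hψp]; exact (hΘ.differentiableAt (by simp)).hasFDerivAt
    have a2 := a1.comp (f := fun x => (x, (ψ x).1, (ψ x).2)) (0 : E) ((hasFDerivAt_id 0).prodMk
      ((hF.differentiableAt (by simp)).hasFDerivAt.prodMk
        (hG.differentiableAt (by simp)).hasFDerivAt))
    have a3 := a2.unique ((hasFDerivAt_const (Θ p) (0 : E)).congr_of_eventuallyEq hψΘ)
    exact congrArg (fun L : E →L[ℝ] E × E => L ξ) a3
  set ℓ : E := (Θ p).2 with hℓ
  have hΘ1 : (Θ p).1 = 0 := by simp [Θ, p, gg_neg]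
  let uG : E → ℝ := fun x => (4 : ℝ) ^ (-s / 2) / 2 + ⟪ℓ, (ψ x).2 + e⟫ - l / 2 * (‖(ψ x).2‖ ^ 2 - 1)
  let uF : E → ℝ := fun x => cR s (x, ψ x) - (2 - l / 2 * ‖x‖ ^ 2) - uG x
  have huGm : Measurable uG := by
    have := hψm.snd
    fun_prop
  have hcRm : Measurable (cR s : E × E × E → ℝ) := by
    have := measurable_hh (E := E) s
    unfold cR
    fun_prop
  have huGc : ContinuousAt uG 0 := by
    have := hG.continuousAt
    fun_prop
  have huG0 : uG 0 = (4 : ℝ) ^ (-s / 2) / 2 := by simp [uG, hψp, he]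
  have hpc : ContinuousAt (fun x => (x, ψ x)) 0 := continuousAt_id.prodMk hψ.continuousAt
  have hp0 : ((0 : E), ψ 0) = p := by rw [hψp]
  refine ⟨fun x => (ψ x).1, fun x => (ψ x).2, uF, uG, l / 2 + K, by linarith, hψm.fst, hψm.snd,
    ((hcRm.comp (measurable_id.prodMk hψm)).sub (by fun_prop)).sub huGm, huGm, hF, hG,
    congrArg Prod.fst hψp, congrArg Prod.snd hψp, ?_, ?_, ?_, huGc, ?_, huG0, ?_⟩
  · rw [injective_iff_map_eq_zero]
    exact fun ξ h => (hker _ _ _ (hD ξ) (Or.inr (Or.inl h))).1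
  · rw [injective_iff_map_eq_zero]
    exact fun ξ h => (hker _ _ _ (hD ξ) (Or.inr (Or.inr h))).1
  · exact ((ContinuousAt.comp (g := cR s) (hp0 ▸ hcR.continuousAt) hpc).sub (by fun_prop)).sub huGc
  · simp only [uF, huG0]
    rw [hp0]
    simp only [cR, hh, hn3]
    simp [p, he]
    norm_num
    ring
  · have t1 : Tendsto (fun q : E × E × E => q.2.1) (𝓝 (0, 0, 0)) (𝓝 0) :=
      continuous_snd.fst.tendsto _
    have t2 : Tendsto (fun q : E × E × E => ((q.2.1, ψ q.2.1), (q.1, (ψ q.2.1).1, (ψ q.2.2).2)))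
        (𝓝 (0, 0, 0)) (𝓝 (p, p)) := by
      refine Tendsto.prodMk_nhds (hp0 ▸ hpc.tendsto.comp t1) (Tendsto.prodMk_nhds
        (continuous_fst.tendsto _) (Tendsto.prodMk_nhds ?_ ?_))
      · simpa [hψp, Function.comp_def] using hF.continuousAt.tendsto.comp t1
      · simpa [hψp, Function.comp_def] using hG.continuousAt.tendsto.comp
          (continuous_snd.snd.tendsto ((0, 0, 0) : E × E × E))
    have t3 : Tendsto (fun q : E × E × E => (q.2.1, ψ q.2.1)) (𝓝 (0, 0, 0)) (𝓝 p) :=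
      hp0 ▸ hpc.tendsto.comp t1
    filter_upwards [t2.eventually hK, t1.eventually hψΘ,
      t3.eventually (d1.continuousAt.eventually_ne n1),
      t3.eventually (d2.continuousAt.eventually_ne n2),
      t3.eventually (d3.continuousAt.eventually_ne n3)] with ⟨x, x', x''⟩ k1 k2 k3 k4 k5
    simp only at k1 k2 k3 k4 k5 ⊢
    set y := (ψ x').1
    set z := (ψ x').2
    set z' := (ψ x'').2
    have e0 : ψ x' = (y, z) := rfl
    rw [e0] at k1 k2
    have e1 : ((x, y, z') : E × E × E) - (x', y, z) = (x - x', 0, z' - z) := by simp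
    rw [e1, fderiv_cR s _ k3 k4 k5] at k1
    have e2 : gg s (x' - y) + gg s (x' - z) = -(l • x') := by
      have := congrArg Prod.fst k2
      rw [hΘ1] at this
      exact eq_neg_of_add_eq_zero_left this
    have e3 : -gg s (x' - z) - gg s (y - z) = ℓ - l • z := by
      have := congrArg Prod.snd k2
      rw [← hℓ] at this
      exact eq_sub_of_add_eq this
    simp only at k1
    rw [e2, e3] at k1
    have e4 : ‖((x - x', 0, z' - z) : E × E × E)‖ ^ 2 ≤ ‖x - x'‖ ^ 2 + ‖z' - z‖ ^ 2 := by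
      simp only [Prod.norm_mk, norm_zero, norm_nonneg, max_eq_right]
      rcases max_cases ‖x - x'‖ ‖z' - z‖ with h | h <;> rw [h.1] <;> nlinarith [sq_nonneg ‖x - x'‖,
        sq_nonneg ‖z' - z‖]
    have k6 := abs_le.mp (k1.trans (mul_le_mul_of_nonneg_left e4 hK0))
    have e5 : cR s (x, y, z') - ((2 - l / 2 * ‖x‖ ^ 2) + uF x' + uG x'') =
        (cR s (x, y, z') - cR s (x', y, z) - (⟪-(l • x'), x - x'⟫ + ⟪ℓ - l • z, z' - z⟫)) +
          l / 2 * (‖x - x'‖ ^ 2 + ‖z' - z‖ ^ 2) := by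
      simp only [uF, uG, e0, norm_sub_sq_real, inner_neg_left, inner_sub_left, inner_sub_right,
        inner_add_right, inner_smul_left, real_inner_self_eq_norm_sq, real_inner_comm x x',
        real_inner_comm z' z, conj_trivial]
      ring
    have e6 : 0 ≤ ‖x - x'‖ ^ 2 + ‖z' - z‖ ^ 2 := by positivity
    constructor <;> nlinarith [k6.1, k6.2]

end Crest.Agent.H4OT
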