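import Mathlib

/-! Abstract part of the variance bound for the random SAT hitting time. -/

set_option autoImplicit false

namespace Crest.Agent.H4.Sat
open Finset

variable {ι κ X : Type*}

noncomputable def avg (S : Finset ι) (f : ι → ℝ) : ℝ := (∑ c ∈ S, f c) / S.card

lemma avg_mono {S : Finset ι} {f g : ι → ℝ} (h : ∀ c ∈ S, f c ≤ g c) : avg S f ≤ avg S g := by
  unfold avg
  exact div_le_div_of_nonneg_right (sum_le_sum h) (Nat.cast_nonneg _)

lemma avg_add (S : Finset ι) (f g : ι → ℝ) :
    avg S (fun c => f c + g c) = avg S f + avg S g := by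
  unfold avg; rw [sum_add_distrib, add_div]

lemma avg_mul (S : Finset ι) (a : ℝ) (f : ι → ℝ) : avg S (fun c => a * f c) = a * avg S f := by
  unfold avg; rw [← mul_sum, mul_div_assoc]

lemma avg_const {S : Finset ι} (hS : S.Nonempty) (a : ℝ) : avg S (fun _ => a) = a := by
  unfold avg
  have : (S.card : ℝ) ≠ 0 := by exact_mod_cast hS.card_pos.ne'
  rw [sum_const, nsmul_eq_mul]; field_simp

lemma avg_le {S : Finset ι} (hS : S.Nonempty) {f : ι → ℝ} {a : ℝ} (h : ∀ c ∈ S, f c ≤ a) :
    avg S f ≤ a := (avg_mono h).trans (avg_const hS a).le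

lemma avg_comm (S : Finset ι) (T : Finset κ) (f : ι → κ → ℝ) :
    avg S (fun c => avg T (fun d => f c d)) = avg T (fun d => avg S (fun c => f c d)) := by
  unfold avg
  simp only [← sum_div]
  rw [sum_comm, div_div, div_div, mul_comm]

lemma avg_sum (S : Finset ι) (T : Finset κ) (f : ι → κ → ℝ) :
    avg S (fun c => ∑ d ∈ T, f c d) = ∑ d ∈ T, avg S (fun c => f c d) := by
  unfold avg
  rw [sum_comm, sum_div]

lemma avg_var {S : Finset ι} (hS : S.Nonempty) (f : ι → ℝ) (a : ℝ) :
    avg S (fun c => f c ^ 2) - (avg S f) ^ 2 ≤ avg S (fun c => (f c - a) ^ 2) := by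
  have h : avg S (fun c => (f c - a) ^ 2) = avg S (fun c => f c ^ 2) + ((-2 * a) * avg S f + a ^ 2) := by
    rw [← avg_mul, ← avg_const hS (a ^ 2), ← avg_add, ← avg_add]
    congr 1; funext c; ring
  rw [h]; nlinarith [sq_nonneg (avg S f - a)]

lemma avg_sq {S : Finset ι} (hS : S.Nonempty) (f : ι → ℝ) :
    (avg S f) ^ 2 ≤ avg S (fun c => f c ^ 2) := by
  have h : avg S (fun c => (f c - avg S f) ^ 2)
      = avg S (fun c => f c ^ 2) + ((-2 * avg S f) * avg S f + avg S f ^ 2) := by
    rw [← avg_mul, ← avg_const hS (avg S f ^ 2), ← avg_add, ← avg_add]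
    congr 1; funext c; ring
  have h2 : (0:ℝ) ≤ avg S (fun c => (f c - avg S f) ^ 2) := by
    have := avg_mono (S := S) (f := fun _ => (0:ℝ)) (g := fun c => (f c - avg S f) ^ 2)
      (fun c _ => sq_nonneg _)
    rwa [avg_const hS] at this
  nlinarith

/-- expectation over lists of `M` independent uniform elements of `S`. -/
noncomputable def EM (S : Finset ι) : ℕ → (List ι → ℝ) → ℝ
  | 0, F => F []
  | M + 1, F => avg S (fun c => EM S M (fun ω => F (c :: ω)))

lemma EM_mono {S : Finset ι} : ∀ {M : ℕ} {F G : List ι → ℝ},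
    (∀ ω, ω.length = M → F ω ≤ G ω) → EM S M F ≤ EM S M G
  | 0, _, _, h => h [] rfl
  | M + 1, _, _, h => avg_mono fun c _ => EM_mono fun ω hω => h _ (by simp [hω])

lemma EM_add (S : Finset ι) : ∀ (M : ℕ) (F G : List ι → ℝ),
    EM S M (fun ω => F ω + G ω) = EM S M F + EM S M G
  | 0, _, _ => rfl
  | M + 1, F, G => by
    simp only [EM]; rw [← avg_add]; congr 1; funext c; exact EM_add S M _ _

lemma EM_mul (S : Finset ι) (a : ℝ) : ∀ (M : ℕ) (F : List ι → ℝ),
    EM S M (fun ω => a * F ω) = a * EM S M F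
  | 0, _ => rfl
  | M + 1, F => by
    simp only [EM]; rw [← avg_mul]; congr 1; funext c; exact EM_mul S a M _

lemma EM_const {S : Finset ι} (hS : S.Nonempty) (a : ℝ) : ∀ (M : ℕ), EM S M (fun _ => a) = a
  | 0 => rfl
  | M + 1 => by simp only [EM]; rw [EM_const hS a M, avg_const hS]

lemma EM_le {S : Finset ι} (hS : S.Nonempty) {M : ℕ} {F : List ι → ℝ} {a : ℝ}
    (h : ∀ ω, ω.length = M → F ω ≤ a) : EM S M F ≤ a :=
  (EM_mono h).trans (EM_const hS a M).le

lemma EM_avg (S : Finset ι) (T : Finset κ) : ∀ (M : ℕ) (F : κ → List ι → ℝ),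
    EM S M (fun ω => avg T (fun d => F d ω)) = avg T (fun d => EM S M (F d))
  | 0, _ => rfl
  | M + 1, F => by
    simp only [EM]; rw [← avg_comm]; congr 1; funext c; exact EM_avg S T M _

lemma EM_sum (S : Finset ι) (T : Finset κ) : ∀ (M : ℕ) (F : κ → List ι → ℝ),
    EM S M (fun ω => ∑ d ∈ T, F d ω) = ∑ d ∈ T, EM S M (F d)
  | 0, _ => rfl
  | M + 1, F => by
    simp only [EM]; rw [← avg_sum]; congr 1; funext c; exact EM_sum S T M _

lemma EM_comm (S : Finset ι) (T : Finset κ) (M : ℕ) : ∀ (N : ℕ) (F : List ι → List κ → ℝ),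
    EM S M (fun ω => EM T N (F ω)) = EM T N (fun ν => EM S M (fun ω => F ω ν))
  | 0, _ => rfl
  | N + 1, F => by
    simp only [EM]; rw [EM_avg]; congr 1; funext c; exact EM_comm S T M N _

lemma EM_sq {S : Finset ι} (hS : S.Nonempty) : ∀ (M : ℕ) (F : List ι → ℝ),
    (EM S M F) ^ 2 ≤ EM S M (fun ω => F ω ^ 2)
  | 0, _ => le_rfl
  | M + 1, F => by
    simp only [EM]
    exact (avg_sq hS _).trans (avg_mono fun c _ => EM_sq hS M _)

lemma avg_union [DecidableEq ι] {S T : Finset ι} (hd : Disjoint S T) (hS : S.Nonempty)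
    (hT : T.Nonempty) (f : ι → ℝ) :
    avg (S ∪ T) f = (1 - (T.card : ℝ) / (S ∪ T).card) * avg S f
      + (T.card : ℝ) / (S ∪ T).card * avg T f := by
  unfold avg
  have h1 : (S.card : ℝ) ≠ 0 := by exact_mod_cast hS.card_pos.ne'
  have h2 : (T.card : ℝ) ≠ 0 := by exact_mod_cast hT.card_pos.ne'
  have h3 : (S.card : ℝ) + T.card ≠ 0 := by
    have := hS.card_pos; positivity
  rw [sum_union hd, card_union_of_disjoint hd]; push_cast
  field_simp; ring

/-- splitting a random list according to a predicate. -/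
lemma EM_split [DecidableEq ι] {S T : Finset ι} (P : ι → Bool) (hSP : ∀ c ∈ S, P c = true)
    (hTP : ∀ c ∈ T, P c = false) (hS : S.Nonempty) (hT : T.Nonempty) {x : ℝ} (hx : 0 ≤ x) :
    ∀ (M : ℕ) (Φ : List ι → List ι → ℝ) (Γ : ℝ),
    (∀ a N, a + N = M → EM S a (fun xs => EM T N (Φ xs)) ≤ Γ * x ^ N) →
    EM (S ∪ T) M (fun ω => Φ (ω.filter P) (ω.filter (fun c => !P c)))
      ≤ Γ * (1 - (T.card : ℝ) / (S ∪ T).card + (T.card : ℝ) / (S ∪ T).card * x) ^ M
  | 0, Φ, Γ, h => by simpa [EM] using h 0 0 rfl
  | M + 1, Φ, Γ, h => by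
    have hd : Disjoint S T := by
      rw [disjoint_left]; intro c h1 h2; have := hSP c h1; rw [hTP c h2] at this; exact absurd this (by simp)
    set p : ℝ := (T.card : ℝ) / (S ∪ T).card with hp
    have hp0 : 0 ≤ p := by positivity
    have hp1 : p ≤ 1 := by
      rw [hp]; apply div_le_one_of_le₀ _ (Nat.cast_nonneg _)
      exact_mod_cast card_le_card subset_union_right
    have e1 : avg S (fun c => EM (S ∪ T) M
        (fun ω => Φ ((c :: ω).filter P) ((c :: ω).filter (fun c => !P c))))
        ≤ Γ * (1 - p + p * x) ^ M := by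
      have := EM_split P hSP hTP hS hT hx M (fun xs ys => avg S (fun c => Φ (c :: xs) ys)) Γ (by
        intro a N haN
        have := h (a + 1) N (by omega)
        simp only [EM] at this
        refine le_trans (le_of_eq ?_) this
        rw [← EM_avg]; congr 1; funext xs; rw [EM_avg])
      rw [EM_avg] at this
      refine le_trans (le_of_eq ?_) this
      unfold avg; congr 1; apply sum_congr rfl; intro c hc
      simp [List.filter_cons, hSP c hc]
    have e2 : avg T (fun c => EM (S ∪ T) M
        (fun ω => Φ ((c :: ω).filter P) ((c :: ω).filter (fun c => !P c))))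
        ≤ (Γ * x) * (1 - p + p * x) ^ M := by
      have := EM_split P hSP hTP hS hT hx M (fun xs ys => avg T (fun c => Φ xs (c :: ys))) (Γ * x) (by
        intro a N haN
        have := h a (N + 1) (by omega)
        simp only [EM] at this
        refine le_trans (le_of_eq ?_) (this.trans (le_of_eq (by ring)))
        congr 1; funext xs; rw [EM_avg])
      rw [EM_avg] at this
      refine le_trans (le_of_eq ?_) this
      unfold avg; congr 1; apply sum_congr rfl; intro c hc
      simp [List.filter_cons, hTP c hc]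
    simp only [EM]
    rw [avg_union hd hS hT, ← hp]
    have := mul_le_mul_of_nonneg_left e1 (sub_nonneg.2 hp1)
    have := mul_le_mul_of_nonneg_left e2 hp0
    calc _ ≤ (1 - p) * (Γ * (1 - p + p * x) ^ M) + p * ((Γ * x) * (1 - p + p * x) ^ M) := by
          linarith
      _ = _ := by ring

open Classical in
noncomputable def ne (A : Set X) : ℝ := if A.Nonempty then 1 else 0

lemma ne_pos {A : Set X} (h : A.Nonempty) : ne A = 1 := by simp [ne, h]
lemma ne_neg {A : Set X} (h : ¬ A.Nonempty) : ne A = 0 := by simp [ne, h]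
lemma ne_empty : ne (∅ : Set X) = 0 := ne_neg (by simp)
lemma ne_nonneg (A : Set X) : 0 ≤ ne A := by unfold ne; split_ifs <;> norm_num
lemma ne_le_one (A : Set X) : ne A ≤ 1 := by unfold ne; split_ifs <;> norm_num
lemma ne_mono {A B : Set X} (h : A ⊆ B) : ne A ≤ ne B := by
  by_cases hA : A.Nonempty
  · rw [ne_pos hA, ne_pos (hA.mono h)]
  · rw [ne_neg hA]; exact ne_nonneg _

/-- number of times (among `0, …, length`) at which the constraints are still satisfiable. -/
noncomputable def tau (con : ι → Set X) : Set X → List ι → ℝ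
  | A, [] => ne A
  | A, c :: ω => ne A + tau con (A ∩ con c) ω

variable (con : ι → Set X)

lemma tau_empty : ∀ ω : List ι, tau con ∅ ω = 0
  | [] => ne_empty
  | c :: ω => by simp only [tau, ne_empty, Set.empty_inter, tau_empty ω, add_zero]

lemma tau_neg {A : Set X} (h : ¬ A.Nonempty) (ω : List ι) : tau con A ω = 0 := by
  rw [Set.not_nonempty_iff_eq_empty.1 h, tau_empty]

lemma tau_mono : ∀ (ω : List ι) {A B : Set X}, A ⊆ B → tau con A ω ≤ tau con B ω
  | [], _, _, h => ne_mono h
  | c :: ω, _, _, h => add_le_add (ne_mono h) (tau_mono ω (Set.inter_subset_inter_left _ h))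

lemma tau_nonneg (ω : List ι) (A : Set X) : 0 ≤ tau con A ω :=
  (tau_empty con ω).ge.trans (tau_mono con ω (Set.empty_subset _))

lemma tau_le : ∀ (ω : List ι) (A : Set X), tau con A ω ≤ ω.length + 1
  | [], A => by simpa [tau] using ne_le_one A
  | c :: ω, A => by
    have := tau_le ω (A ∩ con c); have := ne_le_one A
    simp only [tau, List.length_cons]; push_cast; linarith

lemma one_le_tau {A : Set X} (h : A.Nonempty) : ∀ ω : List ι, 1 ≤ tau con A ω
  | [] => (ne_pos h).ge
  | c :: ω => by
    have := tau_nonneg con ω (A ∩ con c)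
    simp only [tau, ne_pos h]; linarith

/-- lag-weighted sum of `g` along the trajectory. -/
noncomputable def R (g : Set X → ℝ) : Set X → List ι → ℝ
  | A, [] => ne A * g A
  | A, c :: ω => ne A * (2 * tau con A (c :: ω) - 1) * g A + R g (A ∩ con c) ω

lemma R_mono {g g' : Set X → ℝ} (h : ∀ B, B.Nonempty → g B ≤ g' B) :
    ∀ (ω : List ι) (A : Set X), R con g A ω ≤ R con g' A ω
  | [], A => by
    simp only [R]
    by_cases hA : A.Nonempty
    · rw [ne_pos hA]; simpa using h A hA
    · simp [ne_neg hA]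
  | c :: ω, A => by
    simp only [R]
    refine add_le_add ?_ (R_mono h ω _)
    by_cases hA : A.Nonempty
    · have := one_le_tau con hA (c :: ω)
      rw [ne_pos hA]
      exact mul_le_mul_of_nonneg_left (h A hA) (by linarith)
    · simp [ne_neg hA]

lemma R_add (g g' : Set X → ℝ) : ∀ (ω : List ι) (A : Set X),
    R con (fun B => g B + g' B) A ω = R con g A ω + R con g' A ω
  | [], A => by simp only [R]; ring
  | c :: ω, A => by simp only [R, R_add g g' ω]; ring

lemma R_mul (a : ℝ) (g : Set X → ℝ) : ∀ (ω : List ι) (A : Set X),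
    R con (fun B => a * g B) A ω = a * R con g A ω
  | [], A => by simp only [R]; ring
  | c :: ω, A => by simp only [R, R_mul a g ω]; ring

lemma R_sum (T : Finset κ) (g : κ → Set X → ℝ) : ∀ (ω : List ι) (A : Set X),
    R con (fun B => ∑ d ∈ T, g d B) A ω = ∑ d ∈ T, R con (g d) A ω
  | [], A => by simp only [R, mul_sum]
  | c :: ω, A => by simp only [R, R_sum T g ω, mul_sum, sum_add_distrib]

lemma R_avg (T : Finset κ) (g : κ → Set X → ℝ) (ω : List ι) (A : Set X) :
    R con (fun B => avg T (fun d => g d B)) A ω = avg T (fun d => R con (g d) A ω) := by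
  unfold avg
  rw [← R_sum, div_eq_inv_mul, ← R_mul]
  congr 1; funext B; rw [div_eq_inv_mul]

lemma R_kill (C : Set X) : ∀ (ω : List ι) (A : Set X),
    R con (fun B => 1 - ne (B ∩ C)) A ω = (tau con A ω - tau con (A ∩ C) ω) ^ 2
  | [], A => by
    simp only [R, tau]
    by_cases hA : A.Nonempty
    · rw [ne_pos hA]; unfold ne; split_ifs <;> norm_num
    · rw [ne_neg hA, ne_neg (fun h => hA (h.mono Set.inter_subset_left))]; norm_num
  | c :: ω, A => by
    simp only [R, R_kill C ω, tau]
    rw [Set.inter_right_comm A C]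
    by_cases hAC : (A ∩ C).Nonempty
    · rw [ne_pos hAC, ne_pos (hAC.mono Set.inter_subset_left)]; ring
    · have : ¬ (A ∩ con c ∩ C).Nonempty := fun h => hAC (h.mono (by
        intro x hx; exact ⟨hx.1.1, hx.2⟩))
      rw [ne_neg hAC, tau_neg con this]
      by_cases hA : A.Nonempty
      · rw [ne_pos hA]; ring
      · rw [ne_neg hA]; ring

lemma R_one (ω : List ι) (A : Set X) : R con (fun _ => 1) A ω = tau con A ω ^ 2 := by
  have := R_kill con ∅ ω A
  simpa [ne_empty, tau_empty] using this

lemma R_const_le (ω : List ι) (A : Set X) {a : ℝ} (ha : 0 ≤ a) :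
    R con (fun _ => a) A ω ≤ a * (ω.length + 1) ^ 2 := by
  have := R_mul con a (fun _ => 1) ω A
  simp only [mul_one] at this
  rw [this, R_one]
  exact mul_le_mul_of_nonneg_left
    (pow_le_pow_left₀ (tau_nonneg con ω A) (tau_le con ω A) 2) ha

/-- second moment of the delay caused by one more random constraint at time `0`. -/
noncomputable def Del (S : Finset ι) (M : ℕ) (A : Set X) : ℝ :=
  avg S (fun c => EM S M (fun ω => (tau con A ω - tau con (A ∩ con c) ω) ^ 2))

lemma Del_step {S : Finset ι} (M : ℕ) (A : Set X) :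
    avg S (fun c' => Del con S M (A ∩ con c')) ≤ Del con S (M + 1) A := by
  unfold Del
  rw [avg_comm]
  refine avg_mono fun c _ => ?_
  simp only [EM]
  refine avg_mono fun c' _ => EM_mono fun ω _ => ?_
  simp only [tau]
  rw [Set.inter_right_comm A (con c)]
  have h1 := tau_mono con ω (Set.inter_subset_left : A ∩ con c' ∩ con c ⊆ A ∩ con c')
  have h2 := ne_mono (Set.inter_subset_left : A ∩ con c ⊆ A)
  apply pow_le_pow_left₀ <;> linarith

/-- Efron–Stein. -/
lemma var_le {S : Finset ι} (hS : S.Nonempty) : ∀ (M : ℕ) (A : Set X),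
    EM S (M + 1) (fun ω => tau con A ω ^ 2) - (EM S (M + 1) (tau con A)) ^ 2
      ≤ (M + 1) * Del con S M A := by
  have key : ∀ (M : ℕ) (A : Set X) (b : Set X → ℝ),
      (∀ B, EM S M (fun ω => tau con B ω ^ 2) - (EM S M (tau con B)) ^ 2 ≤ b B) →
      EM S (M + 1) (fun ω => tau con A ω ^ 2) - (EM S (M + 1) (tau con A)) ^ 2
        ≤ avg S (fun c => b (A ∩ con c)) + Del con S M A := by
    intro M A b hb
    simp only [EM, tau]
    have e1 : ∀ c, EM S M (fun ω => ne A + tau con (A ∩ con c) ω)
        = ne A + EM S M (tau con (A ∩ con c)) := fun c => by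
      rw [EM_add, EM_const hS]
    have e2 : ∀ c, EM S M (fun ω => (ne A + tau con (A ∩ con c) ω) ^ 2)
        ≤ (ne A + EM S M (tau con (A ∩ con c))) ^ 2 + b (A ∩ con c) := fun c => by
      have : EM S M (fun ω => (ne A + tau con (A ∩ con c) ω) ^ 2)
          = ne A ^ 2 + ((2 * ne A) * EM S M (tau con (A ∩ con c))
            + EM S M (fun ω => tau con (A ∩ con c) ω ^ 2)) := by
        rw [← EM_mul, ← EM_add, ← EM_const hS (ne A ^ 2) M, ← EM_add]
        congr 1; funext ω; ring
      rw [this]; have := hb (A ∩ con c); nlinarith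
    simp only [e1]
    have h3 := avg_mono (S := S) (fun c _ => e2 c)
    rw [avg_add] at h3
    have h4 := avg_var hS (fun c => ne A + EM S M (tau con (A ∩ con c)))
      (ne A + EM S M (tau con A))
    have h5 : avg S (fun c => (ne A + EM S M (tau con (A ∩ con c))
        - (ne A + EM S M (tau con A))) ^ 2) ≤ Del con S M A := by
      refine avg_mono fun c _ => le_trans (le_of_eq ?_) (EM_sq hS M _)
      have : EM S M (fun ω => tau con A ω - tau con (A ∩ con c) ω)
          = EM S M (tau con A) + (-1) * EM S M (tau con (A ∩ con c)) := by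
        rw [← EM_mul, ← EM_add]; congr 1; funext ω; ring
      rw [this]; ring
    linarith
  intro M
  induction M with
  | zero =>
    intro A
    have := key 0 A (fun _ => 0) (fun B => by simp [EM])
    rw [avg_const hS] at this
    simpa using this
  | succ M ih =>
    intro A
    have := key (M + 1) A (fun B => (M + 1) * Del con S M B) ih
    rw [avg_mul] at this
    have h2 := mul_le_mul_of_nonneg_left (Del_step con (S := S) M A) (by positivity : (0:ℝ) ≤ M + 1)
    push_cast; linarith

/-- geometric bounds from a hazard lower bound. -/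
lemma geom {S : Finset ι} (hS : S.Nonempty) (bad : Set X → Prop)
    (hb : ∀ B B', B' ⊆ B → bad B → bad B') {h : ℝ} (h0 : 0 < h) (h1 : h ≤ 1)
    (hz : ∀ B, B.Nonempty → bad B → avg S (fun c => ne (B ∩ con c)) ≤ 1 - h) :
    ∀ (M : ℕ) (B : Set X), bad B → EM S M (tau con B) ≤ ne B * (1 / h) ∧
      EM S M (fun ω => tau con B ω ^ 2) ≤ ne B * (2 / h ^ 2) := by
  intro M
  have hh1 : 1 ≤ 1 / h := by rw [le_div_iff₀ h0]; linarith
  have hh2 : 1 ≤ 2 / h ^ 2 := by rw [le_div_iff₀ (by positivity)]; nlinarith
  induction M with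
  | zero =>
    intro B _
    simp only [EM, tau]
    unfold ne; split_ifs <;> simp only [one_mul, one_pow, zero_mul] <;> norm_num
    exact ⟨by simpa using hh1, hh2⟩
  | succ M ih =>
    intro B hB
    by_cases hne : B.Nonempty
    · simp only [EM, tau, ne_pos hne]
      have hz' := hz B hne hB
      have ih' := fun c => ih (B ∩ con c) (hb _ _ Set.inter_subset_left hB)
      constructor
      · calc _ ≤ avg S (fun c => 1 + (1 / h) * ne (B ∩ con c)) := by
              refine avg_mono fun c _ => ?_
              rw [EM_add, EM_const hS]; have := (ih' c).1; linarith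
          _ = 1 + (1 / h) * avg S (fun c => ne (B ∩ con c)) := by
              rw [avg_add, avg_const hS, avg_mul]
          _ ≤ 1 + (1 / h) * (1 - h) := by gcongr
          _ = _ := by field_simp; ring
      · calc _ ≤ avg S (fun c => 1 + (2 / h + 2 / h ^ 2) * ne (B ∩ con c)) := by
              refine avg_mono fun c _ => ?_
              have : EM S M (fun ω => (1 + tau con (B ∩ con c) ω) ^ 2)
                  = 1 + (2 * EM S M (tau con (B ∩ con c))
                    + EM S M (fun ω => tau con (B ∩ con c) ω ^ 2)) := by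
                rw [← EM_mul, ← EM_add, ← EM_const hS 1 M, ← EM_add]
                congr 1; funext ω; rw [EM_const hS]; ring
              rw [this]
              have a1 := (ih' c).1; have a2 := (ih' c).2
              have : (2 / h + 2 / h ^ 2) * ne (B ∩ con c)
                  = 2 * (ne (B ∩ con c) * (1 / h)) + ne (B ∩ con c) * (2 / h ^ 2) := by ring
              linarith
          _ = 1 + (2 / h + 2 / h ^ 2) * avg S (fun c => ne (B ∩ con c)) := by
              rw [avg_add, avg_const hS, avg_mul]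
          _ ≤ 1 + (2 / h + 2 / h ^ 2) * (1 - h) := by gcongr
          _ = 2 / h ^ 2 - 1 := by field_simp; ring
          _ ≤ _ := by linarith
    · rw [ne_neg hne]
      constructor
      · exact EM_le hS fun ω _ => by rw [tau_neg con hne]; simp
      · exact EM_le hS fun ω _ => by rw [tau_neg con hne]; simp

open Classical in
lemma geom_R {S : Finset ι} (hS : S.Nonempty) (bad : Set X → Prop)
    (hb : ∀ B B', B' ⊆ B → bad B → bad B') {h : ℝ} (h0 : 0 < h) (h1 : h ≤ 1)
    (hz : ∀ B, B.Nonempty → bad B → avg S (fun c => ne (B ∩ con c)) ≤ 1 - h) :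
    ∀ (M : ℕ) (A : Set X), EM S M (R con (fun B => if bad B then 1 else 0) A) ≤ 2 / h ^ 2 := by
  have hbad : ∀ (M : ℕ) (A : Set X), bad A →
      EM S M (R con (fun B => if bad B then 1 else 0) A) ≤ 2 / h ^ 2 := by
    intro M A hA
    have h2 := (geom con hS bad hb h0 h1 hz M A hA).2
    have h3 : ne A * (2 / h ^ 2) ≤ 2 / h ^ 2 :=
      mul_le_of_le_one_left (by positivity) (ne_le_one A)
    refine le_trans (EM_mono fun ω _ => ?_) (h2.trans h3)
    rw [← R_one]
    exact R_mono con (fun B _ => by split_ifs <;> norm_num) ω A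
  intro M
  induction M with
  | zero =>
    intro A
    by_cases hA : bad A
    · exact hbad 0 A hA
    · simp only [EM, R, if_neg hA, mul_zero]; positivity
  | succ M ih =>
    intro A
    by_cases hA : bad A
    · exact hbad _ A hA
    · simp only [EM, R, if_neg hA, mul_zero, zero_add]
      exact avg_le hS fun c _ => ih _

/-- survival indicator -/
noncomputable def surv : Set X → List ι → ℝ
  | A, [] => ne A
  | A, c :: ω => surv (A ∩ con c) ω

lemma surv_eq : ∀ (ω : List ι) (A : Set X), surv con A ω = ne (A ∩ {x | ∀ c ∈ ω, x ∈ con c})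
  | [], A => by simp [surv]
  | c :: ω, A => by
    rw [surv, surv_eq ω]; congr 1; ext x; simp [and_assoc]

lemma EM_tau {S : Finset ι} (hS : S.Nonempty) : ∀ (M : ℕ) (A : Set X),
    EM S M (tau con A) = ∑ m ∈ range (M + 1), EM S m (surv con A)
  | 0, A => by simp [EM, tau, surv]
  | M + 1, A => by
    rw [sum_range_succ']
    simp only [EM, tau, surv]
    rw [← avg_sum, ← avg_const hS (ne A), ← avg_add]
    congr 1; funext c
    rw [avg_const hS, EM_add, EM_const hS, EM_tau hS M, add_comm]

lemma EM_tau_sq {S : Finset ι} (hS : S.Nonempty) : ∀ (M : ℕ) (A : Set X),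
    EM S M (fun ω => tau con A ω ^ 2)
      = ∑ m ∈ range (M + 1), (2 * (m : ℝ) + 1) * EM S m (surv con A)
  | 0, A => by
    simp only [EM, tau, surv, zero_add, range_one, sum_singleton]
    unfold ne; split_ifs <;> norm_num
  | M + 1, A => by
    rw [sum_range_succ']
    simp only [EM, tau, surv]
    simp only [← avg_mul]
    rw [← avg_sum, ← avg_const hS ((2 * ((0:ℕ):ℝ) + 1) * ne A), ← avg_add]
    congr 1; funext c
    have : EM S M (fun ω => (ne A + tau con (A ∩ con c) ω) ^ 2)
        = ne A + (2 * EM S M (tau con (A ∩ con c))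
          + EM S M (fun ω => tau con (A ∩ con c) ω ^ 2)) := by
      rw [← EM_mul, ← EM_add, ← EM_const hS (ne A) M, ← EM_add]
      congr 1; funext ω; rw [EM_const hS]
      by_cases hA : A.Nonempty
      · rw [ne_pos hA]; ring
      · rw [ne_neg hA, tau_neg con (fun h => hA (h.mono Set.inter_subset_left))]; ring
    rw [this, EM_tau con hS, EM_tau_sq hS M, mul_sum, ← sum_add_distrib, add_comm]
    congr 1
    · apply sum_congr rfl; intro m _; push_cast; ring
    · simp

lemma EM_univ [Fintype ι] [DecidableEq ι] : ∀ (m : ℕ) (F : List ι → ℝ),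
    EM univ m F = (∑ f : Fin m → ι, F (List.ofFn f)) / Fintype.card (Fin m → ι)
  | 0, F => by simp [EM]
  | m + 1, F => by
    simp only [EM, avg, EM_univ m]
    rw [← sum_div, div_div, ← Fintype.sum_prod_type', ← (Fin.consEquiv (fun _ => ι)).sum_comp]
    congr 1
    · apply sum_congr rfl; intro p _; simp [Fin.consEquiv, List.ofFn_succ]
    · simp [pow_succ]

end Crest.Agent.H4.Sat
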