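import Mathlib
import Crest.Prelude.Def_RandomSAT
import Crest.Agent.H4.Sat1

/-! Counting and the variable-deletion step for the random SAT hitting time. -/

set_option autoImplicit false

namespace Crest.Agent.H4.Sat
open Finset Crest.ProbabilityR.RandomSAT

variable {k n : ℕ}

def con (c : Clause k n) : Set (Fin n → Bool) := {σ | ClauseSat σ c}

def red (v : Fin n) (c : Clause k n) : Set (Fin n → Bool) :=
  {σ | ∃ i, c.1.1 i ≠ v ∧ σ (c.1.1 i) = c.2 i}

def VU (k : ℕ) (U : Finset (Fin n)) : Finset {v : Fin k → Fin n // Function.Injective v} :=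
  univ.filter (fun v => ∀ i, v.1 i ∈ U)

def CU (k : ℕ) (U : Finset (Fin n)) : Finset (Clause k n) := VU k U ×ˢ univ

lemma mem_CU {U : Finset (Fin n)} {c : Clause k n} : c ∈ CU k U ↔ ∀ i, c.1.1 i ∈ U := by
  simp [CU, VU]

lemma card_VU (U : Finset (Fin n)) : (VU k U).card = U.card.descFactorial k := by
  have : (VU k U).card = Fintype.card (Fin k ↪ U) := by
    rw [← Fintype.card_coe]
    refine Fintype.card_congr
      { toFun := fun v => ⟨fun i => ⟨v.1.1 i, (mem_filter.1 v.2).2 i⟩,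
          fun a b h => v.1.2 (congrArg Subtype.val h)⟩
        invFun := fun e => ⟨⟨fun i => (e i).1, fun a b h => e.injective (Subtype.ext h)⟩,
          by simp [VU]⟩
        left_inv := fun v => rfl
        right_inv := fun e => rfl }
  rw [this, Fintype.card_embedding_eq]; simp

lemma card_CU (U : Finset (Fin n)) : (CU k U).card = U.card.descFactorial k * 2 ^ k := by
  rw [CU, card_product, card_VU]; simp

lemma CU_nonempty {U : Finset (Fin n)} (h : k ≤ U.card) : (CU k U).Nonempty := by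
  rw [← card_pos, card_CU]
  exact Nat.mul_pos (Nat.descFactorial_pos.2 h) (by positivity)

/-- clauses inside `insert v U` which contain `v`. -/
def YU (k : ℕ) (U : Finset (Fin n)) (v : Fin n) : Finset (Clause k n) :=
  CU k (insert v U) \ CU k U

lemma CU_mono {U U' : Finset (Fin n)} (h : U ⊆ U') : CU k U ⊆ CU k U' :=
  fun _ hc => mem_CU.2 fun i => h (mem_CU.1 hc i)

lemma CU_union_YU (U : Finset (Fin n)) (v : Fin n) : CU k U ∪ YU k U v = CU k (insert v U) :=
  union_sdiff_of_subset (CU_mono (subset_insert _ _))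

lemma card_YU {j : ℕ} {U : Finset (Fin n)} {v : Fin n} (hv : v ∉ U) :
    (YU (j + 1) U v).card = (j + 1) * U.card.descFactorial j * 2 ^ (j + 1) := by
  rw [YU, card_sdiff_of_subset (CU_mono (subset_insert _ _)), card_CU, card_CU,
    card_insert_of_notMem hv, ← Nat.sub_mul, Nat.succ_descFactorial_succ, Nat.descFactorial_succ,
    ← Nat.sub_mul]
  by_cases h : j ≤ U.card
  · congr 2; omega
  · rw [Nat.descFactorial_eq_zero_iff_lt.2 (by omega)]; simp

open Classical in
/-- frozen variables -/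
noncomputable def Fr (B : Set (Fin n → Bool)) : Finset (Fin n) :=
  univ.filter (fun v => ∃ ε, ∀ σ ∈ B, σ v = ε)

lemma mem_Fr {B : Set (Fin n → Bool)} {v : Fin n} : v ∈ Fr B ↔ ∃ ε, ∀ σ ∈ B, σ v = ε := by
  simp [Fr]

lemma Fr_anti {B B' : Set (Fin n → Bool)} (h : B' ⊆ B) : Fr B ⊆ Fr B' := fun v hv => by
  obtain ⟨ε, hε⟩ := mem_Fr.1 hv
  exact mem_Fr.2 ⟨ε, fun σ hσ => hε σ (h hσ)⟩

lemma desc_ratio {b m : ℕ} (hb : b ≤ m) : ∀ j : ℕ,
    b.descFactorial (j + 2) * m ^ 2 ≤ m.descFactorial (j + 2) * b ^ 2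
  | 0 => by
    simp only [zero_add, Nat.descFactorial_succ, Nat.descFactorial_zero, Nat.sub_zero, mul_one]
    have : (b - 1) * m ≤ (m - 1) * b := by
      rw [Nat.sub_mul, Nat.sub_mul, one_mul, one_mul, mul_comm b m]; omega
    calc (b - 1) * b * m ^ 2 = ((b - 1) * m) * (b * m) := by ring
      _ ≤ ((m - 1) * b) * (b * m) := Nat.mul_le_mul_right _ this
      _ = _ := by ring
  | j + 1 => by
    rw [Nat.descFactorial_succ b (j + 2), Nat.descFactorial_succ m (j + 2), mul_assoc, mul_assoc]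
    exact Nat.mul_le_mul (by omega) (desc_ratio hb j)

lemma avg_le_card {ι : Type*} [DecidableEq ι] {S T : Finset ι} {f : ι → ℝ} (h1 : ∀ c ∈ S, f c ≤ 1)
    (h0 : ∀ c ∈ S, c ∉ T → f c ≤ 0) : avg S f ≤ (T.card : ℝ) / S.card := by
  unfold avg
  refine div_le_div_of_nonneg_right ?_ (Nat.cast_nonneg _)
  calc ∑ c ∈ S, f c ≤ ∑ c ∈ S, (if c ∈ T then (1:ℝ) else 0) := by
        refine sum_le_sum fun c hc => ?_
        split_ifs with h
        · exact h1 c hc
        · exact h0 c hc h
    _ = ((S ∩ T).card : ℝ) := by rw [sum_ite_mem]; simp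
    _ ≤ T.card := by exact_mod_cast card_le_card inter_subset_right

lemma ratio_le {b m j : ℕ} (hb : b ≤ m) (hj : j + 2 ≤ m) :
    (b.descFactorial (j + 2) : ℝ) / m.descFactorial (j + 2) ≤ ((b : ℝ) / m) ^ 2 := by
  have h1 : (0:ℝ) < m.descFactorial (j + 2) := by exact_mod_cast Nat.descFactorial_pos.2 hj
  have h2 : (0:ℝ) < m := by exact_mod_cast (by omega : 0 < m)
  rw [div_pow, div_le_div_iff₀ h1 (by positivity), mul_comm ((b:ℝ) ^ 2)]
  exact_mod_cast desc_ratio hb j

lemma kill_con {j : ℕ} {U : Finset (Fin n)} (hU : j + 2 ≤ U.card) (B : Set (Fin n → Bool)) :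
    avg (CU (j + 2) U) (fun c => 1 - ne (B ∩ con c)) ≤ (((Fr B ∩ U).card : ℝ) / U.card) ^ 2 := by
  refine le_trans (avg_le_card (T := CU (j + 2) (Fr B ∩ U)) (fun c _ => ?_) (fun c hc hT => ?_)) ?_
  · have := ne_nonneg (B ∩ con c); linarith
  · rw [ne_pos]; · simp
    by_contra hne
    refine hT (mem_CU.2 fun i => mem_inter.2 ⟨mem_Fr.2 ⟨!c.2 i, fun σ hσ => ?_⟩, mem_CU.1 hc i⟩)
    by_contra h2
    exact hne ⟨σ, hσ, i, by simpa using h2⟩
  · rw [card_CU, card_CU]; push_cast
    rw [mul_div_mul_right _ _ (by positivity)]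
    exact ratio_le (card_le_card inter_subset_right) hU

lemma kill_red {j : ℕ} {U : Finset (Fin n)} {v : Fin n} (hv : v ∉ U) (hU : j + 2 ≤ U.card)
    (B : Set (Fin n → Bool)) :
    avg (YU (j + 3) U v) (fun c => 1 - ne (B ∩ red v c))
      ≤ (((Fr B ∩ U).card : ℝ) / U.card) ^ 2 := by
  refine le_trans (avg_le_card (T := YU (j + 3) (Fr B ∩ U) v) (fun c _ => ?_)
    (fun c hc hT => ?_)) ?_
  · have := ne_nonneg (B ∩ red v c); linarith
  · rw [ne_pos]; · simp
    by_contra hne
    obtain ⟨hc1, hc2⟩ := mem_sdiff.1 hc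
    refine hT (mem_sdiff.2 ⟨mem_CU.2 fun i => ?_, fun h => hc2 (CU_mono inter_subset_right h)⟩)
    by_cases hi : c.1.1 i = v
    · simp [hi]
    · refine mem_insert_of_mem (mem_inter.2 ⟨mem_Fr.2 ⟨!c.2 i, fun σ hσ => ?_⟩, ?_⟩)
      · by_contra h2
        exact hne ⟨σ, hσ, i, hi, by simpa using h2⟩
      · simpa [hi] using mem_CU.1 hc1 i
  · rw [card_YU hv, card_YU (fun h => hv (mem_inter.1 h).2)]; push_cast
    rw [mul_div_mul_right _ _ (by positivity), mul_div_mul_left _ _ (by positivity)]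
    exact ratio_le (card_le_card inter_subset_right) hU

lemma hazard {U : Finset (Fin n)} (hU : k ≤ U.card) {B : Set (Fin n → Bool)} (hB : B.Nonempty) :
    avg (CU k U) (fun c => ne (B ∩ con c))
      ≤ 1 - ((Fr B ∩ U).card.descFactorial k : ℝ) / (U.card.descFactorial k * 2 ^ k) := by
  obtain ⟨σ0, hσ0⟩ := hB
  let φ : {v : Fin k → Fin n // Function.Injective v} → Clause k n :=
    fun v => (v, fun i => !σ0 (v.1 i))
  have hφ : Function.Injective φ := fun a b h => congrArg Prod.fst h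
  set K := (VU k (Fr B ∩ U)).image φ with hK
  have hKc : K.card = (Fr B ∩ U).card.descFactorial k := by
    rw [hK, card_image_of_injective _ hφ, card_VU]
  have hKs : K ⊆ CU k U := by
    intro c hc
    obtain ⟨v, hv, rfl⟩ := mem_image.1 hc
    exact mem_CU.2 fun i => (mem_inter.1 ((by simpa [VU] using hv : ∀ i, v.1 i ∈ Fr B ∩ U) i)).2
  refine le_trans (avg_le_card (T := CU k U \ K) (fun c _ => ne_le_one _) (fun c hc hT => ?_)) ?_
  · have hc : c ∈ K := by by_contra h; exact hT (mem_sdiff.2 ⟨hc, h⟩)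
    obtain ⟨v, hv, rfl⟩ := mem_image.1 hc
    rw [ne_neg]
    rintro ⟨σ, hσ, i, hi⟩
    obtain ⟨ε, hε⟩ := mem_Fr.1
      (mem_inter.1 ((by simpa [VU] using hv : ∀ i, v.1 i ∈ Fr B ∩ U) i)).1
    have h1 := hε σ hσ; have h2 := hε σ0 hσ0
    simp only [φ] at hi
    rw [h1, h2] at hi; simp at hi
  · have hpos : (0:ℝ) < (CU k U).card := by exact_mod_cast (CU_nonempty hU).card_pos
    rw [card_sdiff_of_subset hKs, Nat.cast_sub (card_le_card hKs), sub_div, div_self hpos.ne', hKc,
      card_CU]; push_cast; exact le_rfl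

/-- `A` depends only on the coordinates in `W`. -/
def Dep (A : Set (Fin n → Bool)) (W : Finset (Fin n)) : Prop :=
  ∀ σ σ', (∀ u ∈ W, σ u = σ' u) → σ ∈ A → σ' ∈ A

lemma Dep.inter_red {A : Set (Fin n → Bool)} {W : Finset (Fin n)} (h : Dep A W) (v : Fin n)
    (c : Clause k n) : Dep (A ∩ red v c) (W ∪ univ.image c.1.1) := by
  rintro σ σ' hσ ⟨h1, i, hi, h2⟩
  refine ⟨h σ σ' (fun u hu => hσ u (mem_union_left _ hu)) h1, i, hi, ?_⟩
  rw [← hσ _ (mem_union_right _ (mem_image_of_mem _ (mem_univ i))), h2]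

def Inv (v : Fin n) (A : Set (Fin n → Bool)) : Prop := ∀ σ ∈ A, ∀ ε, Function.update σ v ε ∈ A

lemma Dep.inv {A : Set (Fin n → Bool)} {W : Finset (Fin n)} (h : Dep A W) {v : Fin n}
    (hv : v ∉ W) : Inv v A := fun σ hσ ε =>
  h σ _ (fun u hu => by rw [Function.update_of_ne (fun e : u = v => hv (e ▸ hu))]) hσ

def avoid (v : Fin n) (c : Clause k n) : Bool := decide (∀ i, c.1.1 i ≠ v)

def redAll (v : Fin n) (A : Set (Fin n → Bool)) : List (Clause k n) → Set (Fin n → Bool)
  | [] => A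
  | c :: ys => redAll v (A ∩ red v c) ys

lemma redAll_eq (v : Fin n) : ∀ (ys : List (Clause k n)) (A : Set (Fin n → Bool)),
    redAll v A ys = A ∩ {σ | ∀ c ∈ ys, σ ∈ red v c}
  | [], A => by simp [redAll]
  | c :: ys, A => by rw [redAll, redAll_eq v ys]; ext x; simp [and_assoc]

lemma tau_filter_le (P : Clause k n → Bool) : ∀ (ω : List (Clause k n)) (A : Set (Fin n → Bool)),
    tau con A ω ≤ (ω.filter (fun c => !P c)).length + tau con A (ω.filter P)
  | [], A => by simp
  | c :: ω, A => by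
    have ih := tau_filter_le P ω (A ∩ con c)
    by_cases h : P c = true
    · simp only [List.filter_cons, h, tau]; simp only [Bool.not_true, Bool.false_eq_true, if_false, if_true, tau]; linarith
    · have h' : P c = false := by simpa using h
      have h1 := tau_mono con (ω.filter P) (Set.inter_subset_left : A ∩ con c ⊆ A)
      have h2 := ne_le_one A
      simp only [List.filter_cons, h', tau]
      simp only [Bool.not_false, Bool.false_eq_true, if_false, if_true, List.length_cons]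
      push_cast; linarith

lemma ne_inv {v : Fin n} {A : Set (Fin n → Bool)} (h : Inv v A) (ε : Bool) :
    ne A ≤ ne (A ∩ {σ | σ v = ε}) := by
  by_cases hA : A.Nonempty
  · obtain ⟨σ, hσ⟩ := hA
    rw [ne_pos (A := A ∩ {σ | σ v = ε}) ⟨_, h σ hσ ε, by simp⟩]; exact ne_le_one _
  · rw [ne_neg hA]; exact ne_nonneg _

lemma tau_del (v : Fin n) (ε : Bool) : ∀ (ω : List (Clause k n)) (A : Set (Fin n → Bool)),
    Inv v A → tau con (redAll v A (ω.filter (fun c => !avoid v c))) (ω.filter (avoid v))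
      ≤ tau con (A ∩ {σ | σ v = ε}) ω
  | [], A, h => by simpa [redAll, tau] using ne_inv h ε
  | c :: ω, A, h => by
    by_cases hc : avoid v c = true
    · have hc' : ∀ i, c.1.1 i ≠ v := by simpa [avoid] using hc
      have ih := tau_del v ε ω (A ∩ con c) (by
        rintro σ ⟨h1, i, hi⟩ ε'
        exact ⟨h σ h1 ε', i, by rw [Function.update_of_ne (hc' i)]; exact hi⟩)
      simp only [List.filter_cons, hc, Bool.not_true, Bool.false_eq_true, if_false, if_true, tau]
      refine add_le_add ((ne_mono ?_).trans (ne_inv h ε)) ?_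
      · rw [redAll_eq]; exact Set.inter_subset_left
      · rw [redAll_eq] at ih ⊢
        rw [Set.inter_right_comm A _ (con c), Set.inter_right_comm A _ (con c)]; exact ih
    · have hc' : avoid v c = false := by simpa using hc
      have ih := tau_del v ε ω (A ∩ red v c) (by
        rintro σ ⟨h1, i, hi, h2⟩ ε'
        exact ⟨h σ h1 ε', i, hi, by rw [Function.update_of_ne hi]; exact h2⟩)
      simp only [List.filter_cons, hc', Bool.not_false, Bool.false_eq_true, if_false, if_true, tau,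
        redAll]
      have h1 : tau con (A ∩ red v c ∩ {σ | σ v = ε}) ω
          ≤ tau con (A ∩ {σ | σ v = ε} ∩ con c) ω := by
        apply tau_mono
        rintro σ ⟨⟨h1, i, _, h2⟩, h3⟩
        exact ⟨⟨h1, h3⟩, i, h2⟩
      have := ne_nonneg (A ∩ {σ | σ v = ε})
      linarith

/-- second moment of the delay caused by `N` reduced clauses. -/
lemma theta {S Y : Finset (Clause k n)} (hS : S.Nonempty) (hY : Y.Nonempty) (v : Fin n) (a : ℕ)
    {Bc ρ : ℝ} (hB : 0 ≤ Bc) (hρ : 0 ≤ ρ)
    (H : ∀ (A : Set (Fin n → Bool)) (W : Finset (Fin n)), Dep A W →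
      avg Y (fun c => EM S a (fun xs => (tau con A xs - tau con (A ∩ red v c) xs) ^ 2))
        ≤ Bc * (1 + (W.card : ℝ) ^ 2) + ρ) :
    ∀ (N : ℕ) (A : Set (Fin n → Bool)) (W : Finset (Fin n)), Dep A W →
      EM Y N (fun ys => EM S a (fun xs => (tau con A xs - tau con (redAll v A ys) xs) ^ 2))
        ≤ (6 + 4 * (k:ℝ) ^ 2) ^ N * (Bc * (1 + (W.card : ℝ) ^ 2) + ρ)
  | 0, A, W, _ => by
    simp only [EM, redAll, sub_self, pow_zero, one_mul]
    rw [EM_const hS, zero_pow two_ne_zero]; positivity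
  | N + 1, A, W, hA => by
    simp only [EM, redAll]
    set Z := Bc * (1 + (W.card : ℝ) ^ 2) + ρ with hZ
    have hZ0 : 0 ≤ Z := by positivity
    have hx1 : (1:ℝ) ≤ (6 + 4 * (k:ℝ) ^ 2) ^ N := one_le_pow₀ (by nlinarith [sq_nonneg (k:ℝ)])
    calc _ ≤ avg Y (fun c => 2 * EM S a (fun xs => (tau con A xs - tau con (A ∩ red v c) xs) ^ 2)
              + 2 * ((6 + 4 * (k:ℝ) ^ 2) ^ N * ((2 + 2 * (k:ℝ) ^ 2) * Z))) := by
          refine avg_mono fun c _ => ?_
          have ih := theta hS hY v a hB hρ H N _ _ (hA.inter_red v c)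
          have hW : (((W ∪ univ.image c.1.1).card : ℕ) : ℝ) ≤ W.card + k := by
            have := (card_union_le W (univ.image c.1.1)).trans
              (Nat.add_le_add_left (card_image_le.trans (by simp : (univ : Finset (Fin k)).card ≤ k)) _)
            exact_mod_cast this
          have hW2 : Bc * (1 + (((W ∪ univ.image c.1.1).card : ℕ) : ℝ) ^ 2) + ρ
              ≤ (2 + 2 * (k:ℝ) ^ 2) * Z := by
            have h1 : (((W ∪ univ.image c.1.1).card : ℕ) : ℝ) ^ 2 ≤ ((W.card : ℝ) + k) ^ 2 :=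
              pow_le_pow_left₀ (Nat.cast_nonneg _) hW 2
            have h2 : 1 + (((W ∪ univ.image c.1.1).card : ℕ) : ℝ) ^ 2
                ≤ (2 + 2 * (k:ℝ) ^ 2) * (1 + (W.card : ℝ) ^ 2) := by
              nlinarith [sq_nonneg ((W.card : ℝ) - k), mul_nonneg (sq_nonneg (k:ℝ)) (sq_nonneg (W.card : ℝ))]
            have h3 := mul_le_mul_of_nonneg_left h2 hB
            have h4 : ρ ≤ (2 + 2 * (k:ℝ) ^ 2) * ρ := le_mul_of_one_le_left hρ (by nlinarith [sq_nonneg (k:ℝ)])
            rw [hZ]; nlinarith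
          have ih2 := ih.trans (mul_le_mul_of_nonneg_left hW2 (by positivity))
          calc _ ≤ EM Y N (fun ys => 2 * EM S a (fun xs => (tau con A xs - tau con (A ∩ red v c) xs) ^ 2)
                  + 2 * EM S a (fun xs => (tau con (A ∩ red v c) xs
                    - tau con (redAll v (A ∩ red v c) ys) xs) ^ 2)) := by
                refine EM_mono fun ys _ => ?_
                rw [← EM_mul, ← EM_mul, ← EM_add]
                refine EM_mono fun xs _ => ?_
                nlinarith [sq_nonneg (tau con A xs - 2 * tau con (A ∩ red v c) xs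
                  + tau con (redAll v (A ∩ red v c) ys) xs)]
            _ ≤ _ := by
                rw [EM_add, EM_const hY, EM_mul]; linarith
      _ ≤ 2 * Z + 2 * ((6 + 4 * (k:ℝ) ^ 2) ^ N * ((2 + 2 * (k:ℝ) ^ 2) * Z)) := by
          rw [avg_add, avg_mul, avg_const hY]
          have := H A W hA; linarith
      _ ≤ _ := by
          rw [pow_succ _ N]
          have := mul_le_mul_of_nonneg_right hx1 hZ0
          nlinarith

end Crest.Agent.H4.Sat
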