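import Mathlib
import Crest.Agent.H4.Sat2

/-! The main recursion for the delay second moment. -/

set_option autoImplicit false

namespace Crest.Agent.H4.Sat
open Finset Crest.ProbabilityR.RandomSAT

variable {n : ℕ}

noncomputable def Psi (k : ℕ) (U : Finset (Fin n)) (M : ℕ) (A : Set (Fin n → Bool)) : ℝ :=
  EM (CU k U) M (R con (fun B => (((Fr B ∩ U).card : ℝ) / U.card) ^ 2) A)

lemma hazard_bad {k : ℕ} {U : Finset (Fin n)} {η : ℝ} (hη : 0 < η) (hU : k ≤ U.card)
    (hU0 : 0 < U.card) (h2 : 2 * (k:ℝ) ≤ η * U.card) {B : Set (Fin n → Bool)} (hB : B.Nonempty)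
    (hb : η * U.card ≤ (Fr B ∩ U).card) :
    avg (CU k U) (fun c => ne (B ∩ con c)) ≤ 1 - (η / 4) ^ k := by
  refine (hazard hU hB).trans (sub_le_sub_left ?_ _)
  set b := (Fr B ∩ U).card
  set m := U.card
  have hm : (0:ℝ) < m := by exact_mod_cast hU0
  have hD : (0:ℝ) < m.descFactorial k := by exact_mod_cast Nat.descFactorial_pos.2 hU
  have h1 : (m.descFactorial k : ℝ) ≤ (m:ℝ) ^ k := by exact_mod_cast Nat.descFactorial_le_pow m k
  have hkb : k ≤ b + 1 := by
    have : (k:ℝ) ≤ b + 1 := by have : (0:ℝ) ≤ k := Nat.cast_nonneg _; linarith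
    exact_mod_cast this
  have h3 : (η * m / 2) ^ k ≤ (b.descFactorial k : ℝ) := by
    have h4 : ((b + 1 - k : ℕ) : ℝ) ^ k ≤ (b.descFactorial k : ℝ) := by
      exact_mod_cast Nat.pow_sub_le_descFactorial b k
    refine le_trans (pow_le_pow_left₀ (by positivity) ?_ k) h4
    rw [Nat.cast_sub hkb]; push_cast; linarith
  rw [le_div_iff₀ (by positivity)]
  calc (η / 4) ^ k * (m.descFactorial k * 2 ^ k) ≤ (η / 4) ^ k * ((m:ℝ) ^ k * 2 ^ k) := by gcongr
    _ = (η * m / 2) ^ k := by rw [← mul_pow, ← mul_pow]; congr 1; ring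
    _ ≤ _ := h3

open Classical in
lemma beta_sq_le (U W : Finset (Fin n)) (hU0 : 0 < U.card) {η : ℝ} (hη : 0 < η)
    (B : Set (Fin n → Bool)) :
    (((Fr B ∩ U).card : ℝ) / U.card) ^ 2 ≤ 2 * (W.card : ℝ) ^ 2 / (U.card : ℝ) ^ 2
      + ((2 * η / U.card) * ∑ v ∈ U \ W, ∑ ε : Bool, (1 - ne (B ∩ {σ | σ v = ε}))
        + 2 * (if η * U.card ≤ (Fr B ∩ U).card then 1 else 0)) := by
  have hm : (0:ℝ) < U.card := by exact_mod_cast hU0
  have hterm : ∀ (v : Fin n) (ε : Bool), 0 ≤ 1 - ne (B ∩ {σ | σ v = ε}) :=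
    fun v ε => sub_nonneg.2 (ne_le_one _)
  set s := ∑ v ∈ U \ W, ∑ ε : Bool, (1 - ne (B ∩ {σ | σ v = ε})) with hs
  have hs0 : 0 ≤ s := sum_nonneg fun v _ => sum_nonneg fun ε _ => hterm v ε
  split_ifs with hbad
  · have h1 : ((Fr B ∩ U).card : ℝ) / U.card ≤ 1 :=
      div_le_one_of_le₀ (by exact_mod_cast card_le_card inter_subset_right) hm.le
    have h2 : (((Fr B ∩ U).card : ℝ) / U.card) ^ 2 ≤ 1 := pow_le_one₀ (by positivity) h1
    have : 0 ≤ 2 * (W.card : ℝ) ^ 2 / (U.card : ℝ) ^ 2 := by positivity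
    have : 0 ≤ (2 * η / U.card) * s := by positivity
    linarith
  · push Not at hbad
    set bo := ((Fr B ∩ U) \ W).card with hbo
    have h1 : ((Fr B ∩ U).card : ℝ) ≤ W.card + bo := by
      have := le_card_sdiff W (Fr B ∩ U)
      have : (Fr B ∩ U).card ≤ W.card + bo := by omega
      exact_mod_cast this
    have h2 : (bo : ℝ) ≤ (Fr B ∩ U).card := by exact_mod_cast card_le_card sdiff_subset
    have h3 : (bo : ℝ) ≤ s := by
      calc (bo : ℝ) = ∑ v ∈ (Fr B ∩ U) \ W, (1:ℝ) := by simp [hbo]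
        _ ≤ ∑ v ∈ (Fr B ∩ U) \ W, ∑ ε : Bool, (1 - ne (B ∩ {σ | σ v = ε})) := by
          refine sum_le_sum fun v hv => ?_
          obtain ⟨ε, hε⟩ := mem_Fr.1 (mem_inter.1 (mem_sdiff.1 hv).1).1
          have h0 : ne (B ∩ {σ | σ v = !ε}) = 0 := ne_neg (by
            rintro ⟨σ, h1, h2⟩
            have := hε σ h1
            simp only [Set.mem_setOf_eq] at h2
            rw [this] at h2; simp at h2)
          have := single_le_sum (f := fun ε : Bool => 1 - ne (B ∩ {σ | σ v = ε}))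
            (fun ε _ => hterm v ε) (mem_univ (!ε))
          simpa [h0] using this
        _ ≤ s := sum_le_sum_of_subset_of_nonneg (sdiff_subset_sdiff inter_subset_right le_rfl)
            fun v _ _ => sum_nonneg fun ε _ => hterm v ε
    have hb0 : (0:ℝ) ≤ bo := Nat.cast_nonneg _
    have h4 : ((Fr B ∩ U).card : ℝ) ^ 2 ≤ 2 * (W.card : ℝ) ^ 2 + 2 * (η * U.card * s) := by
      have h5 : ((Fr B ∩ U).card : ℝ) ^ 2 ≤ ((W.card : ℝ) + bo) ^ 2 :=
        pow_le_pow_left₀ (Nat.cast_nonneg _) h1 2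
      have h6 : (bo : ℝ) * bo ≤ η * U.card * s :=
        mul_le_mul (by linarith) h3 hb0 (by positivity)
      nlinarith [sq_nonneg ((W.card : ℝ) - bo)]
    rw [div_pow, div_le_iff₀ (by positivity)]
    refine h4.trans (le_of_eq ?_)
    field_simp; ring

lemma unit_delay {j : ℕ} {U : Finset (Fin n)} {v : Fin n} (hv : v ∉ U) (hU : j + 3 ≤ U.card)
    {M : ℕ} {Bc ρ : ℝ} (hB : 0 ≤ Bc) (hρ : 0 ≤ ρ)
    (H : ∀ a ≤ M, ∀ (A : Set (Fin n → Bool)) (W : Finset (Fin n)), Dep A W →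
      Psi (j + 3) U a A ≤ Bc * (1 + (W.card : ℝ) ^ 2) + ρ)
    {A : Set (Fin n → Bool)} {W : Finset (Fin n)} (hA : Dep A W) (hvW : v ∉ W) (ε : Bool) :
    EM (CU (j + 3) (insert v U)) M
      (fun ω => (tau con A ω - tau con (A ∩ {σ | σ v = ε}) ω) ^ 2)
      ≤ 2 * (1 + (Bc * (1 + (W.card : ℝ) ^ 2) + ρ))
        * Real.exp (((j + 3 : ℕ) : ℝ) / (U.card + 1) * (6 + 4 * ((j + 3 : ℕ) : ℝ) ^ 2) * M) := by
  set x : ℝ := 6 + 4 * ((j + 3 : ℕ) : ℝ) ^ 2 with hx
  have hx4 : 4 ≤ x := by rw [hx]; nlinarith [sq_nonneg ((j + 3 : ℕ) : ℝ)]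
  set Z := Bc * (1 + (W.card : ℝ) ^ 2) + ρ with hZ
  have hZ0 : 0 ≤ Z := by positivity
  have hS : (CU (j + 3) U).Nonempty := CU_nonempty hU
  have hDpos : 0 < U.card.descFactorial (j + 2) := Nat.descFactorial_pos.2 (by omega)
  have hY : (YU (j + 3) U v).Nonempty := by
    rw [← card_pos, card_YU hv]; positivity
  have key := EM_split (S := CU (j + 3) U) (T := YU (j + 3) U v) (avoid v)
    (fun c hc => by
      simp only [avoid, decide_eq_true_eq]
      exact fun i h => hv (h ▸ mem_CU.1 hc i))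
    (fun c hc => by
      obtain ⟨h1, h2⟩ := mem_sdiff.1 hc
      simp only [avoid, decide_eq_false_iff_not]
      exact fun h => h2 (mem_CU.2 fun i => by simpa [h i] using mem_CU.1 h1 i))
    hS hY (x := x) (by linarith) M
    (fun xs ys => ((ys.length : ℝ) + (tau con A xs - tau con (redAll v A ys) xs)) ^ 2)
    (2 * (1 + Z)) (by
      intro a N haN
      have th := theta hS hY v a hB hρ (fun A W hA => by
        refine le_trans ?_ (H a (by omega) A W hA)
        unfold Psi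
        rw [← EM_avg]
        refine EM_mono fun xs _ => ?_
        simp only [← R_kill]
        rw [← R_avg]
        exact R_mono con (fun B _ => kill_red hv (by omega) B) xs A) N A W hA
      rw [EM_comm]
      have hN : (N:ℝ) ^ 2 ≤ x ^ N := by
        have h1 : (N:ℝ) ≤ 2 ^ N := by exact_mod_cast Nat.lt_two_pow_self.le
        calc (N:ℝ) ^ 2 ≤ (2 ^ N) ^ 2 := pow_le_pow_left₀ (Nat.cast_nonneg _) h1 2
          _ = 4 ^ N := by rw [← pow_mul, mul_comm, pow_mul]; norm_num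
          _ ≤ x ^ N := pow_le_pow_left₀ (by norm_num) hx4 N
      calc _ ≤ EM (YU (j + 3) U v) N (fun ys => 2 * (N:ℝ) ^ 2 + 2 * EM (CU (j + 3) U) a
              (fun xs => (tau con A xs - tau con (redAll v A ys) xs) ^ 2)) := by
            refine EM_mono fun ys hys => ?_
            rw [← EM_mul, ← EM_const hS (2 * (N:ℝ) ^ 2) a, ← EM_add]
            refine EM_mono fun xs _ => ?_
            rw [hys]
            nlinarith [sq_nonneg ((N:ℝ) - (tau con A xs - tau con (redAll v A ys) xs))]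
        _ ≤ _ := by
            rw [EM_add, EM_const hY, EM_mul]
            rw [← hx, ← hZ] at th
            nlinarith)
  rw [CU_union_YU] at key
  have hp : ((YU (j + 3) U v).card : ℝ) / (CU (j + 3) (insert v U)).card
      = ((j + 3 : ℕ) : ℝ) / (U.card + 1) := by
    rw [card_YU hv, card_CU, card_insert_of_notMem hv, Nat.succ_descFactorial_succ]
    have : (0:ℝ) < U.card.descFactorial (j + 2) := by exact_mod_cast hDpos
    push_cast; field_simp; ring
  rw [hp] at key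
  set p : ℝ := ((j + 3 : ℕ) : ℝ) / (U.card + 1) with hpdef
  have hp0 : 0 ≤ p := by positivity
  have hp1 : p ≤ 1 := by
    rw [hpdef]; apply div_le_one_of_le₀ _ (by positivity)
    have : ((j + 3 : ℕ) : ℝ) ≤ U.card := by exact_mod_cast hU
    linarith
  refine le_trans (EM_mono fun ω _ => ?_) (key.trans ?_)
  · have h1 := tau_filter_le (avoid v) ω A
    have h2 := tau_del v ε ω A (hA.inv hvW)
    have h3 := tau_mono con ω (Set.inter_subset_left : A ∩ {σ | σ v = ε} ⊆ A)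
    apply pow_le_pow_left₀ <;> linarith
  · refine mul_le_mul_of_nonneg_left ?_ (by positivity)
    rw [mul_comm (p * x), Real.exp_nat_mul]
    refine pow_le_pow_left₀ (by nlinarith) ?_ M
    have := Real.add_one_le_exp (p * x); linarith

lemma main_rec {j n0 M : ℕ} {η Λ L : ℝ} (hη : 0 < η) (hη1 : η ≤ 1) (hn0 : j + 3 ≤ n0)
    (h2 : 2 * ((j + 3 : ℕ) : ℝ) ≤ η * n0) (hΛ : 16 * η * Λ ≤ 1)
    (hexp : Real.exp (((j + 3 : ℕ) : ℝ) / n0 * (6 + 4 * ((j + 3 : ℕ) : ℝ) ^ 2) * M) ≤ Λ)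
    (hL : (M:ℝ) + 1 ≤ L * n0) :
    ∀ (d : ℕ) (U : Finset (Fin n)), U.card = n0 + d → ∀ a ≤ M,
      ∀ (A : Set (Fin n → Bool)) (W : Finset (Fin n)), Dep A W →
      Psi (j + 3) U a A ≤ (4 * L ^ 2 + 1 + 4 * (2 / ((η / 4) ^ (j + 3)) ^ 2))
        * (1 + (W.card : ℝ) ^ 2) + (1 / 2) ^ d * ((M:ℝ) + 1) ^ 2 := by
  set Q := 2 / ((η / 4) ^ (j + 3)) ^ 2 with hQ
  have hQ0 : 0 ≤ Q := by positivity
  set Bc := 4 * L ^ 2 + 1 + 4 * Q with hBc
  have hB : 0 ≤ Bc := by positivity
  have hn0' : (0:ℝ) < n0 := by exact_mod_cast (by omega : 0 < n0)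
  intro d
  induction d with
  | zero =>
    intro U hU a ha A W _
    have hS : (CU (j + 3) U).Nonempty := CU_nonempty (by omega)
    have : Psi (j + 3) U a A ≤ ((M:ℝ) + 1) ^ 2 := by
      refine EM_le hS fun ω hω => ?_
      refine le_trans (R_mono con (g' := fun _ => 1) (fun B _ => ?_) ω A) ?_
      · exact pow_le_one₀ (by positivity) (div_le_one_of_le₀
          (by exact_mod_cast card_le_card inter_subset_right) (Nat.cast_nonneg _))
      · refine (R_const_le con ω A zero_le_one).trans ?_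
        rw [one_mul, hω]
        have : (a:ℝ) ≤ M := by exact_mod_cast ha
        gcongr
    have : 0 ≤ Bc * (1 + (W.card : ℝ) ^ 2) := by positivity
    simp only [pow_zero, one_mul]; linarith
  | succ d ih =>
    classical
    intro U hU a ha A W hA
    have hS : (CU (j + 3) U).Nonempty := CU_nonempty (by omega)
    have hU0 : 0 < U.card := by omega
    have hm : (n0:ℝ) ≤ U.card := by exact_mod_cast (by omega : n0 ≤ U.card)
    have hm0 : (0:ℝ) < U.card := by linarith
    set ρ := (1 / 2 : ℝ) ^ d * ((M:ℝ) + 1) ^ 2 with hρ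
    have hρ0 : 0 ≤ ρ := by positivity
    set Z := Bc * (1 + (W.card : ℝ) ^ 2) + ρ with hZ
    have hZ0 : 0 ≤ Z := by positivity
    have hΛ0 : 0 ≤ Λ := (Real.exp_pos _).le.trans hexp
    have hunit : ∀ v ∈ U \ W, ∀ ε : Bool, EM (CU (j + 3) U) a
        (fun ω => (tau con A ω - tau con (A ∩ {σ | σ v = ε}) ω) ^ 2) ≤ 2 * (1 + Z) * Λ := by
      intro v hv ε
      obtain ⟨hvU, hvW⟩ := mem_sdiff.1 hv
      have hc : (U.erase v).card = n0 + d := by rw [card_erase_of_mem hvU]; omega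
      have := unit_delay (j := j) (notMem_erase v U) (by omega) (M := a) hB hρ0
        (fun a' ha' A W hA => ih _ hc a' (by omega) A W hA) hA hvW ε
      rw [insert_erase hvU] at this
      refine this.trans (mul_le_mul_of_nonneg_left (le_trans (Real.exp_le_exp.2 ?_) hexp)
        (by positivity))
      have h1 : (a:ℝ) ≤ M := by exact_mod_cast ha
      have h3 : (n0:ℝ) ≤ (U.erase v).card + 1 := by
        rw [hc]; push_cast; have : (0:ℝ) ≤ d := Nat.cast_nonneg _; linarith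
      gcongr
    have hgeom := geom_R con hS (fun B => η * U.card ≤ (Fr B ∩ U).card)
      (fun B B' h hb => hb.trans (by
        exact_mod_cast card_le_card (inter_subset_inter_right (Fr_anti h))))
      (h := (η / 4) ^ (j + 3)) (by positivity) (pow_le_one₀ (by positivity) (by linarith))
      (fun B hB hb => hazard_bad hη (by omega) hU0
        (h2.trans (mul_le_mul_of_nonneg_left hm hη.le)) hB hb) a A
    have hstep : Psi (j + 3) U a A ≤ 2 * (W.card : ℝ) ^ 2 / (U.card : ℝ) ^ 2 * ((M:ℝ) + 1) ^ 2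
        + ((2 * η / U.card) * ∑ v ∈ U \ W, ∑ ε : Bool, (2 * (1 + Z) * Λ) + 2 * Q) := by
      unfold Psi
      refine le_trans (EM_mono fun ω _ => R_mono con (fun B _ => beta_sq_le U W hU0 hη B) ω A) ?_
      refine le_trans (EM_mono (G := fun ω => R con (fun _ => 2 * (W.card : ℝ) ^ 2 / (U.card : ℝ) ^ 2) A ω
        + ((2 * η / U.card) * ∑ v ∈ U \ W, ∑ ε : Bool,
          (tau con A ω - tau con (A ∩ {σ | σ v = ε}) ω) ^ 2
          + 2 * R con (fun B => if η * U.card ≤ (Fr B ∩ U).card then 1 else 0) A ω))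
        fun ω _ => le_of_eq ?_) ?_
      · rw [R_add, R_add, R_mul, R_mul, R_sum]
        simp only [R_sum, R_kill]
      rw [EM_add, EM_add, EM_mul, EM_mul, EM_sum]
      simp only [EM_sum]
      refine add_le_add ?_ (add_le_add ?_ ?_)
      · refine EM_le hS fun ω hω => (R_const_le con ω A (by positivity)).trans ?_
        rw [hω]
        have : (a:ℝ) ≤ M := by exact_mod_cast ha
        gcongr
      · exact mul_le_mul_of_nonneg_left (sum_le_sum fun v hv => sum_le_sum fun ε _ => hunit v hv ε)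
          (by positivity)
      · refine mul_le_mul_of_nonneg_left ?_ (by norm_num)
        convert hgeom
    have h3 : 2 * (W.card : ℝ) ^ 2 / (U.card : ℝ) ^ 2 * ((M:ℝ) + 1) ^ 2
        ≤ 2 * (W.card : ℝ) ^ 2 * L ^ 2 := by
      have hL0 : 0 ≤ L := by
        by_contra h; push Not at h
        have := mul_neg_of_neg_of_pos h hn0'
        have : (0:ℝ) ≤ M := Nat.cast_nonneg _
        linarith
      have : ((M:ℝ) + 1) ^ 2 ≤ (L * U.card) ^ 2 :=
        pow_le_pow_left₀ (by positivity) (hL.trans (mul_le_mul_of_nonneg_left hm hL0)) 2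
      calc _ ≤ 2 * (W.card : ℝ) ^ 2 / (U.card : ℝ) ^ 2 * (L * U.card) ^ 2 := by gcongr
        _ = _ := by field_simp
    have h4 : (2 * η / U.card) * ∑ v ∈ U \ W, ∑ ε : Bool, (2 * (1 + Z) * Λ) ≤ (1 + Z) / 2 := by
      have hc : ((U \ W).card : ℝ) ≤ U.card := by exact_mod_cast card_le_card sdiff_subset
      simp only [sum_const, card_univ, Fintype.card_bool, nsmul_eq_mul]
      calc _ ≤ (2 * η / U.card) * (U.card * ((2:ℕ) * (2 * (1 + Z) * Λ))) := by gcongr
        _ = (16 * η * Λ) * ((1 + Z) / 2) := by field_simp; push_cast; ring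
        _ ≤ 1 * ((1 + Z) / 2) := by gcongr
        _ = _ := one_mul _
    have h5 : (1 / 2 : ℝ) ^ (d + 1) * ((M:ℝ) + 1) ^ 2 = ρ / 2 := by rw [hρ]; ring
    rw [h5]
    have h6 : 0 ≤ (W.card : ℝ) ^ 2 := by positivity
    have h7 : 2 * (W.card : ℝ) ^ 2 * L ^ 2 + 1 / 2 + 2 * Q ≤ Bc * (1 + (W.card : ℝ) ^ 2) / 2 := by
      rw [hBc]; nlinarith [mul_nonneg hQ0 h6, sq_nonneg L]
    linarith

end Crest.Agent.H4.Sat
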