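import Mathlib
import Crest.Prelude.Def_TreePotentials
import Crest.Agent.H4.AUC

set_option autoImplicit false

namespace Crest.Agent.H4AUC

open Finset Filter Topology
open Crest.AnalysisR.TreePotential

/-- clipping used in the mixing construction -/
noncomputable def clip (p x : ℝ) : ℝ := if 0 ≤ p then min x 0 else max x 0

lemma clip_sub (p x : ℝ) : clip p x - clip p (-x) = x := by
  unfold clip
  split_ifs
  · rcases le_total x 0 with h | h
    · rw [min_eq_left h, min_eq_right (by linarith)]; ring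
    · rw [min_eq_right h, min_eq_left (by linarith)]; ring
  · rcases le_total x 0 with h | h
    · rw [max_eq_right h, max_eq_left (by linarith)]; ring
    · rw [max_eq_left h, max_eq_right (by linarith)]; ring

lemma clip_lip (p x y : ℝ) : |clip p x - clip p y| ≤ |x - y| := by
  unfold clip
  split_ifs
  · simpa using abs_min_sub_min_le_max x 0 y 0
  · simpa using abs_max_sub_max_le_abs x y 0

lemma clip_zero (p : ℝ) : clip p 0 = 0 := by unfold clip; simp

lemma clip_bound (a β p x : ℝ) (ha0 : 0 ≤ a) (ha1 : a ≤ 1) (hβ0 : 0 ≤ β) (hβ : β ≤ 1 / 2)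
    (hp : |p| ≤ 1) (hx : |x| ≤ 2) : |a * p + β * clip p x| ≤ 1 := by
  rw [abs_le] at hp hx ⊢
  unfold clip
  split_ifs with h
  · have h1 : -2 ≤ min x 0 := le_min hx.1 (by norm_num)
    have h2 : min x 0 ≤ 0 := min_le_right _ _
    constructor <;> nlinarith
  · have h1 : max x 0 ≤ 2 := max_le hx.2 (by norm_num)
    have h2 : 0 ≤ max x 0 := le_max_right _ _
    push Not at h
    constructor <;> nlinarith

/-- increments of a potential -/
def incr (Φ : List ℕ → ℝ) : List ℕ → ℝ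
  | [] => Φ []
  | a :: v => Φ (a :: v) - Φ v

lemma pot_incr (Φ : List ℕ → ℝ) (s : List ℕ) : pathPotential (incr Φ) s = Φ s := by
  induction s with
  | nil => rfl
  | cons a v ih => simp [pathPotential, ih, incr]

lemma pot_neg (f : List ℕ → ℝ) (s : List ℕ) :
    pathPotential (fun u => - f u) s = - pathPotential f s := by
  induction s with
  | nil => rfl
  | cons a v ih => simp only [pathPotential, ih]; ring

lemma exists_mix (f g : List ℕ → ℝ) (T : Finset (List ℕ)) (hT0 : [] ∈ T)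
    (hT : ∀ n v, n :: v ∈ T → v ∈ T) (a β : ℝ) (ha0 : 0 ≤ a) (ha1 : a ≤ 1) (hβ0 : 0 ≤ β)
    (hβ : β ≤ 1 / 2) :
    ∃ hp hm : List ℕ → ℝ, (∀ s ∈ T, hp s = a * f s ∧ hm s = a * f s) ∧
      (∀ s ∉ T, hp s - hm s = β * g s ∧ |hp s| ≤ β * |g s| ∧ |hm s| ≤ β * |g s|) ∧
      ∀ s, (∀ u, u <:+ s → |pathPotential f u| ≤ 1 ∧ |pathPotential g u| ≤ 1) →
        |pathPotential hp s| ≤ 1 ∧ |pathPotential hm s| ≤ 1 := by
  classical
  let p : List ℕ → ℝ := pathPotential fun u => if u ∈ T then f u else 0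
  let G : List ℕ → ℝ := pathPotential fun u => if u ∈ T then 0 else g u
  have hin : ∀ s ∈ T, p s = pathPotential f s ∧ G s = 0 := by
    intro s
    induction s with
    | nil => intro _; simp [p, G, pathPotential, hT0]
    | cons n v ih =>
      intro hs
      obtain ⟨h1, h2⟩ := ih (hT n v hs)
      simp only [p, G] at h1 h2
      simp [p, G, pathPotential, hs, h1, h2]
  have hout : ∀ n v, n :: v ∉ T → p (n :: v) = p v ∧ G (n :: v) = G v + g (n :: v) := by
    intro n v hs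
    simp [p, G, pathPotential, hs]
  have hexit : ∀ s, ∃ u, u <:+ s ∧ p s = pathPotential f u ∧
      G s = pathPotential g s - pathPotential g u := by
    intro s
    induction s with
    | nil => exact ⟨[], List.suffix_refl _, (hin _ hT0).1, by rw [(hin _ hT0).2]; ring⟩
    | cons n v ih =>
      by_cases hs : n :: v ∈ T
      · exact ⟨_, List.suffix_refl _, (hin _ hs).1, by rw [(hin _ hs).2]; ring⟩
      · obtain ⟨u, hu, h1, h2⟩ := ih
        refine ⟨u, hu.trans (List.suffix_cons n v), by rw [(hout n v hs).1, h1], ?_⟩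
        rw [(hout n v hs).2, h2]; simp only [pathPotential]; ring
  refine ⟨incr fun s => a * p s + β * clip (p s) (G s),
    incr fun s => a * p s + β * clip (p s) (- G s), ?_, ?_, ?_⟩
  · intro s hs
    cases s with
    | nil => simp [incr, hin _ hs, clip_zero, pathPotential]
    | cons n v =>
      simp only [incr, hin _ hs, hin _ (hT n v hs), clip_zero, pathPotential, neg_zero]
      constructor <;> ring
  · intro s hs
    cases s with
    | nil => exact absurd hT0 hs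
    | cons n v =>
      obtain ⟨h1, h2⟩ := hout n v hs
      simp only [incr, h1, h2]
      refine ⟨?_, ?_, ?_⟩
      · have e1 := clip_sub (p v) (G v + g (n :: v))
        have e2 := clip_sub (p v) (G v)
        have : β * (clip (p v) (G v + g (n :: v)) - clip (p v) (-(G v + g (n :: v))) -
          (clip (p v) (G v) - clip (p v) (-G v))) = β * g (n :: v) := by rw [e1, e2]; ring
        linarith
      · have := clip_lip (p v) (G v + g (n :: v)) (G v)
        rw [add_sub_cancel_left] at this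
        rw [add_sub_add_left_eq_sub, ← mul_sub, abs_mul, abs_of_nonneg hβ0]
        exact mul_le_mul_of_nonneg_left this hβ0
      · have := clip_lip (p v) (-(G v + g (n :: v))) (-G v)
        rw [show -(G v + g (n :: v)) - -G v = - g (n :: v) by ring, abs_neg] at this
        rw [add_sub_add_left_eq_sub, ← mul_sub, abs_mul, abs_of_nonneg hβ0]
        exact mul_le_mul_of_nonneg_left this hβ0
  · intro s hs
    obtain ⟨u, hu, h1, h2⟩ := hexit s
    have hp : |p s| ≤ 1 := by rw [h1]; exact (hs u hu).1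
    have hG : |G s| ≤ 2 := by
      rw [h2]
      have := abs_sub (pathPotential g s) (pathPotential g u)
      linarith [(hs u hu).2, (hs s (List.suffix_refl _)).2]
    rw [pot_incr, pot_incr]
    exact ⟨clip_bound a β _ _ ha0 ha1 hβ0 hβ hp hG,
      clip_bound a β _ _ ha0 ha1 hβ0 hβ hp (by rwa [abs_neg])⟩

/-- Dirac coefficient family -/
def dl (s : List ℕ) : List ℕ → ℝ := fun u => if u = s then 1 else 0

/-- a family of tests -/
structure TestFam where
  P : (List ℕ → ℝ) → Prop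
  bdd : ∀ f, P f → ∀ s, |f s| ≤ 2
  mix : ∀ (f g h : List ℕ → ℝ) (a β : ℝ), P f → P g → a ^ 2 + β ^ 2 ≤ 1 →
    (∀ s, h s ^ 2 ≤ a ^ 2 * f s ^ 2 + β ^ 2 * g s ^ 2) →
    (∀ s, (∀ u, u <:+ s → |pathPotential f u| ≤ 1 ∧ |pathPotential g u| ≤ 1) →
      |pathPotential h s| ≤ 1) → P h
  sib : ∀ f, P f → ∀ (r : List ℕ) (A : Finset ℕ), ∑ n ∈ A, f (n :: r) ^ 2 ≤ 1
  dl1 : ∀ s, s ≠ [] → P (dl s)
  dl0 : P (dl []) ∨ ∀ f, P f → f [] = 0

namespace TestFam

variable (𝒯 : TestFam)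

/-- ambient space -/
abbrev Amb : Type := lp (fun _ : {f // 𝒯.P f} => ℝ) ⊤

/-- coordinate vector -/
noncomputable def coord (s : List ℕ) : 𝒯.Amb :=
  ⟨fun f => f.1 s, memℓp_infty ⟨2, by
    rintro _ ⟨f, rfl⟩
    exact 𝒯.bdd f.1 f.2 s⟩⟩

@[simp] lemma coord_apply (s : List ℕ) (f : {f // 𝒯.P f}) : 𝒯.coord s f = f.1 s := rfl

/-- generated space -/
noncomputable def space : Submodule ℝ 𝒯.Amb :=
  (Submodule.span ℝ (Set.range 𝒯.coord)).topologicalClosure

instance : CompleteSpace 𝒯.space := (Submodule.isClosed_topologicalClosure _).completeSpace_coe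

lemma coord_mem (s : List ℕ) : 𝒯.coord s ∈ 𝒯.space :=
  Submodule.le_topologicalClosure _ (Submodule.subset_span ⟨s, rfl⟩)

/-- evaluation -/
noncomputable def ev (f : {f // 𝒯.P f}) : 𝒯.Amb →L[ℝ] ℝ := lp.evalCLM ℝ _ ⊤ f

@[simp] lemma ev_apply (f : {f // 𝒯.P f}) (v : 𝒯.Amb) : 𝒯.ev f v = v f := rfl

lemma abs_le_norm (v : 𝒯.Amb) (f : {f // 𝒯.P f}) : |v f| ≤ ‖v‖ :=
  lp.norm_apply_le_norm (by simp) v f

lemma dens (L : 𝒯.Amb →L[ℝ] ℝ) (hL : ∀ s, L (𝒯.coord s) = 0) : ∀ v ∈ 𝒯.space, L v = 0 := by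
  have h : 𝒯.space ≤ LinearMap.ker (L : 𝒯.Amb →ₗ[ℝ] ℝ) := by
    refine Submodule.topologicalClosure_minimal _ (Submodule.span_le.mpr ?_) L.isClosed_ker
    rintro _ ⟨s, rfl⟩
    exact hL s
  exact fun v hv => h hv

lemma neg_mem {f : List ℕ → ℝ} (hf : 𝒯.P f) : 𝒯.P fun u => - f u :=
  𝒯.mix f f _ 1 0 hf hf (by norm_num) (fun s => by simp) fun s hs => by
    rw [pot_neg, abs_neg]; exact (hs s (List.suffix_refl _)).1

lemma exists_norming (v : 𝒯.Amb) (hv : v ∈ 𝒯.space) (η : ℝ) (hη : 0 < η) :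
    ∃ f : {f // 𝒯.P f}, ‖v‖ - η ≤ v f := by
  by_contra hcon
  push Not at hcon
  have hneg : ∀ f : {f // 𝒯.P f}, v ⟨_, 𝒯.neg_mem f.2⟩ = - v f := by
    intro f
    have := 𝒯.dens (𝒯.ev ⟨_, 𝒯.neg_mem f.2⟩ + 𝒯.ev f) (fun s => by simp) v hv
    simp only [ContinuousLinearMap.add_apply, ev_apply] at this
    linarith
  haveI : Nonempty {f // 𝒯.P f} := ⟨⟨_, 𝒯.dl1 [0] (by simp)⟩⟩
  have : ‖v‖ ≤ ‖v‖ - η := by
    refine lp.norm_le_of_forall_le' _ fun f => ?_
    rw [Real.norm_eq_abs, abs_le]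
    have h1 := hcon f
    have h2 := hcon ⟨_, 𝒯.neg_mem f.2⟩
    rw [hneg] at h2
    constructor <;> linarith
  linarith

lemma separable : TopologicalSpace.SeparableSpace 𝒯.space := by
  have h : TopologicalSpace.IsSeparable (𝒯.space : Set 𝒯.Amb) :=
    ((Set.countable_range 𝒯.coord).isSeparable.span (R := ℝ)).closure
  exact h.separableSpace

lemma midProp : MidProp 𝒯.space := by
  classical
  intro x η hη
  obtain ⟨x', hx', hxx'⟩ := Metric.mem_closure_iff.mp x.2 (η / 7) (by positivity)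
  obtain ⟨c, rfl⟩ := Finsupp.mem_span_range_iff_exists_finsupp.mp hx'
  set x' : 𝒯.Amb := c.sum fun i a => a • 𝒯.coord i with hx'def
  rw [dist_eq_norm] at hxx'
  let T : Finset (List ℕ) := insert [] (c.support.biUnion fun s => s.tails.toFinset)
  have hT0 : [] ∈ T := mem_insert_self _ _
  have hT : ∀ n v, n :: v ∈ T → v ∈ T := by
    intro n v h
    simp only [T, mem_insert, mem_biUnion, List.mem_toFinset, List.mem_tails] at h ⊢
    rcases h with h | ⟨s, hs, h⟩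
    · simp at h
    · exact Or.inr ⟨s, hs, (List.suffix_cons n v).trans h⟩
  have hTc : ∀ s ∈ c.support, s ∈ T := by
    intro s hs
    simp only [T, mem_insert, mem_biUnion, List.mem_toFinset, List.mem_tails]
    exact Or.inr ⟨s, hs, List.suffix_refl _⟩
  let T' := {s : T // 𝒯.P (dl s.1)}
  let Φ : 𝒯.space →L[ℝ] (T' → ℝ) :=
    ContinuousLinearMap.pi fun s => (𝒯.ev ⟨_, s.2⟩).comp 𝒯.space.subtypeL
  refine ⟨_, isCofS_ker Φ, fun y hy => ?_⟩
  have hy' : ∀ s : T', (y : 𝒯.Amb) ⟨_, s.2⟩ = 0 := fun s => congrFun hy s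
  by_cases hcase : 4 * ‖x‖ ^ 2 ≤ 3 * ‖y‖ ^ 2
  · have h1 : √(4 * ‖x‖ ^ 2 + ‖y‖ ^ 2) ≤ 2 * ‖y‖ :=
      Real.sqrt_le_iff.mpr ⟨by positivity, by nlinarith⟩
    have h2 : 2 * ‖y‖ ≤ ‖x + y‖ + ‖x - y‖ := by
      have := norm_sub_le (x + y) (x - y)
      rw [show x + y - (x - y) = (2 : ℝ) • y by module, norm_smul] at this
      simpa using this
    linarith
  push Not at hcase
  set D := √(4 * ‖x‖ ^ 2 + ‖y‖ ^ 2) with hD
  have hDsq : D ^ 2 = 4 * ‖x‖ ^ 2 + ‖y‖ ^ 2 := Real.sq_sqrt (by positivity)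
  have hD0 : 0 < D := Real.sqrt_pos.mpr (by nlinarith [sq_nonneg ‖y‖])
  set a := 2 * ‖x‖ / D with ha
  set β := ‖y‖ / D with hβ
  have ha0 : 0 ≤ a := by positivity
  have hβ0 : 0 ≤ β := by positivity
  have haβ : a ^ 2 + β ^ 2 = 1 := by
    rw [ha, hβ, div_pow, div_pow, ← add_div, div_eq_one_iff_eq (by positivity), hDsq]; ring
  have ha1 : a ≤ 1 := by nlinarith
  have hβ1 : β ≤ 1 / 2 := by
    rw [hβ, div_le_iff₀ hD0]
    by_contra hc
    push Not at hc
    nlinarith [norm_nonneg y]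
  have hval : 2 * a * ‖x‖ + β * ‖y‖ = D := by
    rw [ha, hβ]; field_simp; nlinarith
  obtain ⟨f, hf⟩ := 𝒯.exists_norming x x.2 (η / 7) (by positivity)
  obtain ⟨g, hg⟩ := 𝒯.exists_norming y y.2 (η / 7) (by positivity)
  obtain ⟨hp, hm, h1, h2, h3⟩ := exists_mix f.1 g.1 T hT0 hT a β ha0 ha1 hβ0 hβ1
  have hsq : ∀ h : List ℕ → ℝ, (∀ s ∈ T, h s = a * f.1 s) → (∀ s ∉ T, |h s| ≤ β * |g.1 s|) →
      ∀ s, h s ^ 2 ≤ a ^ 2 * f.1 s ^ 2 + β ^ 2 * g.1 s ^ 2 := by
    intro h e1 e2 s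
    by_cases hs : s ∈ T
    · rw [e1 s hs, mul_pow]; nlinarith [sq_nonneg (β * g.1 s)]
    · have := pow_le_pow_left₀ (abs_nonneg _) (e2 s hs) 2
      rw [mul_pow, sq_abs, sq_abs] at this
      nlinarith [sq_nonneg (a * f.1 s)]
  have hPp : 𝒯.P hp := 𝒯.mix f.1 g.1 hp a β f.2 g.2 haβ.le
    (hsq hp (fun s hs => (h1 s hs).1) fun s hs => (h2 s hs).2.1) fun s hs => (h3 s hs).1
  have hPm : 𝒯.P hm := 𝒯.mix f.1 g.1 hm a β f.2 g.2 haβ.le
    (hsq hm (fun s hs => (h1 s hs).2) fun s hs => (h2 s hs).2.2) fun s hs => (h3 s hs).2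
  have hx_est : ∀ (h : List ℕ → ℝ) (hh : 𝒯.P h), (∀ s ∈ T, h s = a * f.1 s) →
      a * ‖x‖ - 3 * (η / 7) ≤ (x : 𝒯.Amb) ⟨h, hh⟩ := by
    intro h hh e1
    have e2 : x' ⟨h, hh⟩ = a * x' f := by
      rw [← ev_apply, ← ev_apply, hx'def, Finsupp.sum, map_sum, map_sum, mul_sum]
      refine sum_congr rfl fun s hs => ?_
      simp only [map_smul, ev_apply, coord_apply, smul_eq_mul, e1 s (hTc s hs)]
      ring
    have e3 := 𝒯.abs_le_norm ((x : 𝒯.Amb) - x') ⟨h, hh⟩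
    have e4 := 𝒯.abs_le_norm ((x : 𝒯.Amb) - x') f
    simp only [lp.coeFn_sub, Pi.sub_apply] at e3 e4
    rw [abs_le] at e3 e4
    have e5 : ‖x‖ - 2 * (η / 7) ≤ x' f := by
      have : ‖(x : 𝒯.Amb)‖ = ‖x‖ := rfl
      linarith [e4.2]
    have e6 := mul_le_mul_of_nonneg_left e5 ha0
    nlinarith [e3.1]
  have hy_est : (y : 𝒯.Amb) ⟨hp, hPp⟩ - (y : 𝒯.Amb) ⟨hm, hPm⟩ = β * (y : 𝒯.Amb) g := by
    have := 𝒯.dens (𝒯.ev ⟨hp, hPp⟩ - 𝒯.ev ⟨hm, hPm⟩ - β • 𝒯.ev g +
      ∑ s : T', (β * g.1 s.1.1) • 𝒯.ev ⟨_, s.2⟩) (fun u => ?_) y y.2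
    · simp only [ContinuousLinearMap.add_apply, ContinuousLinearMap.sub_apply,
        ContinuousLinearMap.smul_apply, ContinuousLinearMap.sum_apply, ev_apply, hy', smul_zero,
        smul_eq_mul, mul_zero, sum_const_zero, add_zero] at this
      linarith
    · simp only [ContinuousLinearMap.add_apply, ContinuousLinearMap.sub_apply,
        ContinuousLinearMap.smul_apply, ContinuousLinearMap.sum_apply, ev_apply, coord_apply,
        smul_eq_mul]
      by_cases hu : u ∈ T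
      · rw [(h1 u hu).1, (h1 u hu).2]
        by_cases hPu : 𝒯.P (dl u)
        · rw [sum_eq_single (⟨⟨u, hu⟩, hPu⟩ : T')]
          · simp [dl]
          · intro s _ hs
            have : u ≠ s.1.1 := fun h => hs (Subtype.ext (Subtype.ext h.symm))
            simp [dl, this]
          · simp
        · have hu0 : u = [] := by
            by_contra hne; exact hPu (𝒯.dl1 u hne)
          subst hu0
          have hg0 : g.1 [] = 0 := (𝒯.dl0.resolve_left hPu) g.1 g.2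
          rw [sum_eq_zero, hg0]
          · ring
          · intro s _
            have : [] ≠ s.1.1 := fun h => hPu (h ▸ s.2)
            simp [dl, this]
      · rw [(h2 u hu).1, sum_eq_zero]
        · ring
        · intro s _
          have : u ≠ s.1.1 := fun h => hu (h ▸ s.1.2)
          simp [dl, this]
  have e1 := (le_abs_self _).trans (𝒯.abs_le_norm ((x + y : 𝒯.space) : 𝒯.Amb) ⟨hp, hPp⟩)
  have e2 := (le_abs_self _).trans (𝒯.abs_le_norm ((x - y : 𝒯.space) : 𝒯.Amb) ⟨hm, hPm⟩)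
  simp only [Submodule.coe_add, Submodule.coe_sub, lp.coeFn_add, lp.coeFn_sub, Pi.add_apply,
    Pi.sub_apply] at e1 e2
  have e3 := hx_est hp hPp fun s hs => (h1 s hs).1
  have e4 := hx_est hm hPm fun s hs => (h1 s hs).2
  have e5 : β * (‖y‖ - η / 7) ≤ β * (y : 𝒯.Amb) g := mul_le_mul_of_nonneg_left hg hβ0
  change _ ≤ ‖((x : 𝒯.Amb) + y)‖ + ‖((x : 𝒯.Amb) - y)‖
  nlinarith

/-- path vector -/
noncomputable def pv : List ℕ → 𝒯.space
  | [] => ⟨𝒯.coord [], 𝒯.coord_mem _⟩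
  | a :: v => pv v + ⟨𝒯.coord (a :: v), 𝒯.coord_mem _⟩

lemma pv_apply (s : List ℕ) (f : {f // 𝒯.P f}) :
    (𝒯.pv s : 𝒯.Amb) f = pathPotential f.1 s := by
  induction s with
  | nil => rfl
  | cons a v ih => simp [pv, pathPotential, ih]

lemma tree_data (D : ℕ)
    (hpot : ∀ f, 𝒯.P f → ∀ s : List ℕ, s.length ≤ D + 1 → |pathPotential f s| ≤ 1) :
    ∃ p : List ℕ → 𝒯.space, 1 ≤ ‖p []‖ ∧ (∀ s, s.length ≤ D → ‖p s‖ ≤ 1) ∧
      (∀ s n, 1 ≤ ‖p (n :: s) - p s‖) ∧
      ∀ (s : List ℕ) (A : Finset ℕ) (a : ℕ → ℝ),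
        ‖∑ n ∈ A, a n • (p (n :: s) - p s)‖ ≤ 1 * √(∑ n ∈ A, a n ^ 2) := by
  have hdiff : ∀ (s : List ℕ) (n : ℕ), 𝒯.pv (n :: s ++ [0]) - 𝒯.pv (s ++ [0]) =
      ⟨𝒯.coord (n :: (s ++ [0])), 𝒯.coord_mem _⟩ := by
    intro s n
    simp [pv]
  refine ⟨fun s => 𝒯.pv (s ++ [0]), ?_, ?_, ?_, ?_⟩
  · have := 𝒯.abs_le_norm (𝒯.pv ([] ++ [0])) ⟨_, 𝒯.dl1 [0] (by simp)⟩
    rw [pv_apply] at this
    simpa [pathPotential, dl] using this
  · intro s hs
    change ‖(𝒯.pv (s ++ [0]) : 𝒯.Amb)‖ ≤ 1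
    refine lp.norm_le_of_forall_le zero_le_one fun f => ?_
    rw [pv_apply]
    exact hpot f.1 f.2 _ (by simp; omega)
  · intro s n
    rw [hdiff]
    have := 𝒯.abs_le_norm (𝒯.coord (n :: (s ++ [0]))) ⟨_, 𝒯.dl1 (n :: (s ++ [0])) (by simp)⟩
    simpa [dl] using this
  · intro s A a
    simp only [hdiff]
    rw [← Submodule.norm_coe]
    refine lp.norm_le_of_forall_le (by positivity) fun f => ?_
    rw [← ev_apply, Submodule.coe_sum, map_sum]
    simp only [Submodule.coe_smul, map_smul, ev_apply, coord_apply, smul_eq_mul, one_mul,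
      Real.norm_eq_abs]
    refine Real.abs_le_sqrt ((sum_mul_sq_le_sq_mul_sq A _ _).trans ?_)
    have h1 := 𝒯.sib f.1 f.2 (s ++ [0]) A
    have h2 : 0 ≤ ∑ n ∈ A, a n ^ 2 := sum_nonneg fun _ _ => sq_nonneg _
    nlinarith

end TestFam

lemma pot_dl (s u : List ℕ) : |pathPotential (dl s) u| ≤ 1 := by
  have : ∀ u : List ℕ, pathPotential (dl s) u = if s <:+ u then 1 else 0 := by
    intro u
    induction u with
    | nil =>
      simp only [pathPotential, dl, List.suffix_nil]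
      by_cases h : s = [] <;> simp [h, eq_comm]
    | cons a v ih =>
      simp only [pathPotential, ih, dl, List.suffix_cons_iff]
      by_cases h : s = a :: v
      · subst h
        have : ¬ (a :: v <:+ v) := fun h => by
          have := h.length_le; simp at this
        simp [this]
      · have h' : ¬ (a :: v = s) := fun h' => h h'.symm
        simp [h, h']
  rw [this]; split_ifs <;> simp

lemma sum_dl_sq {ι : Type*} (s : List ℕ) (A : Finset ι) (e : ι → List ℕ)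
    (he : Function.Injective e) : ∑ n ∈ A, dl s (e n) ^ 2 ≤ 1 := by
  classical
  by_cases h : ∃ n ∈ A, e n = s
  · obtain ⟨n, hn, hns⟩ := h
    rw [sum_eq_single n]
    · simp [dl, hns]
    · intro m _ hm
      have : e m ≠ s := fun h => hm (he (h.trans hns.symm))
      simp [dl, this]
    · intro h; exact absurd hn h
  · push Not at h
    rw [sum_eq_zero]
    · norm_num
    · intro n hn; simp [dl, h n hn]

lemma sum_sq_mix {ι : Type*} (A : Finset ι) (f g h : ι → ℝ) (a β : ℝ) (hab : a ^ 2 + β ^ 2 ≤ 1)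
    (hh : ∀ s, h s ^ 2 ≤ a ^ 2 * f s ^ 2 + β ^ 2 * g s ^ 2) (hf : ∑ s ∈ A, f s ^ 2 ≤ 1)
    (hg : ∑ s ∈ A, g s ^ 2 ≤ 1) : ∑ s ∈ A, h s ^ 2 ≤ 1 := by
  calc ∑ s ∈ A, h s ^ 2 ≤ ∑ s ∈ A, (a ^ 2 * f s ^ 2 + β ^ 2 * g s ^ 2) := sum_le_sum fun s _ => hh s
    _ = a ^ 2 * ∑ s ∈ A, f s ^ 2 + β ^ 2 * ∑ s ∈ A, g s ^ 2 := by
        rw [sum_add_distrib, mul_sum, mul_sum]
    _ ≤ 1 := by nlinarith [sq_nonneg a, sq_nonneg β]

end Crest.Agent.H4AUC
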